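import Vale.Agent.P146M.Stmt

/-! Internal definitions: recursive tilted systems, Gaussian systems, ridge Hamiltonians. -/

namespace Vale.Agent.P146M

open MeasureTheory ProbabilityTheory Real Finset
open scoped ENNReal

noncomputable section

/-! ### Abstract systems -/

/-- A chain of random moves `a j` with exponents `ζ j`; `ν` and `n` are size gauges. -/
structure Sys (S Ω : Type*) [MeasurableSpace Ω] where
  μ : Measure Ω
  a : ℕ → S → Ω → S
  ζ : ℕ → ℝ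
  ν : S → ℝ
  n : ℕ → Ω → ℝ

variable {S Ω : Type*} [MeasurableSpace S] [MeasurableSpace Ω]

namespace Sys

structure OK (Y : Sys S Ω) : Prop where
  prob : IsProbabilityMeasure Y.μ
  meas_a : ∀ j, Measurable fun p : S × Ω => Y.a j p.1 p.2
  ζ_pos : ∀ j, 0 < Y.ζ j
  meas_ν : Measurable Y.ν
  ν_nonneg : ∀ s, 0 ≤ Y.ν s
  meas_n : ∀ j, Measurable (Y.n j)
  n_nonneg : ∀ j w, 0 ≤ Y.n j w
  ν_a : ∀ j s w, Y.ν (Y.a j s w) ≤ Y.ν s + Y.n j w
  int_n : ∀ j (C : ℝ), Integrable (fun w => exp (C * Y.n j w)) Y.μ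

/-- exponents are nondecreasing and at most one -/
def Mono (Y : Sys S Ω) : Prop := Monotone Y.ζ ∧ ∀ j, Y.ζ j ≤ 1

/-- moves overwrite their own level and commute with each other -/
def Ow (Y : Sys S Ω) : Prop :=
  (∀ j s w w', Y.a j (Y.a j s w') w = Y.a j s w) ∧
    ∀ j j' s w w', j ≠ j' → Y.a j (Y.a j' s w') w = Y.a j' (Y.a j s w) w'

/-- linear growth -/
def Lin (Y : Sys S Ω) (Φ : S → ℝ) : Prop := Measurable Φ ∧ ∃ C, ∀ s, |Φ s| ≤ C * (1 + Y.ν s)

/-- exponential growth -/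
def Ex (Y : Sys S Ω) (g : S → ℝ) : Prop := Measurable g ∧ ∃ C, ∀ s, |g s| ≤ C * exp (C * Y.ν s)

/-- exponential growth in two variables -/
def Ex2 (Y : Sys S Ω) (G : S × S → ℝ) : Prop :=
  Measurable G ∧ ∃ C, ∀ p, |G p| ≤ C * exp (C * (Y.ν p.1 + Y.ν p.2))

/-- `g` does not see the moves of the levels `j, …, j + n - 1` -/
def Inv (Y : Sys S Ω) (n j : ℕ) {β : Type*} (g : S → β) : Prop :=
  ∀ i, j ≤ i → i < j + n → ∀ s w, g (Y.a i s w) = g s

def T (Y : Sys S Ω) (j : ℕ) (Φ : S → ℝ) (s : S) : ℝ :=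
  (Y.ζ j)⁻¹ * log (∫ w, exp (Y.ζ j * Φ (Y.a j s w)) ∂Y.μ)

/-- recursion over the levels `j, …, j + n - 1` with terminal function `H` -/
def X (Y : Sys S Ω) : ℕ → ℕ → (S → ℝ) → S → ℝ
  | 0, _, H => H
  | n + 1, j, H => Y.T j (X Y n (j + 1) H)

/-- tilted one step law -/
def stepM (Y : Sys S Ω) (j : ℕ) (Φ : S → ℝ) (s : S) : Measure S :=
  (Y.μ.withDensity fun w =>
    ENNReal.ofReal (exp (Y.ζ j * (Φ (Y.a j s w) - Y.T j Φ s)))).map (Y.a j s)

/-- tilted path law (of the final state) -/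
def m (Y : Sys S Ω) : ℕ → ℕ → (S → ℝ) → S → Measure S
  | 0, _, _, s => Measure.dirac s
  | n + 1, j, H, s => (Y.stepM j (Y.X n (j + 1) H) s).bind (m Y n (j + 1) H)

/-- tilted expectation -/
def P (Y : Sys S Ω) (n j : ℕ) (H g : S → ℝ) (s : S) : ℝ := ∫ s', g s' ∂Y.m n j H s

/-- susceptibility form -/
def D (Y : Sys S Ω) : ℕ → ℕ → (S → ℝ) → (S → ℝ) → (S → ℝ) → S → ℝ
  | 0, _, _, _, _, _ => 0
  | n + 1, j, H, g, h, s =>
    (∫ s', D Y n (j + 1) H g h s' ∂Y.stepM j (Y.X n (j + 1) H) s) +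
      Y.ζ j * ((∫ s', Y.P n (j + 1) H g s' * Y.P n (j + 1) H h s'
        ∂Y.stepM j (Y.X n (j + 1) H) s) - Y.P (n + 1) j H g s * Y.P (n + 1) j H h s)

/-- two replicas sharing the first `l` levels and then `n` independent levels -/
def pr (Y : Sys S Ω) (l n j : ℕ) (H : S → ℝ) (s : S) : Measure (S × S) :=
  (Y.m l j (Y.X n (j + l) H) s).bind fun s' => (Y.m n (j + l) H s').prod (Y.m n (j + l) H s')

/-- one parameter family with derivative, exponential growth -/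
structure Fam (Y : Sys S Ω) (U : Set ℝ) (g g' : ℝ → S → ℝ) : Prop where
  meas : ∀ t ∈ U, Measurable (g t)
  meas' : ∀ t ∈ U, Measurable (g' t)
  der : ∀ t ∈ U, ∀ s, HasDerivAt (fun t => g t s) (g' t s) t
  bd : ∃ C, ∀ t ∈ U, ∀ s, |g t s| ≤ C * exp (C * Y.ν s) ∧ |g' t s| ≤ C * exp (C * Y.ν s)

/-- one parameter family of Hamiltonians -/
structure LFam (Y : Sys S Ω) (U : Set ℝ) (H H' : ℝ → S → ℝ) : Prop extends Y.Fam U H H' where
  lin : ∃ C, ∀ t ∈ U, ∀ s, |H t s| ≤ C * (1 + Y.ν s)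

/-- morphism of systems on the levels `j, …, j + n - 1` -/
structure Hom {S' Ω' : Type*} [MeasurableSpace S'] [MeasurableSpace Ω'] (Y : Sys S Ω)
    (Y' : Sys S' Ω') (φ : ℕ → S → S') (ψ : ℕ → Ω → Ω') (n j : ℕ) : Prop where
  mφ : ∀ i, Measurable (φ i)
  mp : ∀ i, j ≤ i → i < j + n → MeasurePreserving (ψ i) Y.μ Y'.μ
  ζ_eq : ∀ i, j ≤ i → i < j + n → Y.ζ i = Y'.ζ i
  comm : ∀ i, j ≤ i → i < j + n → ∀ s w, φ (i + 1) (Y.a i s w) = Y'.a i (φ i s) (ψ i w)
  gauge : ∃ C, ∀ i, j ≤ i → i ≤ j + n → ∀ s, Y'.ν (φ i s) ≤ C * (1 + Y.ν s)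

end Sys

/-! ### Gaussian systems -/

/-- product of standard Gaussians -/
abbrev γ (I : Type*) [Fintype I] : Measure (I → ℝ) := Measure.pi fun _ => gaussianReal 0 1

/-- states: a configuration and Gaussian coordinates for every level -/
abbrev St (I Cf : Type) : Type := Cf × (ℕ → I → ℝ)

section GSdef

variable {I A Cf : Type} [Fintype I] [MeasurableSpace Cf]

/-- Gaussian levels `0, …, k - 1` with exponents (j + 1) / k, then the Gibbs level `k` -/
def GS (k : ℕ) (I : Type) [Fintype I] (ν : Measure Cf) : Sys (St I Cf) (Cf × (I → ℝ)) where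
  μ := ν.prod (γ I)
  a j s w := if j < k then (s.1, Function.update s.2 j w.2) else if j = k then (w.1, s.2) else s
  ζ j := min 1 (((j : ℝ) + 1) / k)
  ν s := ∑ j ∈ range k, ∑ i, |s.2 j i|
  n _ w := ∑ i, |w.2 i|

/-- initial state -/
def s0 (I Cf : Type) [Nonempty Cf] : St I Cf := (Classical.arbitrary Cf, 0)

variable [Nonempty Cf]

/-- free energy -/
def YY (k : ℕ) (ν : Measure Cf) (H : St I Cf → ℝ) : ℝ := (GS k I ν).X (k + 1) 0 H (s0 I Cf)

/-- one replica law -/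
def mm (k : ℕ) (ν : Measure Cf) (H : St I Cf → ℝ) : Measure (St I Cf) :=
  (GS k I ν).m (k + 1) 0 H (s0 I Cf)

/-- conditional expectation given the levels below `l` -/
def PP (k : ℕ) (ν : Measure Cf) (H : St I Cf → ℝ) (l : ℕ) (g : St I Cf → ℝ) : St I Cf → ℝ :=
  (GS k I ν).P (k + 1 - l) l H g

/-- susceptibility form given the levels below `l` -/
def DD (k : ℕ) (ν : Measure Cf) (H : St I Cf → ℝ) (l : ℕ) (g h : St I Cf → ℝ) : St I Cf → ℝ :=
  (GS k I ν).D (k + 1 - l) l H g h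

/-- law of two replicas sharing the levels below `l` -/
def pp (k : ℕ) (ν : Measure Cf) (H : St I Cf → ℝ) (l : ℕ) : Measure (St I Cf × St I Cf) :=
  (GS k I ν).pr l (k + 1 - l) 0 H (s0 I Cf)

/-- shift of one Gaussian coordinate -/
def sh [DecidableEq I] (j : ℕ) (i : I) (t : ℝ) (s : St I Cf) : St I Cf :=
  (s.1, fun j' i' => s.2 j' i' + if j' = j ∧ i' = i then t else 0)

/-- `g'` is the derivative of `g` in the Gaussian coordinate `i` of level `j` -/
def DirD [DecidableEq I] (j : ℕ) (i : I) (g g' : St I Cf → ℝ) : Prop :=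
  ∀ s, HasDerivAt (fun t => g (sh j i t s)) (g' s) 0

/-- pull back of states along a map of configurations and an embedding of coordinates -/
def pull {I' Cf' : Type} (φ : Cf' → Cf) (e : I → I') (s : St I' Cf') : St I Cf :=
  (φ s.1, fun j i => s.2 j (e i))

/-- replace the coordinates satisfying `p` in the levels below `k` -/
def mrg (k : ℕ) (p : I → Prop) [DecidablePred p] (s : St I Cf) (u : Fin k × I → ℝ) : St I Cf :=
  (s.1, fun j i => if h : j < k ∧ p i then u (⟨j, h.1⟩, i) else s.2 j i)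

end GSdef

/-! ### Ridge Hamiltonians -/

/-- every Gaussian coordinate `i` belongs to the term `own i` and carries the feature `e i` -/
structure Rg (I A Cf : Type) where
  own : I → A
  F : A → ℝ → ℝ
  F1 : A → ℝ → ℝ
  F2 : A → ℝ → ℝ
  e : I → Cf → ℝ

namespace Rg

variable {I A Cf : Type} [Fintype I] [Fintype A] [DecidableEq A] [MeasurableSpace Cf]

structure OK (R : Rg I A Cf) (K : ℝ) : Prop where
  d1 : ∀ a u, HasDerivAt (R.F a) (R.F1 a u) u
  d2 : ∀ a u, HasDerivAt (R.F1 a) (R.F2 a u) u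
  b1 : ∀ a u, |R.F1 a u| ≤ K
  b2 : ∀ a u, |R.F2 a u| ≤ K
  me : ∀ i, Measurable (R.e i)
  be : ∃ C, ∀ i σ, |R.e i σ| ≤ C

/-- argument of the term `a` -/
def U (R : Rg I A Cf) (k : ℕ) (lam : ℕ → I → ℝ) (a : A) (s : St I Cf) : ℝ :=
  ∑ j ∈ range k, ∑ i ∈ univ.filter (fun i => R.own i = a), lam j i * R.e i s.1 * s.2 j i

/-- Hamiltonian with coefficients `lam` -/
def H (R : Rg I A Cf) (k : ℕ) (lam : ℕ → I → ℝ) (s : St I Cf) : ℝ := ∑ a, R.F a (R.U k lam a s)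

/-- Hamiltonian with variances `w` -/
def Hv (R : Rg I A Cf) (k : ℕ) (w : ℕ → I → ℝ) : St I Cf → ℝ := R.H k fun j i => √(w j i)

/-- gradient feature of the coordinate `i` -/
def ψ (R : Rg I A Cf) (k : ℕ) (w : ℕ → I → ℝ) (i : I) (s : St I Cf) : ℝ :=
  R.e i s.1 * R.F1 (R.own i) (R.U k (fun j i => √(w j i)) (R.own i) s)

/-- diagonal term of the coordinate `i` -/
def dg (R : Rg I A Cf) (k : ℕ) (w : ℕ → I → ℝ) (i : I) (s : St I Cf) : ℝ :=
  R.e i s.1 ^ 2 * R.F2 (R.own i) (R.U k (fun j i => √(w j i)) (R.own i) s) + R.ψ k w i s ^ 2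

/-- additional coordinates -/
def ext (R : Rg I A Cf) {I' : Type} (own' : I' → A) (e' : I' → Cf → ℝ) : Rg (I ⊕ I') A Cf where
  own := Sum.elim R.own own'
  F := R.F
  F1 := R.F1
  F2 := R.F2
  e := Sum.elim R.e e'

variable [Nonempty Cf]

/-- free energy as a function of the variances -/
def Yv (R : Rg I A Cf) (k : ℕ) (ν : Measure Cf) (w : ℕ → I → ℝ) : ℝ := YY k ν (R.Hv k w)

/-- derivative of the free energy at `w` in the direction `w'` -/
def GI (R : Rg I A Cf) (k : ℕ) (ν : Measure Cf) (w w' : ℕ → I → ℝ) : ℝ :=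
  (1 / 2) * (∫ s, ∑ i, (∑ j ∈ range k, w' j i) * R.dg k w i s ∂mm k ν (R.Hv k w)) -
    (1 / (2 * (k : ℝ))) * ∑ l ∈ range k,
      ∫ p, ∑ i, (∑ j ∈ range l, w' j i) * (R.ψ k w i p.1 * R.ψ k w i p.2) ∂pp k ν (R.Hv k w) l

end Rg

/-! ### Concrete systems -/

/-- smooth potentials with bounded derivatives -/
structure Nice (f f1 f2 : ℝ → ℝ) (K : ℝ) : Prop where
  one_le : 1 ≤ K
  d1 : ∀ u, HasDerivAt f (f1 u) u
  d2 : ∀ u, HasDerivAt f1 (f2 u) u
  b0 : ∀ u, |f u| ≤ K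
  b1 : ∀ u, |f1 u| ≤ K
  b2 : ∀ u, |f2 u| ≤ K
  u1 : ∀ u, |u * f1 u| ≤ K
  u2 : ∀ u, |u * f2 u| ≤ K

/-- spin configurations on the sphere of squared radius `card ι` -/
structure Spin {ι Cf : Type} [Fintype ι] [MeasurableSpace Cf] (ν : Measure Cf)
    (x : Cf → ι → ℝ) : Prop where
  prob : IsProbabilityMeasure ν
  meas : Measurable x
  norm : ∀ σ, ∑ i, x σ i ^ 2 = Fintype.card ι

/-- the law of the spin is invariant under rotations -/
def RotInv {ι Cf : Type} [Fintype ι] [MeasurableSpace Cf] (ν : Measure Cf)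
    (x : Cf → ι → ℝ) : Prop :=
  ∀ L : EuclideanSpace ℝ ι ≃ₗᵢ[ℝ] EuclideanSpace ℝ ι,
    ν.map (fun σ => L (WithLp.toLp 2 (x σ))) = ν.map fun σ => WithLp.toLp 2 (x σ)

/-- normalised overlap -/
def ov {ι Cf : Type} [Fintype ι] (x : Cf → ι → ℝ) (σ σ' : Cf) : ℝ :=
  (∑ i, x σ i * x σ' i) / Fintype.card ι

/-- the perceptron with perturbation fields: coordinates `inl i` (fields on the spins),
`inr (a, i, false)` (patterns), `inr (a, i, true)` (fields on the patterns) -/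
def Md {ι Cf : Type} (κ : Type) (x : Cf → ι → ℝ) (f f1 f2 : ℝ → ℝ) :
    Rg (ι ⊕ κ × ι × Bool) (Option κ) Cf where
  own := Sum.elim (fun _ => none) fun p => some p.1
  F a := a.elim id fun _ => f
  F1 a := a.elim (fun _ => 1) fun _ => f1
  F2 a := a.elim (fun _ => 0) fun _ => f2
  e := Sum.elim (fun i σ => x σ i) fun p σ => if p.2.2 then 1 else x σ p.2.1

/-- variances of the perturbed perceptron -/
def wM (ι κ : Type) [Fintype ι] (s : ℝ) (y b : ℕ → ℝ) (j : ℕ) : ι ⊕ κ × ι × Bool → ℝ :=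
  Sum.elim (fun _ => y j) fun p =>
    if p.2.2 then b j / Fintype.card ι else if j = 0 then s / Fintype.card ι else 0

section MdDefs

variable {ι Cf : Type} (κ : Type) [Fintype ι] [Fintype κ] [DecidableEq κ] [MeasurableSpace Cf]
  [Nonempty Cf] (k : ℕ) (ν : Measure Cf) (x : Cf → ι → ℝ) (f f1 f2 : ℝ → ℝ) (s : ℝ) (y b : ℕ → ℝ)

/-- Hamiltonian of the perturbed perceptron -/
def HM : St (ι ⊕ κ × ι × Bool) Cf → ℝ := (Md κ x f f1 f2).Hv k (wM ι κ s y b)

/-- free energy of the perturbed perceptron -/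
def YM : ℝ := (Md κ x f f1 f2).Yv k ν (wM ι κ s y b)

/-- argument of the pattern `a` -/
def UM (a : κ) : St (ι ⊕ κ × ι × Bool) Cf → ℝ :=
  (Md κ x f f1 f2).U k (fun j i => √(wM ι κ s y b j i)) (some a)

/-- spin overlap of two replicas -/
def RM {I : Type} (p : St I Cf × St I Cf) : ℝ := ov x p.1.1 p.2.1

/-- pattern overlap of two replicas -/
def QM (p : St (ι ⊕ κ × ι × Bool) Cf × St (ι ⊕ κ × ι × Bool) Cf) : ℝ :=
  (∑ a, f1 (UM κ k x f f1 f2 s y b a p.1) * f1 (UM κ k x f f1 f2 s y b a p.2)) / Fintype.card ι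

/-- mean spin overlap at level `l` -/
def eR (l : ℕ) : ℝ := ∫ p, RM x p ∂pp k ν (HM κ k x f f1 f2 s y b) l

/-- mean pattern overlap at level `l` -/
def eQ (l : ℕ) : ℝ := ∫ p, QM κ k x f f1 f2 s y b p ∂pp k ν (HM κ k x f f1 f2 s y b) l

/-- averaged fluctuation of the spin overlap -/
def vR : ℝ := (1 / (k : ℝ)) * ∑ l ∈ range k,
  ∫ p, (RM x p - eR κ k ν x f f1 f2 s y b l) ^ 2 ∂pp k ν (HM κ k x f f1 f2 s y b) l

/-- averaged fluctuation of the pattern overlap -/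
def vQ : ℝ := (1 / (k : ℝ)) * ∑ l ∈ range k,
  ∫ p, (QM κ k x f f1 f2 s y b p - eQ κ k ν x f f1 f2 s y b l) ^ 2
    ∂pp k ν (HM κ k x f f1 f2 s y b) l

end MdDefs

/-- the overlap path through the values `e 1, …, e (k - 1)` -/
def pathQ (k : ℕ) (e : ℕ → ℝ) (l : ℕ) : ℝ := if l = 0 then 0 else if l < k then e l else 1

/-- the field path through the values `e 1, …, e (k - 1)` -/
def pathR (k : ℕ) (e : ℕ → ℝ) (l : ℕ) : ℝ := if min l (k - 1) = 0 then 0 else e (min l (k - 1))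

/-- strictly increasing on the levels that matter -/
def Strict (k : ℕ) (r : ℕ → ℝ) : Prop := ∀ j, j + 1 < k → r j < r (j + 1)

/-- spins in a Gaussian field -/
def Sp {ι Cf : Type} (x : Cf → ι → ℝ) : Rg ι Unit Cf where
  own _ := ()
  F _ := id
  F1 _ _ := 1
  F2 _ _ := 0
  e i σ := x σ i

/-- variances of the field with path `r` -/
def wS (ι : Type) (k : ℕ) (r : ℕ → ℝ) (j : ℕ) (_ : ι) : ℝ := if j + 1 < k then r (j + 1) - r j else 0

/-- spin functional per coordinate -/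
def XN {ι Cf : Type} [Fintype ι] [MeasurableSpace Cf] [Nonempty Cf] (k : ℕ) (ν : Measure Cf)
    (x : Cf → ι → ℝ) (r : ℕ → ℝ) : ℝ :=
  (Sp x).Yv k ν (wS ι k r) / Fintype.card ι - r (k - 1) / 2

/-- overlap at level `l` of the spins in the field `r` -/
def pS {ι Cf : Type} [Fintype ι] [MeasurableSpace Cf] [Nonempty Cf] (k : ℕ) (ν : Measure Cf)
    (x : Cf → ι → ℝ) (r : ℕ → ℝ) (l : ℕ) : ℝ :=
  ∫ p, ov x p.1.1 p.2.1 ∂pp k ν ((Sp x).Hv k (wS ι k r)) l

/-- a single pattern in a tree field -/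
def Pt (f f1 f2 : ℝ → ℝ) : Rg Unit Unit Unit where
  own _ := ()
  F _ := f
  F1 _ := f1
  F2 _ := f2
  e _ _ := 1

/-- variances of the tree field with path `q` -/
def wP (q : ℕ → ℝ) (j : ℕ) (_ : Unit) : ℝ := q (j + 1) - q j

/-- expected log partition function -/
def EL {ι Cf : Type} (κ : Type) [Fintype ι] [Fintype κ] [MeasurableSpace Cf] (ν : Measure Cf)
    (x : Cf → ι → ℝ) (f : ℝ → ℝ) : ℝ :=
  ∫ g : κ → ι → ℝ, log (∫ σ, exp (∑ a, f ((∑ i, g a i * x σ i) / √(Fintype.card ι : ℝ))) ∂ν)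
    ∂Measure.pi fun _ => γ ι

/-- block spins -/
def blk {ι Cf : Type} (β : Type) (x : Cf → ι → ℝ) (σ : β → Cf) (p : β × ι) : ℝ := x (σ p.1) p.2

/-! ### Field systems -/

/-- additive Gaussian field on a Euclidean space -/
def FS (ι : Type) [Fintype ι] (ζ v : ℕ → ℝ) :
    Sys (EuclideanSpace ℝ ι) (EuclideanSpace ℝ ι) where
  μ := stdGaussian (EuclideanSpace ℝ ι)
  a j h w := h + √(v j) • w
  ζ := ζ
  ν h := ‖h‖
  n j w := √(v j) * ‖w‖

/-- additive Gaussian field on the line -/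
def RS (k : ℕ) (v : ℕ → ℝ) : Sys ℝ ℝ where
  μ := gaussianReal 0 1
  a j h w := h + √(v j) * w
  ζ j := min 1 (((j : ℝ) + 1) / k)
  ν h := |h|
  n j w := √(v j) * |w|

/-- log Laplace transform of the spin law -/
def Φs {ι Cf : Type} [Fintype ι] [MeasurableSpace Cf] (ν : Measure Cf) (x : Cf → ι → ℝ)
    (h : EuclideanSpace ℝ ι) : ℝ :=
  log (∫ σ, exp (∑ i, h i * x σ i) ∂ν)

/-- magnetisation -/
def Mg {ι Cf : Type} [Fintype ι] [MeasurableSpace Cf] (ν : Measure Cf) (x : Cf → ι → ℝ)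
    (i : ι) (h : EuclideanSpace ℝ ι) : ℝ :=
  (∫ σ, x σ i * exp (∑ i, h i * x σ i) ∂ν) / ∫ σ, exp (∑ i, h i * x σ i) ∂ν

/-- squared magnetisation after `l` of `l + n` levels, started at zero field -/
def pF {ι Cf : Type} [Fintype ι] [MeasurableSpace Cf] (ν : Measure Cf) (x : Cf → ι → ℝ)
    (ζ v : ℕ → ℝ) (l n : ℕ) : ℝ :=
  (FS ι ζ v).P l 0 ((FS ι ζ v).X n l (Φs ν x))
    (fun h => ∑ i, (FS ι ζ v).P n l (Φs ν x) (Mg ν x i) h ^ 2) 0

/-! ### The cavity system -/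

/-- joint spin of two independent parts -/
def xx {ι ι' Cf Cf' : Type} (x : Cf → ι → ℝ) (x' : Cf' → ι' → ℝ) (σ : Cf × Cf') : ι ⊕ ι' → ℝ :=
  Sum.elim (x σ.1) (x' σ.2)

/-- coordinates of the cavity system -/
abbrev IC (ι ι' κ κ' : Type) : Type := ((ι ⊕ ι') ⊕ (κ ⊕ κ') × (ι ⊕ ι') × Bool) ⊕ ι'

/-- the large perceptron with one more field on the new spins -/
def Cv {ι ι' Cf Cf' : Type} (κ κ' : Type) (x : Cf → ι → ℝ) (x' : Cf' → ι' → ℝ)
    (f f1 f2 : ℝ → ℝ) : Rg (IC ι ι' κ κ') (Option (κ ⊕ κ')) (Cf × Cf') :=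
  (Md (κ ⊕ κ') (xx x x') f f1 f2).ext (fun _ => none) fun i σ => x' σ.2 i

/-- variances of the cavity interpolation -/
def wC (ι ι' κ κ' : Type) [Fintype ι] [Fintype ι'] (k : ℕ) (y b p Q θ : ℕ → ℝ) (t η : ℝ)
    (j : ℕ) : IC ι ι' κ κ' → ℝ
  | .inl (.inl (.inl _)) => y j
  | .inl (.inl (.inr i)) => y j + (1 - t) * wS ι' k Q j i
  | .inl (.inr (.inl _, .inl _, c)) => (if c then b j else if j = 0 then 1 else 0) *
      ((1 - t) / Fintype.card ι + t / (Fintype.card ι + Fintype.card ι'))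
  | .inl (.inr (.inl _, .inr _, c)) => (if c then b j else if j = 0 then 1 else 0) *
      (t / (Fintype.card ι + Fintype.card ι'))
  | .inl (.inr (.inr _, _, c)) =>
      (if c then b j + (1 - t) * (p (j + 1) - p j) else if j = 0 then t else 0) /
        (Fintype.card ι + Fintype.card ι')
  | .inr i => η * wS ι' k θ j i

/-- the coordinates of the small perceptron inside the cavity system -/
def eC (ι ι' κ κ' : Type) : ι ⊕ κ × ι × Bool → IC ι ι' κ κ' :=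
  Sum.elim (fun i => .inl (.inl (.inl i))) fun p => .inl (.inr (.inl p.1, .inl p.2.1, p.2.2))

/-- sum over a family of patterns of the products of derivatives in two replicas -/
def SC {ι ι' Cf Cf' κ κ' α : Type} [Fintype ι] [Fintype ι'] [Fintype κ] [Fintype κ'] [Fintype α]
    [DecidableEq κ] [DecidableEq κ'] (c : α → κ ⊕ κ') (k : ℕ) (x : Cf → ι → ℝ)
    (x' : Cf' → ι' → ℝ) (f f1 f2 : ℝ → ℝ) (w : ℕ → IC ι ι' κ κ' → ℝ)
    (z : St (IC ι ι' κ κ') (Cf × Cf') × St (IC ι ι' κ κ') (Cf × Cf')) : ℝ :=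
  ∑ a, f1 ((Cv κ κ' x x' f f1 f2).U k (fun j i => √(w j i)) (some (c a)) z.1) *
    f1 ((Cv κ κ' x x' f f1 f2).U k (fun j i => √(w j i)) (some (c a)) z.2)

/-! ### The shape of the final bounds -/

/-- upper and lower bounds for a sequence `p` by the `k` level functionals -/
def UL (p : ℕ → ℝ) (Ψ : ℕ → (ℕ → ℝ) → ℝ) (Bd : ℕ → (ℕ → ℝ) → ℝ → Prop) : Prop :=
  (∀ η > 0, ∃ k0, ∀ k ≥ k0, ∀ q B, AdmQ k q → Bd k q B →
    ∀ᶠ N in Filter.atTop, p N ≤ Ψ k q + B + η) ∧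
  (∀ η > 0, ∃ k0, ∀ k ≥ k0, ∀ V : ℝ, (∀ q B, AdmQ k q → Bd k q B → V ≤ Ψ k q + B) →
    ∀ᶠ N in Filter.atTop, V - η ≤ p N)

/-- bound on the Ising spin part -/
def BdI (k : ℕ) (q : ℕ → ℝ) (B : ℝ) : Prop := ∀ r, AdmR r → XI k r + pairing k q r ≤ B

/-- bound on the spherical spin part -/
def BdS (k : ℕ) (q : ℕ → ℝ) (B : ℝ) : Prop :=
  ∀ r, AdmR r → ∃ b, 0 < dS k r b 0 ∧ XS k r b + pairing k q r ≤ B

/-- the uniform law on one Ising spin -/
def νB : Measure Bool := uniformOn Set.univ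

/-- one Ising spin -/
def xB (σ : Bool) (_ : Unit) : ℝ := if σ then 1 else -1

end

end Vale.Agent.P146M
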