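import Vale.Agent.P146M.IBP

/-! Growth bounds, measurability and derivatives of ridge Hamiltonians. -/

namespace Vale.Agent.P146M

open MeasureTheory ProbabilityTheory Real Finset Filter Topology
open scoped ENNReal

theorem Sys.UB.of_lin {S Ω : Type*} [MeasurableSpace S] [MeasurableSpace Ω] {Y : Sys S Ω}
    {U : Set ℝ} {g : ℝ → S → ℝ} (hY : Y.OK) {C : ℝ}
    (h : ∀ t ∈ U, ∀ s, |g t s| ≤ C * (1 + Y.ν s)) : Y.UB U g := by
  refine ⟨|C| + 1, by positivity, fun t ht s => (h t ht s).trans ?_⟩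
  have h1 := hY.ν_nonneg s
  have h2 := add_one_le_exp ((|C| + 1) * Y.ν s)
  have h3 := le_abs_self C
  have h4 := abs_nonneg C
  refine mul_le_mul (by linarith) ?_ (by linarith) (by linarith)
  nlinarith [mul_nonneg h4 h1]

theorem Sys.UB.of_bdd {S Ω : Type*} [MeasurableSpace S] [MeasurableSpace Ω] {Y : Sys S Ω}
    {U : Set ℝ} {g : ℝ → S → ℝ} (hY : Y.OK) {C : ℝ}
    (h : ∀ t ∈ U, ∀ s, |g t s| ≤ C) : Y.UB U g :=
  Sys.UB.of_lin hY (C := C) fun t ht s => (h t ht s).trans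
    (le_mul_of_one_le_right ((abs_nonneg _).trans (h t ht s)) (by linarith [hY.ν_nonneg s]))

theorem Sys.UB.sum {S Ω : Type*} [MeasurableSpace S] [MeasurableSpace Ω] {Y : Sys S Ω}
    {U : Set ℝ} (hY : Y.OK) {α : Type*} (A : Finset α) {g : α → ℝ → S → ℝ}
    (h : ∀ a ∈ A, Y.UB U (g a)) : Y.UB U fun t s => ∑ a ∈ A, g a t s := by
  classical
  induction A using Finset.induction_on with
  | empty => simpa using Sys.UB.cst hY 0
  | insert a A ha ih =>
    simp only [sum_insert ha]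
    exact Sys.UB.add hY (h a (mem_insert_self _ _)) (ih fun b hb => h b (mem_insert_of_mem hb))

namespace Rg

variable {I A Cf : Type} [Fintype I] [Fintype A] [DecidableEq A] [MeasurableSpace Cf]
  {R : Rg I A Cf} {K : ℝ} {k : ℕ} {ν : Measure Cf} [IsProbabilityMeasure ν]

omit [Fintype I] [Fintype A] [DecidableEq A] in
theorem OK.be' (hR : R.OK K) : ∃ C, 0 ≤ C ∧ ∀ i σ, |R.e i σ| ≤ C := by
  obtain ⟨C, hC⟩ := hR.be
  exact ⟨|C|, abs_nonneg C, fun i σ => (hC i σ).trans (le_abs_self C)⟩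

omit [Fintype I] [Fintype A] [DecidableEq A] in
theorem OK.lipF (hR : R.OK K) (a : A) (u v : ℝ) : |R.F a u - R.F a v| ≤ K * |u - v| := by
  have := Convex.norm_image_sub_le_of_norm_hasDerivWithin_le (f := R.F a) (f' := R.F1 a)
    (s := Set.univ) (C := K) (x := v) (y := u) (fun x _ => (hR.d1 a x).hasDerivWithinAt)
    (fun x _ => hR.b1 a x) convex_univ trivial trivial
  simpa [Real.norm_eq_abs] using this

omit [Fintype I] [Fintype A] [DecidableEq A] in
theorem OK.mF (hR : R.OK K) (a : A) : Measurable (R.F a) :=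
  (continuous_iff_continuousAt.2 fun u => (hR.d1 a u).continuousAt).measurable

omit [Fintype I] [Fintype A] [DecidableEq A] in
theorem OK.mF1 (hR : R.OK K) (a : A) : Measurable (R.F1 a) :=
  (continuous_iff_continuousAt.2 fun u => (hR.d2 a u).continuousAt).measurable

omit [Fintype I] [Fintype A] [DecidableEq A] in
theorem OK.mF2 (hR : R.OK K) (a : A) : Measurable (R.F2 a) := by
  have : R.F2 a = deriv (R.F1 a) := funext fun u => (hR.d2 a u).deriv.symm
  rw [this]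
  exact measurable_deriv _

omit [Fintype A] in
theorem measurable_U (hR : R.OK K) (lam : ℕ → I → ℝ) (a : A) : Measurable (R.U k lam a) := by
  unfold U
  refine Finset.measurable_sum _ fun j _ => Finset.measurable_sum _ fun i _ => ?_
  exact (measurable_const.mul ((hR.me i).comp measurable_fst)).mul
    ((measurable_pi_apply i).comp ((measurable_pi_apply j).comp measurable_snd))

omit [Fintype A] [IsProbabilityMeasure ν] in
theorem abs_U_le {Ce C : ℝ} (hCe : 0 ≤ Ce) (he : ∀ i σ, |R.e i σ| ≤ Ce) (hC : 0 ≤ C)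
    {lam : ℕ → I → ℝ} (hl : ∀ j < k, ∀ i, |lam j i| ≤ C) (a : A) (s : St I Cf) :
    |R.U k lam a s| ≤ C * Ce * (GS k I ν).ν s := by
  unfold U
  show _ ≤ C * Ce * ∑ j ∈ range k, ∑ i, |s.2 j i|
  rw [mul_sum]
  refine (abs_sum_le_sum_abs _ _).trans (sum_le_sum fun j hj => ?_)
  refine (abs_sum_le_sum_abs _ _).trans ?_
  rw [mul_sum]
  refine (sum_le_sum_of_subset_of_nonneg (filter_subset _ _) fun _ _ _ => abs_nonneg _).trans
    (sum_le_sum fun i _ => ?_)
  rw [abs_mul, abs_mul]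
  exact mul_le_mul_of_nonneg_right (mul_le_mul (hl j (mem_range.1 hj) i) (he i _) (abs_nonneg _) hC)
    (abs_nonneg _)

omit [Fintype A] [DecidableEq A] [MeasurableSpace Cf] in
theorem le_sum_abs (lam : ℕ → I → ℝ) {j : ℕ} (hj : j < k) (i : I) :
    |lam j i| ≤ ∑ j ∈ range k, ∑ i, |lam j i| :=
  (single_le_sum (f := fun i => |lam j i|) (fun _ _ => abs_nonneg _) (mem_univ i)).trans
    (single_le_sum (f := fun j => ∑ i, |lam j i|)
      (fun _ _ => sum_nonneg fun _ _ => abs_nonneg _) (mem_range.2 hj))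

omit [Fintype A] [MeasurableSpace Cf] in
theorem U_sub (lam lam' : ℕ → I → ℝ) (a : A) (s : St I Cf) :
    R.U k lam a s - R.U k lam' a s = R.U k (fun j i => lam j i - lam' j i) a s := by
  unfold U
  rw [← sum_sub_distrib]
  refine sum_congr rfl fun j _ => ?_
  rw [← sum_sub_distrib]
  exact sum_congr rfl fun i _ => by ring

theorem lin_U (hR : R.OK K) (hk : 0 < k) (lam : ℕ → I → ℝ) (a : A) :
    (GS k I ν).Lin (R.U k lam a) := by
  obtain ⟨Ce, h0, he⟩ := hR.be'
  have hS : 0 ≤ ∑ j ∈ range k, ∑ i, |lam j i| :=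
    sum_nonneg fun _ _ => sum_nonneg fun _ _ => abs_nonneg _
  refine ⟨measurable_U hR lam a, (∑ j ∈ range k, ∑ i, |lam j i|) * Ce, fun s => ?_⟩
  refine (abs_U_le (ν := ν) h0 he hS (fun j hj i => le_sum_abs lam hj i) a s).trans ?_
  exact mul_le_mul_of_nonneg_left (by linarith) (mul_nonneg hS h0)

omit [IsProbabilityMeasure ν] in
theorem abs_H_le (hR : R.OK K) {Ce C : ℝ} (hCe : 0 ≤ Ce) (he : ∀ i σ, |R.e i σ| ≤ Ce)
    (hC : 0 ≤ C) {lam : ℕ → I → ℝ} (hl : ∀ j < k, ∀ i, |lam j i| ≤ C) (s : St I Cf) :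
    |R.H k lam s| ≤ (∑ a, (|R.F a 0| + K * (C * Ce))) * (1 + (GS k I ν).ν s) := by
  have hν : 0 ≤ (GS k I ν).ν s := by
    show 0 ≤ ∑ j ∈ range k, ∑ i, |s.2 j i|
    exact sum_nonneg fun _ _ => sum_nonneg fun _ _ => abs_nonneg _
  unfold H
  rw [sum_mul]
  refine (abs_sum_le_sum_abs _ _).trans (sum_le_sum fun a _ => ?_)
  have h1 := hR.lipF a (R.U k lam a s) 0
  have h2 := abs_U_le (ν := ν) hCe he hC hl a s
  have hK : 0 ≤ K := (abs_nonneg _).trans (hR.b1 a 0)
  rw [sub_zero] at h1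
  have h3 : |R.F a (R.U k lam a s)| ≤ |R.F a 0| + |R.F a (R.U k lam a s) - R.F a 0| := by
    have := abs_add_le (R.F a 0) (R.F a (R.U k lam a s) - R.F a 0)
    rwa [add_sub_cancel] at this
  have h4 := mul_le_mul_of_nonneg_left h2 hK
  have h5 := mul_nonneg (abs_nonneg (R.F a 0)) hν
  have h6 := mul_nonneg hK (mul_nonneg hC hCe)
  nlinarith

theorem measurable_H (hR : R.OK K) (lam : ℕ → I → ℝ) : Measurable (R.H k lam) :=
  Finset.measurable_sum _ fun a _ => (hR.mF a).comp (measurable_U hR lam a)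

theorem lin_H (hR : R.OK K) (hk : 0 < k) (lam : ℕ → I → ℝ) : (GS k I ν).Lin (R.H k lam) := by
  obtain ⟨Ce, h0, he⟩ := hR.be'
  exact ⟨measurable_H hR lam, _, abs_H_le hR h0 he
    (sum_nonneg fun _ _ => sum_nonneg fun _ _ => abs_nonneg _) fun j hj i => le_sum_abs lam hj i⟩

theorem lin_Hv (hR : R.OK K) (hk : 0 < k) (w : ℕ → I → ℝ) : (GS k I ν).Lin (R.Hv k w) :=
  lin_H hR hk _

omit [Fintype A] in
theorem measurable_ψ (hR : R.OK K) (w : ℕ → I → ℝ) (i : I) : Measurable (R.ψ k w i) :=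
  ((hR.me i).comp measurable_fst).mul ((hR.mF1 _).comp (measurable_U hR _ _))

omit [Fintype A] in
theorem measurable_dg (hR : R.OK K) (w : ℕ → I → ℝ) (i : I) : Measurable (R.dg k w i) :=
  ((((hR.me i).comp measurable_fst).pow_const 2).mul
    ((hR.mF2 _).comp (measurable_U hR _ _))).add ((measurable_ψ hR w i).pow_const 2)

omit [Fintype A] in
theorem ψ_sq_le (hR : R.OK K) (w : ℕ → I → ℝ) (i : I) (s : St I Cf) :
    R.ψ k w i s ^ 2 ≤ K ^ 2 * R.e i s.1 ^ 2 := by
  unfold ψ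
  rw [mul_pow, mul_comm]
  refine mul_le_mul_of_nonneg_right ?_ (sq_nonneg _)
  rw [← sq_abs]
  exact pow_le_pow_left₀ (abs_nonneg _) (hR.b1 _ _) 2

omit [Fintype A] in
theorem abs_dg_le (hR : R.OK K) (w : ℕ → I → ℝ) (i : I) (s : St I Cf) :
    |R.dg k w i s| ≤ (K + K ^ 2) * R.e i s.1 ^ 2 := by
  unfold dg
  refine (abs_add_le _ _).trans ?_
  rw [abs_mul, abs_of_nonneg (sq_nonneg (R.e i s.1)), abs_of_nonneg (sq_nonneg (R.ψ k w i s))]
  have h1 := ψ_sq_le (k := k) hR w i s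
  have h2 := mul_le_mul_of_nonneg_left
    (hR.b2 (R.own i) (R.U k (fun j i => √(w j i)) (R.own i) s)) (sq_nonneg (R.e i s.1))
  linarith

theorem ex_ψ (hR : R.OK K) (hk : 0 < k) (w : ℕ → I → ℝ) (i : I) :
    (GS k I ν).Ex (R.ψ k w i) := by
  obtain ⟨Ce, h0, he⟩ := hR.be'
  refine Sys.Ex.of_bdd (gs_ok hk) (measurable_ψ hR w i) (Ce * K) fun s => ?_
  unfold ψ
  rw [abs_mul]
  exact mul_le_mul (he _ _) (hR.b1 _ _) (abs_nonneg _) h0

theorem ex_dg (hR : R.OK K) (hk : 0 < k) (w : ℕ → I → ℝ) (i : I) :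
    (GS k I ν).Ex (R.dg k w i) := by
  obtain ⟨Ce, h0, he⟩ := hR.be'
  have hK : 0 ≤ K := (abs_nonneg _).trans (hR.b1 (R.own i) 0)
  refine Sys.Ex.of_bdd (gs_ok hk) (measurable_dg hR w i) ((K + K ^ 2) * Ce ^ 2) fun s => ?_
  refine (abs_dg_le hR w i s).trans (mul_le_mul_of_nonneg_left ?_ (by positivity))
  rw [← sq_abs]
  exact pow_le_pow_left₀ (abs_nonneg _) (he _ _) 2

omit [Fintype A] [MeasurableSpace Cf] in
theorem dirD_U [DecidableEq I] (lam : ℕ → I → ℝ) {j : ℕ} (hj : j < k) (i : I) (a : A) :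
    DirD j i (R.U k lam a) fun s => if R.own i = a then lam j i * R.e i s.1 else 0 := by
  have h1 : DirD j i (fun s : St I Cf => ∑ j' ∈ range k,
      ∑ i' ∈ univ.filter (fun i => R.own i = a), lam j' i' * R.e i' s.1 * s.2 j' i')
      fun s => ∑ j' ∈ range k, ∑ i' ∈ univ.filter (fun i => R.own i = a),
        (0 * s.2 j' i' + lam j' i' * R.e i' s.1 * if j' = j ∧ i' = i then 1 else 0) :=
    DirD.sum _ fun j' _ => DirD.sum _ fun i' _ =>
      (DirD.config fun σ => lam j' i' * R.e i' σ).mul (DirD.coord j' i')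
  refine h1.congr (fun _ => rfl) fun s => ?_
  rw [sum_eq_single j]
  · simp only [zero_mul, zero_add, true_and, mul_ite, mul_one, mul_zero, sum_ite_eq', mem_filter,
      mem_univ]
  · intro j' _ hj'
    simp [hj']
  · intro h
    exact absurd (mem_range.2 hj) h

theorem dirD_H [DecidableEq I] (hR : R.OK K) (lam : ℕ → I → ℝ) {j : ℕ} (hj : j < k) (i : I) :
    DirD j i (R.H k lam) fun s =>
      lam j i * (R.e i s.1 * R.F1 (R.own i) (R.U k lam (R.own i) s)) := by
  have h1 := DirD.sum (univ : Finset A) fun a _ => (dirD_U (R := R) lam hj i a).comp (hR.d1 a)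
  refine h1.congr (fun _ => rfl) fun s => ?_
  simp only [mul_ite, mul_zero, sum_ite_eq, mem_univ, if_true]
  ring

omit [Fintype A] [MeasurableSpace Cf] in
theorem hasDerivAt_U {lam : ℝ → ℕ → I → ℝ} {d : ℕ → I → ℝ} {t : ℝ}
    (hd : ∀ j < k, ∀ i, HasDerivAt (fun t => lam t j i) (d j i) t) (a : A) (s : St I Cf) :
    HasDerivAt (fun t => R.U k (lam t) a s) (R.U k d a s) t := by
  unfold U
  exact HasDerivAt.fun_sum fun j hj => HasDerivAt.fun_sum fun i _ =>
    ((hd j (mem_range.1 hj) i).mul_const _).mul_const _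

omit [Fintype A] in
theorem ub_U (hR : R.OK K) (hk : 0 < k) {U : Set ℝ} {lam : ℝ → ℕ → I → ℝ} {C : ℝ}
    (hb : ∀ t ∈ U, ∀ j < k, ∀ i, |lam t j i| ≤ C) (a : A) :
    (GS k I ν).UB U fun t s => R.U k (lam t) a s := by
  obtain ⟨Ce, h0, he⟩ := hR.be'
  refine Sys.UB.of_lin (gs_ok hk) (C := |C| * Ce) fun t ht s => ?_
  refine (abs_U_le (ν := ν) h0 he (abs_nonneg C)
    (fun j hj i => (hb t ht j hj i).trans (le_abs_self C)) a s).trans ?_
  exact mul_le_mul_of_nonneg_left (by linarith) (mul_nonneg (abs_nonneg C) h0)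

/-- coefficients moving along a differentiable path -/
theorem lfam_H (hR : R.OK K) (hk : 0 < k) {U : Set ℝ} {lam lam' : ℝ → ℕ → I → ℝ}
    (hd : ∀ t ∈ U, ∀ j < k, ∀ i, HasDerivAt (fun t => lam t j i) (lam' t j i) t) {C : ℝ}
    (hb : ∀ t ∈ U, ∀ j < k, ∀ i, |lam t j i| ≤ C ∧ |lam' t j i| ≤ C) :
    (GS k I ν).LFam U (fun t => R.H k (lam t))
      fun t s => ∑ a, R.F1 a (R.U k (lam t) a s) * R.U k (lam' t) a s := by
  obtain ⟨Ce, h0, he⟩ := hR.be'
  have hY : (GS k I ν).OK := gs_ok hk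
  have hlin : ∀ t ∈ U, ∀ s, |R.H k (lam t) s| ≤
      (∑ a, (|R.F a 0| + K * (|C| * Ce))) * (1 + (GS k I ν).ν s) := fun t ht s =>
    abs_H_le hR h0 he (abs_nonneg C) (fun j hj i => (hb t ht j hj i).1.trans (le_abs_self C)) s
  refine ⟨Sys.Fam.mk' hY (fun t _ => measurable_H hR _) (fun t _ => ?_) (fun t ht s => ?_)
    (Sys.UB.of_lin hY hlin) ?_, _, hlin⟩
  · exact Finset.measurable_sum _ fun a _ =>
      ((hR.mF1 a).comp (measurable_U hR _ a)).mul (measurable_U hR _ a)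
  · exact HasDerivAt.fun_sum fun a _ => (hR.d1 a _).comp t (hasDerivAt_U (hd t ht) a s)
  · exact Sys.UB.sum hY _ fun a _ => Sys.UB.mul hY (Sys.UB.of_bdd hY fun t _ s => hR.b1 a _)
      (ub_U hR hk (fun t ht j hj i => (hb t ht j hj i).2) a)

/-- the derivative along a straight path of coefficients, as a family -/
theorem fam_H' (hR : R.OK K) (hk : 0 < k) (lam d : ℕ → I → ℝ) :
    (GS k I ν).Fam (Set.Ioo (-1) 1)
      (fun t s => ∑ a, R.F1 a (R.U k (fun j i => lam j i + t * d j i) a s) * R.U k d a s)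
      fun t s => ∑ a, R.F2 a (R.U k (fun j i => lam j i + t * d j i) a s) * R.U k d a s ^ 2 := by
  have hY : (GS k I ν).OK := gs_ok hk
  have hU : ∀ a, (GS k I ν).UB (Set.Ioo (-1) 1) fun _ s => R.U k d a s := fun a =>
    ub_U hR hk (lam := fun _ => d) (fun _ _ j hj i => le_sum_abs d hj i) a
  refine Sys.Fam.mk' hY (fun t _ => ?_) (fun t _ => ?_) (fun t ht s => ?_) ?_ ?_
  · exact Finset.measurable_sum _ fun a _ =>
      ((hR.mF1 a).comp (measurable_U hR _ a)).mul (measurable_U hR _ a)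
  · exact Finset.measurable_sum _ fun a _ =>
      ((hR.mF2 a).comp (measurable_U hR _ a)).mul ((measurable_U hR _ a).pow_const 2)
  · refine HasDerivAt.fun_sum fun a _ => ?_
    have h1 : HasDerivAt (fun t => R.U k (fun j i => lam j i + t * d j i) a s) (R.U k d a s) t :=
      hasDerivAt_U (lam := fun t j i => lam j i + t * d j i) (fun j _ i => by
        simpa using ((hasDerivAt_id t).mul_const (d j i)).const_add (lam j i)) a s
    have h2 := ((hR.d2 a _).comp t h1).mul_const (R.U k d a s)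
    rw [mul_assoc, ← sq] at h2
    exact h2
  · exact Sys.UB.sum hY _ fun a _ => Sys.UB.mul hY (Sys.UB.of_bdd hY fun t _ s => hR.b1 a _) (hU a)
  · refine Sys.UB.sum hY _ fun a _ => Sys.UB.mul hY (Sys.UB.of_bdd hY fun t _ s => hR.b2 a _) ?_
    simpa only [sq] using Sys.UB.mul hY (hU a) (hU a)

omit [IsProbabilityMeasure ν] in
theorem Hv_congr {w w' : ℕ → I → ℝ} (h : ∀ j < k, ∀ i, w j i = w' j i) :
    R.Hv k w = R.Hv k w' := by
  funext s
  unfold Hv H U
  refine sum_congr rfl fun a _ => ?_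
  congr 1
  exact sum_congr rfl fun j hj => sum_congr rfl fun i _ => by
    simp only [h j (mem_range.1 hj) i]

end Rg

end Vale.Agent.P146M
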