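import Vale.Agent.P146M.Ident
import Vale.Agent.P146M.Rest

namespace Vale.Agent.P146M

open MeasureTheory ProbabilityTheory Real Finset Filter Topology
open scoped ENNReal

variable {ι Cf : Type} [Fintype ι] [MeasurableSpace Cf] [Nonempty Cf] {k : ℕ} {ν : Measure Cf}
  {x : Cf → ι → ℝ} {f f1 f2 : ℝ → ℝ} {K : ℝ}

theorem GradAux.tele (θ : ℕ → ℝ) {l : ℕ} (hl : l < k) :
    ∑ j ∈ range l, (if j + 1 < k then θ (j + 1) - θ j else 0) = θ l - θ 0 := by
  rw [← sum_range_sub]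
  exact sum_congr rfl fun j hj => if_pos (by have := mem_range.1 hj; omega)

theorem GradAux.tele' (θ : ℕ → ℝ) (hk : 0 < k) :
    ∑ j ∈ range k, (if j + 1 < k then θ (j + 1) - θ j else 0) = θ (k - 1) - θ 0 := by
  obtain ⟨m, rfl⟩ : ∃ m, k = m + 1 := ⟨k - 1, by omega⟩
  rw [sum_range_succ, GradAux.tele θ (Nat.lt_succ_self m), if_neg (lt_irrefl _)]
  simp

theorem GradAux.wS_nonneg {r : ℕ → ℝ} (hr : Monotone r) (j : ℕ) (i : ι) : 0 ≤ wS ι k r j i := by
  unfold wS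
  split_ifs
  · exact sub_nonneg.2 (hr (Nat.le_succ j))
  · exact le_rfl

theorem GradAux.wS_add (r θ : ℕ → ℝ) (t : ℝ) :
    wS ι k (fun l => r l + t * θ l) = fun j i => wS ι k r j i + t * wS ι k θ j i := by
  funext j i
  unfold wS
  split_ifs <;> ring

theorem GradAux.wS_sub (r θ : ℕ → ℝ) :
    wS ι k (fun l => r l - θ l) = fun j i => wS ι k r j i - wS ι k θ j i := by
  funext j i
  unfold wS
  split_ifs <;> ring

theorem GradAux.ex_x {I : Type} [Fintype I] (hx : Spin ν x) (hk : 0 < k) (i : ι) :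
    (GS k I ν).Ex fun s => x s.1 i :=
  haveI := hx.prob
  Sys.Ex.of_bdd (gs_ok hk) ((measurable_pi_apply i).comp (hx.meas.comp measurable_fst)) _
    fun s => hx.abs_le s.1 i

theorem GradAux.ov_eq {I : Type} [Fintype I] (hx : Spin ν x) (hk : 0 < k) {H : St I Cf → ℝ}
    (hH : (GS k I ν).Lin H) (l : ℕ) : ∫ p, ov x p.1.1 p.2.1 ∂pp k ν H l =
      (∑ i, ∫ p, x p.1.1 i * x p.2.1 i ∂pp k ν H l) / Fintype.card ι := by
  have := hx.prob
  unfold ov
  rw [integral_div, integral_finsetSum]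
  exact fun i _ => integrable_pp hk hH (((GradAux.ex_x hx hk i).fst (gs_ok hk)).mul (gs_ok hk)
    ((GradAux.ex_x hx hk i).snd (gs_ok hk))) l

theorem GradAux.Hv_Sp (w : ℕ → ι → ℝ) (s : St ι Cf) :
    (Sp x).Hv k w s = ∑ j ∈ range k, ∑ i, √(w j i) * x s.1 i * s.2 j i := by
  simp [Rg.Hv, Rg.H, Rg.U, Sp]

theorem pS_nonneg (hx : Spin ν x) (hk : 0 < k) (r : ℕ → ℝ) (l : ℕ) : 0 ≤ pS k ν x r l := by
  have := hx.prob
  have hH := Rg.lin_Hv (ν := ν) (sp_ok hx le_rfl) hk (wS ι k r)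
  rw [pS, GradAux.ov_eq hx hk hH]
  exact div_nonneg (sum_nonneg fun i _ => pp_nonneg hk hH (GradAux.ex_x hx hk i) l)
    (Nat.cast_nonneg _)
theorem pS_le_one (hx : Spin ν x) (hk : 0 < k) (r : ℕ → ℝ) (l : ℕ) : pS k ν x r l ≤ 1 := by
  have := hx.prob
  have := pp_prob hk (Rg.lin_Hv (ν := ν) (sp_ok hx le_rfl) hk (wS ι k r)) l
  refine (le_abs_self _).trans ?_
  simpa [pS] using norm_integral_le_of_norm_le_const
    (μ := pp k ν ((Sp x).Hv k (wS ι k r)) l) (f := fun p => ov x p.1.1 p.2.1) (C := 1)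
    (ae_of_all _ fun p => hx.abs_ov_le _ _)
theorem admQ_pS (hx : Spin ν x) (hk : 0 < k) (r : ℕ → ℝ) : AdmQ k (pathQ k (pS k ν x r)) := by
  have := hx.prob
  have hH := Rg.lin_Hv (ν := ν) (sp_ok hx le_rfl) hk (wS ι k r)
  refine ⟨if_pos rfl, monotone_nat_of_le_succ fun l => ?_, by simp [pathQ, hk.ne']⟩
  unfold pathQ
  rw [if_neg (Nat.succ_ne_zero l)]
  split_ifs with h1 h2 h3 h4 h5
  · exact pS_nonneg hx hk r _
  · exact zero_le_one
  · rw [pS, pS, GradAux.ov_eq hx hk hH, GradAux.ov_eq hx hk hH]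
    exact div_le_div_of_nonneg_right (sum_le_sum fun i _ => pp_mono hk hH (GradAux.ex_x hx hk i)
      (Nat.le_succ l) (by omega)) (Nat.cast_nonneg _)
  · exact pS_le_one hx hk r _
  · omega
  · exact le_rfl

variable [Nonempty ι]

theorem GradAux.sum_ov (σ σ' : Cf) : ∑ i, x σ i * x σ' i = Fintype.card ι * ov x σ σ' := by
  have hN : (Fintype.card ι : ℝ) ≠ 0 := Nat.cast_ne_zero.2 Fintype.card_ne_zero
  unfold ov
  field_simp

theorem GradAux.GI_c (hx : Spin ν x) (hk : 0 < k) (w : ℕ → ι → ℝ) (v : ℕ → ℝ) :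
    (Sp x).GI k ν w (fun j _ => v j) = Fintype.card ι * ((∑ j ∈ range k, v j) / 2 -
      (1 / (2 * (k : ℝ))) * ∑ l ∈ range k,
        (∫ p, ov x p.1.1 p.2.1 ∂pp k ν ((Sp x).Hv k w) l) * ∑ j ∈ range l, v j) := by
  have := hx.prob
  have := mm_prob hk (Rg.lin_Hv (ν := ν) (sp_ok hx le_rfl) hk w)
  have e1 : ∀ s : St ι Cf, ∑ i, (∑ j ∈ range k, v j) * (Sp x).dg k w i s =
      (∑ j ∈ range k, v j) * Fintype.card ι := fun s => by
    rw [← mul_sum, ← hx.norm s.1]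
    simp [Rg.dg, Rg.ψ, Sp]
  have e2 : ∀ (l : ℕ) (p : St ι Cf × St ι Cf), ∑ i, (∑ j ∈ range l, v j) *
      ((Sp x).ψ k w i p.1 * (Sp x).ψ k w i p.2) =
      ((∑ j ∈ range l, v j) * Fintype.card ι) * ov x p.1.1 p.2.1 := fun l p => by
    rw [← mul_sum, mul_assoc, ← GradAux.sum_ov]
    simp [Rg.ψ, Sp]
  unfold Rg.GI
  simp only [e1, e2, integral_const_mul, integral_const, probReal_univ, one_smul]
  rw [mul_sub, mul_left_comm (Fintype.card ι : ℝ), mul_sum _ _ (Fintype.card ι : ℝ)]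
  congr 1
  · ring
  · congr 1
    exact sum_congr rfl fun l _ => by ring

theorem GI_Sp (hx : Spin ν x) (hk : 0 < k) (r : ℕ → ℝ) {θ : ℕ → ℝ} (h0 : θ 0 = 0) :
    (Sp x).GI k ν (wS ι k r) (wS ι k θ) = Fintype.card ι *
      (θ (k - 1) / 2 - pairing k (pS k ν x r) θ) := by
  have h := GradAux.GI_c hx hk (wS ι k r) fun j => if j + 1 < k then θ (j + 1) - θ j else 0
  rw [GradAux.tele' θ hk, h0, sub_zero,
    sum_congr rfl fun l hl => by rw [GradAux.tele θ (mem_range.1 hl), h0, sub_zero]] at h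
  exact h

theorem XN_deriv (hx : Spin ν x) (hk : 0 < k) {r θ : ℕ → ℝ} (hr : Strict k r) (h0 : θ 0 = 0) :
    HasDerivAt (fun t => XN k ν x fun l => r l + t * θ l) (-pairing k (pS k ν x r) θ) 0 := by
  have := hx.prob
  have hN : (Fintype.card ι : ℝ) ≠ 0 := Nat.cast_ne_zero.2 Fintype.card_ne_zero
  have h1 := Rg.GI_deriv (ν := ν) (sp_ok hx le_rfl) hk (w := wS ι k r) (w' := wS ι k θ)
    fun j _ i h => by
      unfold wS at h ⊢
      split_ifs at h ⊢ with h'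
      · exact sub_pos.2 (hr j h')
      · exact absurd rfl h
  have h2 := (h1.div_const (Fintype.card ι : ℝ)).sub
    ((((hasDerivAt_id (0 : ℝ)).mul_const (θ (k - 1))).const_add (r (k - 1))).div_const 2)
  rw [GI_Sp hx hk r h0] at h2
  simp only [XN, GradAux.wS_add]
  refine h2.congr_deriv ?_
  field_simp
  ring

theorem XN_cont (hx : Spin ν x) (hk : 0 < k) {τ : Type*} {F : Filter τ} {rt : τ → ℕ → ℝ}
    {r : ℕ → ℝ} (h : ∀ l < k, Tendsto (fun t => rt t l) F (𝓝 (r l))) :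
    Tendsto (fun t => XN k ν x (rt t)) F (𝓝 (XN k ν x r)) := by
  have := hx.prob
  refine ((Rg.Yv_cont (sp_ok hx le_rfl) hk fun j hj i => ?_).div_const _).sub
    ((h _ (by omega)).div_const 2)
  unfold wS
  split_ifs with h'
  · exact (h _ h').sub (h _ hj)
  · exact tendsto_const_nhds

theorem XN_mvt (hx : Spin ν x) (hk : 0 < k) {r r' : ℕ → ℝ} (hr : AdmR r) (hr' : AdmR r') :
    ∃ t ∈ Set.Ioo (0 : ℝ) 1, XN k ν x r' - XN k ν x r =
      -pairing k (pS k ν x fun l => r l + t * (r' l - r l)) fun l => r' l - r l := by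
  have := hx.prob
  have hN : (Fintype.card ι : ℝ) ≠ 0 := Nat.cast_ne_zero.2 Fintype.card_ne_zero
  obtain ⟨t, ht, h⟩ := Rg.GI_mvt (ν := ν) (sp_ok hx le_rfl) hk (w0 := wS ι k r) (w1 := wS ι k r')
    (fun j _ i => GradAux.wS_nonneg hr.2 j i) fun j _ i => GradAux.wS_nonneg hr'.2 j i
  refine ⟨t, ht, ?_⟩
  have e := GradAux.wS_add (ι := ι) (k := k) r (fun l => r' l - r l) t
  rw [GradAux.wS_sub] at e
  rw [← e, ← GradAux.wS_sub, GI_Sp hx hk _ (by rw [hr.1, hr'.1, sub_zero])] at h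
  unfold XN
  rw [eq_add_of_sub_eq h]
  field_simp
  ring

theorem XN_zero (hx : Spin ν x) (hk : 0 < k) : XN k ν x 0 = 0 := by
  have := hx.prob
  have e : (Sp x).Hv k (wS ι k 0) = fun _ => 0 := funext fun s => by
    simp [GradAux.Hv_Sp, wS]
  rw [XN, Rg.Yv, e, YY, Sys.X_const (gs_ok hk)]
  simp
theorem XN_nonpos (hx : Spin ν x) (hk : 0 < k) {r : ℕ → ℝ} (hr : AdmR r) : XN k ν x r ≤ 0 := by
  obtain ⟨t, -, h⟩ := XN_mvt hx hk (r := 0) ⟨rfl, monotone_const⟩ hr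
  rw [XN_zero hx hk, sub_zero] at h
  rw [h, neg_nonpos]
  refine mul_nonneg (by positivity) (sum_nonneg fun l _ => mul_nonneg (pS_nonneg hx hk _ l) ?_)
  simpa [hr.1] using hr.2 (Nat.zero_le l)

/-- a field on all `k` levels -/
theorem Yv_Sp_eq (hx : Spin ν x) (hk : 0 < k) {v : ℕ → ℝ} (hv : ∀ j < k, 0 ≤ v j) :
    (Sp x).Yv k ν (fun j _ => v j) = Fintype.card ι *
      (XN k ν x (fun l => ∑ j ∈ range l, v j) + (∑ j ∈ range k, v j) / 2) := by
  have := hx.prob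
  have hN : (Fintype.card ι : ℝ) ≠ 0 := Nat.cast_ne_zero.2 Fintype.card_ne_zero
  obtain ⟨t, -, h⟩ := Rg.GI_mvt (ν := ν) (sp_ok hx le_rfl) hk
    (w0 := wS ι k fun l => ∑ j ∈ range l, v j) (w1 := fun j _ => v j)
    (fun j hj i => by
      unfold wS
      split_ifs
      · simpa [sum_range_succ] using hv j hj
      · exact le_rfl) fun j hj _ => hv j hj
  have h' := h.trans (GradAux.GI_c hx hk _ fun j => v j -
    if j + 1 < k then ∑ j ∈ range (j + 1), v j - ∑ j ∈ range j, v j else 0)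
  simp only [sum_sub_distrib] at h'
  rw [GradAux.tele' (fun l => ∑ j ∈ range l, v j) hk, sum_eq_zero (f := fun l => _ * _)
    fun l hl => by
      rw [GradAux.tele (fun l => ∑ j ∈ range l, v j) (mem_range.1 hl)]
      simp] at h'
  unfold XN
  rw [eq_add_of_sub_eq h']
  simp only [range_zero, sum_empty]
  field_simp
  ring

theorem GradAux.ok2 (hx : Spin ν x) : ((Sp x).ext (fun _ => ()) (Sp x).e).OK 1 :=
  (sp_ok hx le_rfl).ext _ (sp_ok hx le_rfl).me (fun i σ => hx.abs_le σ i)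

theorem GradAux.merge (hx : Spin ν x) (hk : 0 < k) {r θ : ℕ → ℝ} (hr : Monotone r)
    (hθ : Monotone θ) {η : ℝ} (hη : 0 ≤ η) :
    ((Sp x).ext (fun _ => ()) (Sp x).e).Yv k ν (fun j i => Sum.elim (wS ι k r j) (0 : ι → ℝ) i +
      η * Sum.elim (0 : ι → ℝ) (wS ι k θ j) i) = (Sp x).Yv k ν (wS ι k fun l => r l + η * θ l) := by
  classical
  have := hx.prob
  refine Rg.Yv_merge (GradAux.ok2 hx) hk (sp_ok hx le_rfl) (Sum.elim id id) rfl
    (fun j _ i => ?_) (fun i _ => ⟨rfl, by cases i <;> rfl⟩) fun j _ i => ?_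
  · cases i with
    | inl i => simpa using GradAux.wS_nonneg hr j i
    | inr i => simpa using mul_nonneg hη (GradAux.wS_nonneg hθ j i)
  · rw [GradAux.wS_add, sum_filter]
    simp

theorem GradAux.GI2 (hx : Spin ν x) (hk : 0 < k) (r θ : ℕ → ℝ) :
    ((Sp x).ext (fun _ => ()) (Sp x).e).GI k ν (fun j => Sum.elim (wS ι k r j) 0)
      (fun j => Sum.elim 0 (wS ι k θ j)) = (Sp x).GI k ν (wS ι k r) (wS ι k θ) := by
  have := hx.prob
  have hH := Rg.lin_Hv (ν := ν) (sp_ok hx le_rfl) hk (wS ι k r)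
  have eH : ((Sp x).ext (fun _ => ()) (Sp x).e).Hv k (fun j => Sum.elim (wS ι k r j) 0) =
      fun s => (Sp x).Hv k (wS ι k r) (pull id Sum.inl s) := funext fun s => by
    simp [Rg.Hv, Rg.H, Rg.U, Sp, Rg.ext, pull]
  have hm : Measurable (pull id Sum.inl : St (ι ⊕ ι) Cf → St ι Cf) :=
    measurable_pull measurable_id
  unfold Rg.GI
  rw [eH, ← mm_pull hk (MeasurePreserving.id ν) (Sum.inl_injective (β := ι)) hH,
    integral_map hm.aemeasurable (Finset.measurable_sum _ fun i _ =>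
      (Rg.measurable_dg (sp_ok hx le_rfl) _ i).const_mul _).aestronglyMeasurable]
  congr 2
  · refine integral_congr_ae (ae_of_all _ fun s => ?_)
    simp [Rg.dg, Rg.ψ, Sp, Rg.ext, pull]
  · refine sum_congr rfl fun l hl => ?_
    rw [← pp_pull hk (MeasurePreserving.id ν) (Sum.inl_injective (β := ι)) hH (mem_range.1 hl).le,
      integral_map (hm.prodMap hm).aemeasurable]
    · refine integral_congr_ae (ae_of_all _ fun s => ?_)
      simp [Rg.ψ, Sp, Rg.ext, pull]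
    · exact (Finset.measurable_sum _ fun i _ =>
        (((Rg.measurable_ψ (sp_ok hx le_rfl) _ i).comp measurable_fst).mul
          ((Rg.measurable_ψ (sp_ok hx le_rfl) _ i).comp measurable_snd)).const_mul
            _).aestronglyMeasurable

theorem XN_EF (ε : ℝ) (hε : 0 < ε) : ∃ τ > 0, ∀ (ι Cf : Type) [Fintype ι] [Nonempty ι]
    [MeasurableSpace Cf] [Nonempty Cf] (k : ℕ) (_ : 0 < k) (ν : Measure Cf) (x : Cf → ι → ℝ)
    (_ : Spin ν x) (r θ : ℕ → ℝ) (_ : AdmR r) (_ : AdmR θ) (η : ℝ) (_ : 0 ≤ η)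
    (_ : η * (Fintype.card ι * θ (k - 1)) ≤ τ),
    |XN k ν x (fun l => r l + η * θ l) - XN k ν x r + η * pairing k (pS k ν x r) θ| ≤
      ε * η * θ (k - 1) := by
  obtain ⟨τ, hτ, H⟩ := EF ε hε
  refine ⟨τ, hτ, fun ι Cf _ _ _ _ k hk ν x hx r θ hr hθ η hη hB => ?_⟩
  have := hx.prob
  have hN : (0 : ℝ) < Fintype.card ι := Nat.cast_pos.2 Fintype.card_pos
  have h := H (ι ⊕ ι) Unit Cf ((Sp x).ext (fun _ => ()) (Sp x).e) 1 (GradAux.ok2 hx) k hk ν () rfl
    (fun i => i.isRight) (fun j => Sum.elim (wS ι k r j) 0) (fun j => Sum.elim 0 (wS ι k θ j)) η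
    (Fintype.card ι * θ (k - 1))
    (fun j _ i => i.rec (GradAux.wS_nonneg hr.2 j) fun _ => le_rfl)
    (fun j _ i => i.rec (fun _ => le_rfl) (GradAux.wS_nonneg hθ.2 j))
    (fun i => i.rec (fun _ h => by simp at h) fun _ _ => ⟨rfl, fun _ _ => rfl⟩)
    (fun i => i.rec (fun _ _ _ _ => rfl) fun _ h => by simp at h)
    (fun σ => by
      rw [← hx.norm σ, sum_mul]
      simp [Rg.ext, Sp, wS, GradAux.tele' θ hk, hθ.1, mul_comm]) hη hB
  have e0 := GradAux.merge hx hk hr.2 hθ.2 le_rfl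
  simp only [zero_mul, add_zero] at e0
  rw [GradAux.merge hx hk hr.2 hθ.2 hη, e0, GradAux.GI2 hx hk, GI_Sp hx hk r hθ.1] at h
  unfold XN
  have e : ∀ a b c : ℝ, a / Fintype.card ι - (r (k - 1) + η * θ (k - 1)) / 2 -
      (b / Fintype.card ι - r (k - 1) / 2) + η * c =
      (a - b - η * (Fintype.card ι * (θ (k - 1) / 2 - c))) / Fintype.card ι := fun a b c => by
    field_simp
    ring
  rw [e, abs_div, abs_of_pos hN, div_le_iff₀ hN]
  exact h.trans (le_of_eq (by ring))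

theorem XN_blk (hx : Spin ν x) (hk : 0 < k) (β : Type) [Fintype β] [Nonempty β] (r : ℕ → ℝ) :
    XN k (Measure.pi fun _ : β => ν) (blk β x) r = XN k ν x r := by
  have := hx.prob
  have hN : (Fintype.card β : ℝ) ≠ 0 := Nat.cast_ne_zero.2 Fintype.card_ne_zero
  have e : (Sp (blk β x)).Hv k (wS (β × ι) k r) = fun s => ∑ b : β, (Sp x).Hv k (wS ι k r)
      (pull (fun σ : β → Cf => σ b) (fun i => (b, i)) s) := funext fun s => by
    simp only [GradAux.Hv_Sp, Fintype.sum_prod_type]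
    rw [sum_comm]
    rfl
  have h := YY_sum (ν := ν) (ν' := Measure.pi fun _ : β => ν) hk (φ := fun b (σ : β → Cf) => σ b)
    (e := fun b (i : ι) => (b, i)) (MeasurePreserving.id _) (fun _ _ h => h)
    (H := fun _ => (Sp x).Hv k (wS ι k r)) fun _ => Rg.lin_Hv (sp_ok hx le_rfl) hk _
  rw [XN, XN, Rg.Yv, Rg.Yv, e, h, sum_const, card_univ, nsmul_eq_mul, Fintype.card_prod,
    Nat.cast_mul, mul_div_mul_left _ _ hN]

theorem pS_blk (hx : Spin ν x) (hk : 0 < k) (β : Type) [Fintype β] [Nonempty β] {r : ℕ → ℝ}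
    (hr : Strict k r) {l : ℕ} (h0 : 0 < l) (hl : l < k) :
    pS k (Measure.pi fun _ : β => ν) (blk β x) r l = pS k ν x r l := by
  have h1 := XN_deriv (hx.blk β) hk hr (θ := fun m => if m = l then 1 else 0) (if_neg h0.ne)
  simp only [XN_blk hx hk β] at h1
  have h2 := h1.unique (XN_deriv hx hk hr (θ := fun m => if m = l then 1 else 0) (if_neg h0.ne))
  simpa [pairing, hl, hk.ne'] using h2

theorem Psi_sub (hf : Nice f f1 f2 K) (hk : 0 < k) {p q : ℕ → ℝ} (hp : AdmQ k p)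
    (hq : AdmQ k q) : ∃ ρ, AdmR ρ ∧ ρ (k - 1) ≤ K ^ 2 ∧
      Psi f k p - Psi f k q = pairing k q ρ - pairing k p ρ := by
  obtain ⟨t, -, h⟩ := Rg.GI_mvt (ν := Measure.dirac ()) (pt_ok hf) hk (w0 := wP q) (w1 := wP p)
    (fun j _ _ => sub_nonneg.2 (hq.2.1 (Nat.le_succ j)))
    fun j _ _ => sub_nonneg.2 (hp.2.1 (Nat.le_succ j))
  rw [Yv_Pt hf hk, Yv_Pt hf hk] at h
  set w : ℕ → Unit → ℝ := fun j i => wP q j i + t * (wP p j i - wP q j i)
  have hH := Rg.lin_Hv (ν := Measure.dirac ()) (pt_ok hf) hk w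
  have hψ := Rg.ex_ψ (ν := Measure.dirac ()) (pt_ok hf) hk w ()
  set e : ℕ → ℝ := fun l => ∫ z, (Pt f f1 f2).ψ k w () z.1 * (Pt f f1 f2).ψ k w () z.2
    ∂pp k (Measure.dirac ()) ((Pt f f1 f2).Hv k w) l with he
  have tl : ∀ l, ∑ j ∈ range l, (wP p j () - wP q j ()) = p l - q l := fun l => by
    simp only [wP]
    rw [sum_sub_distrib, sum_range_sub, sum_range_sub, hp.1, hq.1, sub_zero, sub_zero]
  refine ⟨pathR k e, ⟨by simp [pathR], fun a b hab => ?_⟩, ?_, ?_⟩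
  · unfold pathR
    split_ifs with h1 h2 h3
    · exact le_rfl
    · exact pp_nonneg hk hH hψ _
    · omega
    · exact pp_mono hk hH hψ (by omega) (by omega)
  · unfold pathR
    split_ifs
    · positivity
    · have := pp_prob hk hH (min (k - 1) (k - 1))
      refine (le_abs_self _).trans ?_
      have := norm_integral_le_of_norm_le_const
        (μ := pp k (Measure.dirac ()) ((Pt f f1 f2).Hv k w) (min (k - 1) (k - 1)))
        (f := fun z => (Pt f f1 f2).ψ k w () z.1 * (Pt f f1 f2).ψ k w () z.2) (C := K ^ 2)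
        (ae_of_all _ fun z => by
          simp only [Rg.ψ, Pt, one_mul, norm_mul, Real.norm_eq_abs, sq]
          exact mul_le_mul (hf.b1 _) (hf.b1 _) (abs_nonneg _) ((abs_nonneg _).trans (hf.b1 0)))
      rwa [probReal_univ, mul_one] at this
  · rw [h]
    unfold Rg.GI pairing
    simp only [univ_unique, sum_singleton, PUnit.default_eq_unit, tl, hp.2.2, hq.2.2, sub_self,
      zero_mul, integral_zero, mul_zero, integral_const_mul, zero_sub]
    rw [← mul_sub, ← mul_neg, ← sum_sub_distrib, ← sum_neg_distrib]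
    congr 1
    refine sum_congr rfl fun l hl => ?_
    have hl' : min l (k - 1) = l := min_eq_left (by have := mem_range.1 hl; omega)
    rw [pathR, hl']
    split_ifs with h1
    · simp [h1, hp.1, hq.1]
    · simp only [he]
      ring

theorem Pt_pert (hf : Nice f f1 f2 K) (hk : 0 < k) {q b : ℕ → ℝ} (hq : Monotone q)
    (hb : ∀ j < k, 0 ≤ b j) :
    |(Pt f f1 f2).Yv k (Measure.dirac ()) (fun j _ => b j + (q (j + 1) - q j)) - Psi f k q| ≤
      2 * K ^ 2 * ∑ j ∈ range k, b j := by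
  rw [← Yv_Pt hf hk]
  refine Rg.Yv_lip (pt_ok hf) hf.one_le hk (fun j _ _ => sub_nonneg.2 (hq (Nat.le_succ j)))
    (fun j hj _ => add_nonneg (hb j hj) (sub_nonneg.2 (hq (Nat.le_succ j)))) fun σ => ?_
  simp only [univ_unique, sum_singleton, Pt, one_pow, mul_one, add_sub_cancel_right]
  exact sum_le_sum fun j hj => (abs_of_nonneg (hb j (mem_range.1 hj))).le

theorem abs_Psi_le {f : ℝ → ℝ} (hf : Measurable f) {C : ℝ} (hC : ∀ u, |f u| ≤ C) (hk : 0 < k)
    (q : ℕ → ℝ) : |Psi f k q| ≤ C := by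
  have hY := rs_ok hk fun j => q (j + 1) - q j
  have hl := Sys.Lin.of_bdd hY hf C hC
  rw [Psi, casc_eq q f (by omega), abs_le]
  have h1 := Sys.X_mono hY (Sys.Lin.const hY (-C)) hl (fun u => (abs_le.1 (hC u)).1) k 0 0
  have h2 := Sys.X_mono hY hl (Sys.Lin.const hY C) (fun u => (abs_le.1 (hC u)).2) k 0 0
  rw [Sys.X_const hY] at h1 h2
  exact ⟨h1, h2⟩

end Vale.Agent.P146M
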