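import Vale.Agent.P146M.MdAPI

namespace Vale.Agent.P146M

open MeasureTheory ProbabilityTheory Real Finset Filter Topology
open scoped ENNReal

theorem id_int_exp {E : Type*} [NormedAddCommGroup E] [NormedSpace ℝ E] [MeasurableSpace E]
    [BorelSpace E] [SecondCountableTopology E] [CompleteSpace E] (μ : Measure E) [IsGaussian μ]
    (C : ℝ) : Integrable (fun w => exp (C * ‖w‖)) μ := by
  obtain ⟨c, hc, h⟩ := IsGaussian.exists_integrable_exp_sq μ
  refine (h.const_mul (exp (C ^ 2 / (4 * c)))).mono' (by fun_prop) (ae_of_all _ fun w => ?_)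
  rw [norm_of_nonneg (exp_pos _).le, ← exp_add, exp_le_exp, ← sub_le_iff_le_add,
    le_div_iff₀ (by positivity)]
  nlinarith [sq_nonneg (2 * c * ‖w‖ - C)]

theorem id_ζ_pos {k : ℕ} (hk : 0 < k) (j : ℕ) : 0 < min 1 (((j : ℝ) + 1) / k) :=
  lt_min one_pos (by positivity)

theorem fs_ok (ι : Type) [Fintype ι] {ζ : ℕ → ℝ} (hζ : ∀ j, 0 < ζ j) (v : ℕ → ℝ) :
    (FS ι ζ v).OK where
  prob := isProbabilityMeasure_stdGaussian
  meas_a j := by unfold FS; fun_prop
  ζ_pos := hζ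
  meas_ν := measurable_norm
  ν_nonneg := norm_nonneg
  meas_n j := by unfold FS; fun_prop
  n_nonneg j w := mul_nonneg (sqrt_nonneg _) (norm_nonneg _)
  ν_a j s w := (norm_add_le _ _).trans_eq (by
    rw [norm_smul, norm_of_nonneg (sqrt_nonneg _)]; rfl)
  int_n j C := by simpa only [FS, mul_assoc] using id_int_exp _ (C * √(v j))

theorem rs_ok {k : ℕ} (hk : 0 < k) (v : ℕ → ℝ) : (RS k v).OK where
  prob := inferInstanceAs (IsProbabilityMeasure (gaussianReal 0 1))
  meas_a j := by unfold RS; fun_prop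
  ζ_pos := id_ζ_pos hk
  meas_ν := measurable_abs
  ν_nonneg := abs_nonneg
  meas_n j := by unfold RS; fun_prop
  n_nonneg j w := mul_nonneg (sqrt_nonneg _) (abs_nonneg _)
  ν_a j s w := (abs_add_le _ _).trans_eq (by rw [abs_mul, abs_of_nonneg (sqrt_nonneg _)]; rfl)
  int_n j C := by
    simpa only [RS, mul_assoc, Real.norm_eq_abs] using id_int_exp (gaussianReal 0 1) (C * √(v j))

theorem rs_mono (k : ℕ) (v : ℕ → ℝ) : (RS k v).Mono :=
  ⟨fun _ _ h => min_le_min_left _ (by gcongr), fun _ => min_le_left _ _⟩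

theorem casc_eq {k : ℕ} (q : ℕ → ℝ) (Φ : ℝ → ℝ) {n j : ℕ} (h : j + n ≤ k) :
    casc k q Φ n j = (RS k fun j => q (j + 1) - q j).X n j Φ := by
  induction n generalizing j with
  | zero => rfl
  | succ n ih =>
    have e : min 1 (((j : ℝ) + 1) / k) = ((j : ℝ) + 1) / k :=
      min_eq_right (div_le_one_of_le₀ (by exact_mod_cast (by omega : j + 1 ≤ k)) (by positivity))
    funext x
    simp only [casc, Sys.X, stp, Sys.T, ih (by omega : j + 1 + n ≤ k)]
    simp only [RS, e]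

theorem id_X_congr {S Ω : Type*} [MeasurableSpace S] [MeasurableSpace Ω] {Y Y' : Sys S Ω}
    (hμ : Y'.μ = Y.μ) {n j : ℕ} (h : ∀ i, j ≤ i → i < j + n → Y'.ζ i = Y.ζ i ∧ Y'.a i = Y.a i)
    (H : S → ℝ) : Y'.X n j H = Y.X n j H := by
  induction n generalizing j with
  | zero => rfl
  | succ n ih =>
    obtain ⟨h1, h2⟩ := h j le_rfl (by omega)
    have h3 := ih (j := j + 1) fun i a b => h i (by omega) (by omega)
    funext s
    simp only [Sys.X, Sys.T, hμ, h1, h2, h3]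

variable {ι Cf : Type} [Fintype ι] [MeasurableSpace Cf] {k : ℕ} {ν : Measure Cf}
  {x : Cf → ι → ℝ} {f f1 f2 : ℝ → ℝ} {K : ℝ}

theorem id_meas (hx : Spin ν x) :
    Measurable fun p : EuclideanSpace ℝ ι × Cf => exp (∑ i, p.1 i * x p.2 i) := by
  have := hx.meas
  fun_prop

theorem id_inner_le (hx : Spin ν x) (h : EuclideanSpace ℝ ι) (σ : Cf) :
    |∑ i, h i * x σ i| ≤ √(Fintype.card ι) * ‖h‖ := by
  rw [← hx.norm σ, EuclideanSpace.norm_eq, ← sqrt_mul (by positivity), mul_comm]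
  simpa using abs_le_sqrt (sum_mul_sq_le_sq_mul_sq univ (fun i => h i) (x σ))

theorem id_int (hx : Spin ν x) (h : EuclideanSpace ℝ ι) :
    Integrable (fun σ => exp (∑ i, h i * x σ i)) ν := by
  have := hx.prob
  exact Integrable.of_bound ((id_meas hx).comp measurable_prodMk_left).aestronglyMeasurable
    (exp (√(Fintype.card ι) * ‖h‖)) (ae_of_all _ fun σ => by
      rw [norm_of_nonneg (exp_pos _).le]
      exact exp_le_exp.2 (le_of_abs_le (id_inner_le hx h σ)))

theorem id_Z_pos (hx : Spin ν x) (h : EuclideanSpace ℝ ι) :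
    0 < ∫ σ, exp (∑ i, h i * x σ i) ∂ν := by
  have := hx.prob
  exact integral_exp_pos (id_int hx h)

theorem abs_Φs_le (hx : Spin ν x) (h : EuclideanSpace ℝ ι) :
    |Φs ν x h| ≤ √(Fintype.card ι) * ‖h‖ := by
  have := hx.prob
  rw [abs_le, Φs, le_log_iff_exp_le (id_Z_pos hx h), log_le_iff_le_exp (id_Z_pos hx h)]
  constructor
  · simpa using integral_mono (integrable_const _) (id_int hx h)
      fun σ => exp_le_exp.2 (abs_le.1 (id_inner_le hx h σ)).1
  · simpa using integral_mono (id_int hx h) (integrable_const _)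
      fun σ => exp_le_exp.2 (abs_le.1 (id_inner_le hx h σ)).2

theorem lin_Φs (hx : Spin ν x) (ζ v : ℕ → ℝ) : (FS ι ζ v).Lin (Φs ν x) := by
  have := hx.prob
  refine ⟨(id_meas hx).stronglyMeasurable.integral_prod_right'.measurable.log,
    √(Fintype.card ι), fun h => (abs_Φs_le hx h).trans ?_⟩
  exact mul_le_mul_of_nonneg_left (le_add_of_nonneg_left zero_le_one) (sqrt_nonneg _)

theorem measurable_Mg (hx : Spin ν x) (i : ι) : Measurable (Mg ν x i) := by
  have := hx.prob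
  have h1 : Measurable fun p : EuclideanSpace ℝ ι × Cf => x p.2 i := by
    have := hx.meas
    fun_prop
  exact (h1.mul (id_meas hx)).stronglyMeasurable.integral_prod_right'.measurable.div
    (id_meas hx).stronglyMeasurable.integral_prod_right'.measurable

theorem abs_Mg_le (hx : Spin ν x) (i : ι) (h : EuclideanSpace ℝ ι) :
    |Mg ν x i h| ≤ √(Fintype.card ι) := by
  rw [Mg, abs_div, abs_of_pos (id_Z_pos hx h), div_le_iff₀ (id_Z_pos hx h), ← integral_const_mul,
    ← Real.norm_eq_abs]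
  refine norm_integral_le_of_norm_le ((id_int hx h).const_mul _) (ae_of_all _ fun σ => ?_)
  rw [norm_mul, norm_of_nonneg (exp_pos _).le]
  exact mul_le_mul_of_nonneg_right (hx.abs_le σ i) (exp_pos _).le

/-- the accumulated field -/
noncomputable def idF (v : ℕ → ℝ) (j : ℕ) (s : St ι Cf) : EuclideanSpace ℝ ι :=
  WithLp.toLp 2 fun i => ∑ j' ∈ range j, √(v j') * s.2 j' i

omit [Fintype ι] [MeasurableSpace Cf] in
theorem id_upd (v : ℕ → ℝ) (j : ℕ) (g : ℕ → ι → ℝ) (w : ι → ℝ) (i : ι) :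
    ∑ j' ∈ range (j + 1), √(v j') * Function.update g j w j' i =
      ∑ j' ∈ range j, √(v j') * g j' i + √(v j) * w i := by
  rw [sum_range_succ, Function.update_self]
  congr 1
  exact sum_congr rfl fun j' hj => by rw [Function.update_of_ne (mem_range.1 hj).ne]

omit [MeasurableSpace Cf] in
theorem id_gauge (v : ℕ → ℝ) {j : ℕ} (hj : j ≤ k) (s : St ι Cf) :
    ∑ i, |∑ j' ∈ range j, √(v j') * s.2 j' i| ≤
      (∑ j' ∈ range k, √(v j')) * (1 + ∑ j ∈ range k, ∑ i, |s.2 j i|) := by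
  calc _ ≤ ∑ i, ∑ j' ∈ range k, √(v j') * |s.2 j' i| := sum_le_sum fun i _ =>
        (abs_sum_le_sum_abs _ _).trans ((sum_le_sum fun j' _ => by
          rw [abs_mul, abs_of_nonneg (sqrt_nonneg _)]).trans (sum_le_sum_of_subset_of_nonneg
            (range_mono hj) fun _ _ _ => by positivity))
    _ = ∑ j' ∈ range k, √(v j') * ∑ i, |s.2 j' i| := by simp only [sum_comm (s := univ), mul_sum]
    _ ≤ _ := by
        rw [sum_mul]
        refine sum_le_sum fun j' hj' => mul_le_mul_of_nonneg_left ?_ (sqrt_nonneg _)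
        linarith [single_le_sum (f := fun j => ∑ i, |s.2 j i|) (fun _ _ => by positivity) hj']

theorem id_homF [IsProbabilityMeasure ν] (v : ℕ → ℝ) :
    Sys.Hom (GS k ι ν) (FS ι (fun j => min 1 (((j : ℝ) + 1) / k)) v) (idF v)
      (fun _ w => WithLp.toLp 2 w.2) k 0 where
  mφ j := by unfold idF; fun_prop
  mp _ _ _ := (MeasurePreserving.mk (by fun_prop) map_pi_eq_stdGaussian).comp measurePreserving_snd
  ζ_eq _ _ _ := rfl
  comm j _ hj s w := by
    ext i
    simp only [GS, idF, FS, if_pos (by omega : j < k), id_upd]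
    simp
  gauge := ⟨_, fun j _ hj s => le_trans (by
    show ‖idF v j s‖ ≤ _
    rw [EuclideanSpace.norm_eq]
    exact sqrt_le_iff.2 ⟨by positivity, sum_sq_le_sq_sum_of_nonneg fun _ _ => norm_nonneg _⟩)
    (id_gauge v (by omega) s)⟩

/-- the accumulated scalar field -/
noncomputable def idR (v : ℕ → ℝ) (j : ℕ) (s : St Unit Cf) : ℝ :=
  ∑ j' ∈ range j, √(v j') * s.2 j' ()

theorem id_homR [IsProbabilityMeasure ν] (v : ℕ → ℝ) :
    Sys.Hom (GS k Unit ν) (RS k v) (idR v) (fun _ w => w.2 ()) k 0 where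
  mφ j := by unfold idR; fun_prop
  mp _ _ _ := (measurePreserving_eval (fun _ : Unit => gaussianReal 0 1) ()).comp
    measurePreserving_snd
  ζ_eq _ _ _ := rfl
  comm j _ hj s w := by simp only [GS, idR, RS, if_pos (by omega : j < k), id_upd]
  gauge := ⟨_, fun j _ hj s => le_trans (by simp [RS, idR]) (id_gauge v (by omega : j ≤ k) s)⟩

theorem id_ζk (hk : 0 < k) : (GS k ι ν).ζ k = 1 :=
  min_eq_left ((one_le_div (by positivity)).2 (by linarith))

theorem id_ak (s : St ι Cf) (w : Cf × (ι → ℝ)) : (GS k ι ν).a k s w = (w.1, s.2) := by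
  simp [GS]

theorem id_T [SFinite ν] (hk : 0 < k) (H : St ι Cf → ℝ) (s : St ι Cf) :
    (GS k ι ν).X 1 k H s = log (∫ σ, exp (H (σ, s.2)) ∂ν) := by
  simp only [Sys.X, Sys.T, id_ζk hk, id_ak, one_mul, inv_one]
  rw [show (GS k ι ν).μ = ν.prod (γ ι) from rfl, integral_fun_fst fun σ => exp (H (σ, s.2))]
  simp

omit [MeasurableSpace Cf] in
theorem id_HSp (v : ℕ → ℝ) (s : St ι Cf) :
    (Sp x).Hv k (fun j _ => v j) s = ∑ i, idF v k s i * x s.1 i := by
  simp only [Rg.Hv, Rg.H, Rg.U, Sp, idF, sum_mul, filter_true, univ_unique, sum_singleton, id]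
  rw [sum_comm]
  exact sum_congr rfl fun i _ => sum_congr rfl fun j _ => by ring

theorem id_TSp [SFinite ν] (hk : 0 < k) (v : ℕ → ℝ) :
    (GS k ι ν).X 1 k ((Sp x).Hv k fun j _ => v j) = fun s => Φs ν x (idF v k s) := by
  funext s
  simp only [id_T hk, id_HSp]
  rfl

theorem id_PSp (hx : Spin ν x) (hk : 0 < k) (v : ℕ → ℝ) (i : ι) :
    (GS k ι ν).P 1 k ((Sp x).Hv k fun j _ => v j) (fun s => x s.1 i) =
      fun s => Mg ν x i (idF v k s) := by
  have := hx.prob
  have hm : Measurable fun s : St ι Cf => x s.1 i := by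
    have := hx.meas
    fun_prop
  have hH := Rg.lin_Hv (ν := ν) (sp_ok hx le_rfl) hk fun j _ => v j
  funext s
  rw [Sys.P_succ (gs_ok hk) hH (Sys.Ex.of_bdd (gs_ok hk) hm _ fun s => hx.abs_le s.1 i),
    Sys.P_zero hm, Sys.integral_stepM (gs_ok hk) (Sys.lin_X (gs_ok hk) hH _ _) _ _ hm]
  have e := congrFun (id_TSp (ν := ν) (x := x) hk v) s
  simp only [Sys.X] at e ⊢
  simp only [e, id_ζk hk, id_ak, one_mul, id_HSp]
  rw [show (GS k ι ν).μ = ν.prod (γ ι) from rfl, integral_fun_fst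
    fun σ => exp (∑ i, idF v k (σ, s.2) i * x σ i - Φs ν x (idF v k s)) * x σ i]
  simp only [probReal_univ, one_smul, Mg, exp_sub, Φs, exp_log (id_Z_pos hx _)]
  rw [← integral_div]
  congr 1
  funext σ
  rw [div_mul_eq_mul_div, mul_comm]
  rfl

variable [Nonempty Cf]

theorem Yv_Sp (hx : Spin ν x) (hk : 0 < k) (v : ℕ → ℝ) : (Sp x).Yv k ν (fun j _ => v j) =
    (FS ι (fun j => min 1 (((j : ℝ) + 1) / k)) v).X k 0 (Φs ν x) 0 := by
  have := hx.prob
  have h := (id_homF (ν := ν) (k := k) v).X_eq (fs_ok ι (id_ζ_pos hk) v) (lin_Φs hx _ _) (s0 ι Cf)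
  rw [zero_add] at h
  rw [Rg.Yv, YY, Sys.X_add, zero_add, id_TSp hk, h, show idF v 0 (s0 ι Cf) = 0 by ext i; simp [idF]]

theorem pp_Sp (hx : Spin ν x) (hk : 0 < k) (v : ℕ → ℝ) {l : ℕ} (hl : l ≤ k) :
    ∫ p, ∑ i, x p.1.1 i * x p.2.1 i ∂pp k ν ((Sp x).Hv k fun j _ => v j) l =
      pF ν x (fun j => min 1 (((j : ℝ) + 1) / k)) v l (k - l) := by
  have := hx.prob
  have hY := gs_ok (I := ι) (ν := ν) hk
  have hF := fs_ok ι (id_ζ_pos hk) v
  have hH := Rg.lin_Hv (ν := ν) (sp_ok hx le_rfl) hk fun j _ => v j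
  have hg : ∀ i, (GS k ι ν).Ex fun s => x s.1 i := fun i =>
    Sys.Ex.of_bdd hY (by have := hx.meas; fun_prop) _ fun s => hx.abs_le s.1 i
  have hΦ := lin_Φs hx (fun j => min 1 (((j : ℝ) + 1) / k)) v
  have hM := fun i : ι => Sys.ex_P hF hΦ
    (Sys.Ex.of_bdd hF (measurable_Mg hx i) _ (abs_Mg_le hx i)) (k - l) l
  have h1 := (id_homF (ι := ι) (ν := ν) (k := k) v).sub (n' := k - l) (j' := l) (by omega) (by omega)
  have h2 := (id_homF (ι := ι) (ν := ν) (k := k) v).sub (n' := l) (j' := 0) le_rfl (by omega)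
  have e : l + (k - l) = k := by omega
  have e0 : idF v 0 (s0 ι Cf) = 0 := by ext i; simp [idF]
  rw [integral_finsetSum _ fun i _ => integrable_pp hk hH
    (((hg i).fst hY).mul hY ((hg i).snd hY)) l, pF, Sys.P, integral_finsetSum _ fun i _ =>
      ((hM i).sq hF).integrable_m hF (Sys.lin_X hF hΦ _ _) _ _ _]
  refine sum_congr rfl fun i _ => ?_
  have a1 := funext (h1.X_eq hF hΦ)
  have a2 := funext (h1.P_eq hY hF hΦ (measurable_Mg hx i))
  have a3 := h2.P_eq hY hF (Sys.lin_X hF hΦ (k - l) l) ((hM i).sq hF).1 (s0 ι Cf)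
  rw [e] at a1 a2
  rw [zero_add, e0] at a3
  rw [pp, Sys.integral_pr_mul hY hH (hg i) (hg i), zero_add, Nat.sub_add_comm hl, Sys.X_add,
    funext (Sys.P_add hY hH (hg i) (k - l) 1 l), e, id_TSp hk, id_PSp hx hk, a1, a2]
  simp only [sq] at a3 ⊢
  exact a3

theorem Yv_Pt (hf : Nice f f1 f2 K) (hk : 0 < k) (q : ℕ → ℝ) :
    (Pt f f1 f2).Yv k (Measure.dirac ()) (wP q) = Psi f k q := by
  have hR := rs_ok hk fun j => q (j + 1) - q j
  have h := (id_homR (ν := Measure.dirac ()) (k := k) fun j => q (j + 1) - q j).X_eq hR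
    (H := f) (Sys.Lin.of_bdd hR ((pt_ok hf).mF ()) K hf.b0) (s0 Unit Unit)
  have e : (GS k Unit (Measure.dirac ())).X 1 k ((Pt f f1 f2).Hv k (wP q)) =
      fun s => f (idR (fun j => q (j + 1) - q j) k s) := by
    funext s
    simp [id_T hk, Rg.Hv, Rg.H, Rg.U, Pt, idR, wP]
  rw [zero_add] at h
  rw [Rg.Yv, YY, Sys.X_add, zero_add, e, Psi, casc_eq _ _ (by omega)]
  simpa [idR] using h

theorem id_νB (b : Bool) : νB {b} = 2⁻¹ := by
  rw [νB, uniformOn_univ]
  simp

theorem spin_B : Spin νB xB :=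
  ⟨inferInstanceAs (IsProbabilityMeasure (uniformOn Set.univ)), Measurable.of_discrete,
    fun σ => by cases σ <;> simp [xB]⟩

theorem rotInv_B : RotInv νB xB := by
  intro L
  have hn : xB false = -xB true := by funext i; simp [xB]
  have h1 : (L (WithLp.toLp 2 (xB true)) ()) ^ 2 = 1 := by
    have := L.norm_map (WithLp.toLp 2 (xB true))
    rw [EuclideanSpace.norm_eq, EuclideanSpace.norm_eq, sqrt_inj (by positivity) (by positivity)]
      at this
    simpa [xB] using this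
  have h2 : L (WithLp.toLp 2 (xB false)) = -L (WithLp.toLp 2 (xB true)) := by
    rw [hn, WithLp.toLp_neg, map_neg]
  rcases sq_eq_one_iff.1 h1 with h | h
  · congr 1
    funext σ
    ext ⟨⟩
    cases σ
    · simp [h2, h, xB]
    · simp [h, xB]
  · have h3 : νB.map not = νB := Measure.ext_of_singleton fun b => by
      rw [Measure.map_apply Measurable.of_discrete (measurableSet_singleton _), id_νB,
        show not ⁻¹' {b} = {!b} by ext c; cases b <;> cases c <;> simp, id_νB]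
    conv_rhs => rw [← h3, Measure.map_map Measurable.of_discrete Measurable.of_discrete]
    congr 1
    funext σ
    ext ⟨⟩
    cases σ
    · simp [h2, h, xB]
    · simp [h, xB]

theorem XN_B (hk : 0 < k) (r : ℕ → ℝ) : XN k νB xB r = XI k r := by
  have := spin_B.prob
  obtain ⟨n, rfl⟩ : ∃ n, k = n + 1 := ⟨k - 1, by omega⟩
  set v : ℕ → ℝ := fun j => if j + 1 < n + 1 then r (j + 1) - r j else 0 with hv
  have hR := rs_ok hk v
  have hL : (RS (n + 1) v).Lin fun x => log (cosh x) := ⟨by fun_prop, 1, fun x => by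
    rw [abs_of_nonneg (log_nonneg (one_le_cosh x)), one_mul, log_le_iff_le_exp (cosh_pos x),
      cosh_eq]
    have h1 := exp_le_exp.2 (show x ≤ 1 + |x| by linarith [le_abs_self x])
    have h2 := exp_le_exp.2 (show -x ≤ 1 + |x| by linarith [neg_abs_le x])
    exact (show _ ≤ exp (1 + |x|) by linarith)⟩
  have h := (id_homR (ν := νB) (k := n + 1) v).X_eq hR hL (s0 Unit Bool)
  have e : (GS (n + 1) Unit νB).X 1 (n + 1) ((Sp xB).Hv (n + 1) (wS Unit (n + 1) r)) =
      fun s => log (cosh (idR v (n + 1) s)) := by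
    funext s
    rw [id_T hk, integral_fintype Integrable.of_finite, cosh_eq]
    congr 1
    simp only [show wS Unit (n + 1) r = fun j _ => v j from rfl, id_HSp, measureReal_def, id_νB]
    simp [xB, idF, idR]
    ring
  rw [zero_add] at h
  rw [XN, Rg.Yv, YY, Sys.X_add, zero_add, e, h, XI, casc_eq _ _ (by omega), Sys.X_add,
    Sys.X_of_inv hR (n := 1) fun i h1 h2 s w => by
      obtain rfl : i = n := by omega
      simp [RS, hv],
    id_X_congr (Y := RS (n + 1) fun j => r (j + 1) - r j) (Y' := RS (n + 1) v) rfl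
      fun i _ hi => ⟨rfl, by
      simp only [RS, hv, if_pos (by omega : i + 1 < n + 1)]⟩]
  simp [idR]

/-! refinement of the levels -/

theorem X_refine {S Ω : Type*} [MeasurableSpace S] [MeasurableSpace Ω] {Y Y' : Sys S Ω}
    (hY' : Y'.OK) {m : ℕ} (hm : 0 < m) (hμ : Y'.μ = Y.μ) {k0 : ℕ}
    (h1 : ∀ i < k0, Y'.ζ (m * i + (m - 1)) = Y.ζ i ∧ Y'.a (m * i + (m - 1)) = Y.a i)
    (h2 : ∀ l < m * k0, (l + 1) % m ≠ 0 → ∀ s w, Y'.a l s w = s) (H : S → ℝ) :
    Y'.X (m * k0) 0 H = Y.X k0 0 H := by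
  induction k0 generalizing H with
  | zero => rfl
  | succ k0 ih =>
    obtain ⟨n, rfl⟩ : ∃ n, m = n + 1 := ⟨m - 1, by omega⟩
    obtain ⟨a1, a2⟩ := h1 k0 (by omega)
    rw [Nat.add_sub_cancel] at a1 a2
    rw [Nat.mul_succ] at h2
    rw [Nat.mul_succ, Sys.X_add, Sys.X_add, ih (fun i hi => h1 i (by omega))
      fun l hl => h2 l (by omega), Sys.X_add k0 1, Sys.X_of_inv hY' (n := n) fun i b1 b2 s w => by
        obtain ⟨d, rfl⟩ := Nat.exists_eq_add_of_le b1
        rw [h2 _ (by omega) (by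
          rw [zero_add, add_assoc, Nat.mul_add_mod, Nat.mod_eq_of_lt (by omega)]; omega)]]
    congr 1
    funext s
    simp only [Sys.X, Sys.T, zero_add, a1, a2, hμ]

theorem id_ζ_ref {k0 m : ℕ} (hm : 0 < m) (i : ℕ) :
    min 1 ((((m * i + (m - 1) : ℕ) : ℝ) + 1) / (m * k0 : ℕ)) = min 1 (((i : ℝ) + 1) / k0) := by
  obtain ⟨n, rfl⟩ : ∃ n, m = n + 1 := ⟨m - 1, by omega⟩
  rw [Nat.add_sub_cancel, ← mul_div_mul_left ((i : ℝ) + 1) (k0 : ℝ) (c := (n : ℝ) + 1) (by positivity)]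
  push_cast
  congr 2
  ring

theorem id_div1 {m : ℕ} (hm : 0 < m) (i : ℕ) : (m * i + (m - 1)) / m = i := by
  rw [Nat.mul_add_div hm, Nat.div_eq_of_lt (by omega), add_zero]

theorem id_div2 {m : ℕ} (hm : 0 < m) (i : ℕ) : (m * i + (m - 1) + 1) / m = i + 1 := by
  rw [add_assoc, Nat.mul_add_div hm, Nat.sub_add_cancel hm, Nat.div_self hm]

theorem id_div3 {m l : ℕ} (h : (l + 1) % m ≠ 0) : (l + 1) / m = l / m :=
  Nat.succ_div_of_not_dvd fun h' => h (Nat.mod_eq_zero_of_dvd h')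

theorem Psi_refine (f : ℝ → ℝ) {k0 m : ℕ} (hk : 0 < k0) (hm : 0 < m) (q : ℕ → ℝ) :
    Psi f (m * k0) (fun l => q (l / m)) = Psi f k0 q := by
  rw [Psi, Psi, casc_eq _ _ (by omega), casc_eq _ _ (by omega),
    X_refine (Y := RS k0 fun j => q (j + 1) - q j) (rs_ok (Nat.mul_pos hm hk) _) hm rfl
      (fun i _ => ⟨id_ζ_ref hm i, by simp only [RS, id_div1 hm, id_div2 hm]⟩)
      fun l _ h s w => by simp [RS, id_div3 h]]

theorem XN_refine (hx : Spin ν x) {k0 m : ℕ} (hk : 0 < k0) (hm : 0 < m) (r : ℕ → ℝ) :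
    XN (m * k0) ν x (fun l => r (l / m)) = XN k0 ν x r := by
  have hk' := Nat.mul_pos hm hk
  have e : (m * k0 - 1) / m = k0 - 1 := by
    obtain ⟨n, rfl⟩ : ∃ n, k0 = n + 1 := ⟨k0 - 1, by omega⟩
    rw [Nat.mul_succ, Nat.add_sub_assoc hm, id_div1 hm, Nat.add_sub_cancel]
  have h1 := Yv_Sp hx hk' fun j => if j + 1 < m * k0 then r ((j + 1) / m) - r (j / m) else 0
  have h2 := Yv_Sp hx hk fun j => if j + 1 < k0 then r (j + 1) - r j else 0
  rw [X_refine (Y := FS ι (fun j => min 1 (((j : ℝ) + 1) / k0))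
      fun j => if j + 1 < k0 then r (j + 1) - r j else 0) (fs_ok ι (id_ζ_pos hk') _) hm rfl
      (fun i _ => ⟨id_ζ_ref hm i, by
        have : m * i + (m - 1) + 1 < m * k0 ↔ i + 1 < k0 := by
          rw [add_assoc, Nat.sub_add_cancel hm, ← Nat.mul_succ, Nat.mul_lt_mul_left hm]
        simp only [FS, id_div1 hm, id_div2 hm, this]⟩)
      (fun l _ h s w => by simp [FS, id_div3 h]), ← h2] at h1
  simp only [XN, e]
  exact congrArg (fun z => z / (Fintype.card ι : ℝ) - r (k0 - 1) / 2) h1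

end Vale.Agent.P146M
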