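import Vale.Agent.P146M.SyncB

namespace Vale.Agent.P146M

open MeasureTheory ProbabilityTheory Real Finset Filter Topology
open scoped ENNReal

variable {ι κ Cf : Type} [Fintype ι] [Fintype κ] [DecidableEq κ] [MeasurableSpace Cf]
  {k : ℕ} {ν : Measure Cf} {x : Cf → ι → ℝ} {f f1 f2 : ℝ → ℝ} {K : ℝ}

theorem Spin.abs_le (hx : Spin ν x) (σ : Cf) (i : ι) : |x σ i| ≤ √(Fintype.card ι) := by
  refine Real.abs_le_sqrt ?_
  rw [← hx.norm σ]
  exact single_le_sum (f := fun i => x σ i ^ 2) (fun _ _ => sq_nonneg _) (mem_univ i)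
theorem Spin.abs_ov_le (hx : Spin ν x) (σ σ' : Cf) : |ov x σ σ'| ≤ 1 := by
  have h := sum_mul_sq_le_sq_mul_sq univ (x σ) (x σ')
  rw [hx.norm, hx.norm, ← sq] at h
  rw [ov, abs_div, Nat.abs_cast]
  exact div_le_one_of_le₀ (abs_le_of_sq_le_sq h (Nat.cast_nonneg _)) (Nat.cast_nonneg _)
theorem Spin.measurable_ov (hx : Spin ν x) : Measurable fun p : Cf × Cf => ov x p.1 p.2 := by
  have := hx.meas
  unfold ov
  fun_prop
theorem Spin.xx {ι' Cf' : Type} [Fintype ι'] [MeasurableSpace Cf'] {ν' : Measure Cf'}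
    {x' : Cf' → ι' → ℝ} (hx : Spin ν x) (hx' : Spin ν' x') : Spin (ν.prod ν') (xx x x') := by
  have := hx.prob
  have := hx'.prob
  have := hx.meas
  have := hx'.meas
  refine ⟨inferInstance, measurable_pi_lambda _ fun i => ?_, fun σ => ?_⟩
  · rcases i with i | i
    · show Measurable fun σ : Cf × Cf' => x σ.1 i
      fun_prop
    · show Measurable fun σ : Cf × Cf' => x' σ.2 i
      fun_prop
  · rw [Fintype.sum_sum_type, Fintype.card_sum, Nat.cast_add, ← hx.norm σ.1, ← hx'.norm σ.2]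
    rfl
theorem Spin.blk (hx : Spin ν x) (β : Type) [Fintype β] :
    Spin (Measure.pi fun _ : β => ν) (blk β x) := by
  have := hx.prob
  have := hx.meas
  refine ⟨inferInstance, measurable_pi_lambda _ fun i => ?_, fun σ => ?_⟩
  · show Measurable fun σ : β → Cf => x (σ i.1) i.2
    fun_prop
  · rw [Fintype.sum_prod_type, Fintype.card_prod, Nat.cast_mul]
    simp only [P146M.blk, hx.norm, sum_const, card_univ, nsmul_eq_mul]
omit [Fintype κ] [DecidableEq κ] in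
theorem md_ok (hx : Spin ν x) (hf : Nice f f1 f2 K) : (Md κ x f f1 f2).OK K := by
  have := hx.meas
  have h1 := hf.one_le
  refine ⟨fun a u => ?_, fun a u => ?_, fun a u => ?_, fun a u => ?_, fun i => ?_,
    1 + √(Fintype.card ι), fun i σ => ?_⟩
  · rcases a with _ | a
    exacts [hasDerivAt_id u, hf.d1 u]
  · rcases a with _ | a
    exacts [hasDerivAt_const u 1, hf.d2 u]
  · rcases a with _ | a
    exacts [abs_one.trans_le h1, hf.b1 u]
  · rcases a with _ | a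
    exacts [abs_zero.trans_le (zero_le_one.trans h1), hf.b2 u]
  · rcases i with i | ⟨a, i, _ | _⟩
    · show Measurable fun σ => x σ i
      fun_prop
    · show Measurable fun σ => x σ i
      fun_prop
    · exact measurable_const
  · rcases i with i | ⟨a, i, _ | _⟩
    · exact (hx.abs_le σ i).trans (le_add_of_nonneg_left zero_le_one)
    · exact (hx.abs_le σ i).trans (le_add_of_nonneg_left zero_le_one)
    · exact abs_one.trans_le (le_add_of_nonneg_right (Real.sqrt_nonneg _))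
theorem sp_ok (hx : Spin ν x) {K : ℝ} (hK : 1 ≤ K) : (Sp x).OK K := by
  have := hx.meas
  refine ⟨fun _ u => hasDerivAt_id u, fun _ u => hasDerivAt_const u 1,
    fun _ _ => abs_one.trans_le hK, fun _ _ => abs_zero.trans_le (zero_le_one.trans hK),
    fun i => ?_, _, fun i σ => hx.abs_le σ i⟩
  show Measurable fun σ => x σ i
  fun_prop
theorem pt_ok (hf : Nice f f1 f2 K) : (Pt f f1 f2).OK K :=
  ⟨fun _ => hf.d1, fun _ => hf.d2, fun _ => hf.b1, fun _ => hf.b2, fun _ => measurable_const, 1,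
    fun _ _ => abs_one.le⟩
theorem lin_HM (hx : Spin ν x) (hf : Nice f f1 f2 K) (hk : 0 < k) (s : ℝ) (y b : ℕ → ℝ) :
    (GS k (ι ⊕ κ × ι × Bool) ν).Lin (HM κ k x f f1 f2 s y b) :=
  haveI := hx.prob
  Rg.lin_Hv (md_ok hx hf) hk _
theorem md_meas_U {I A : Type} [Fintype I] [DecidableEq A] {R : Rg I A Cf} (hR : R.OK K)
    (lam : ℕ → I → ℝ) (a : A) : Measurable (R.U k lam a) := by
  refine Finset.measurable_sum _ fun j _ => Finset.measurable_sum _ fun i _ => ?_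
  have := hR.me i
  fun_prop
theorem md_meas_f1U (hx : Spin ν x) (hf : Nice f f1 f2 K) (s : ℝ) (y b : ℕ → ℝ) (a : κ) :
    Measurable fun z => f1 (UM κ k x f f1 f2 s y b a z) :=
  (continuous_iff_continuousAt.mpr fun u => (hf.d2 u).continuousAt).measurable.comp
    (md_meas_U (md_ok hx hf) _ _)
theorem measurable_QM (hx : Spin ν x) (hf : Nice f f1 f2 K) (s : ℝ) (y b : ℕ → ℝ) :
    Measurable (QM κ k x f f1 f2 s y b) :=
  (Finset.measurable_sum _ fun a _ => ((md_meas_f1U hx hf s y b a).comp measurable_fst).mul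
    ((md_meas_f1U hx hf s y b a).comp measurable_snd)).div_const _
omit [DecidableEq κ] in
theorem md_abs_sum (hf : Nice f f1 f2 K) (u v : κ → ℝ) :
    |∑ a, f1 (u a) * f1 (v a)| ≤ K ^ 2 * Fintype.card κ := by
  refine (abs_sum_le_sum_abs _ _).trans ((sum_le_card_nsmul _ _ (K ^ 2) fun a _ => ?_).trans_eq ?_)
  · rw [abs_mul, sq]
    exact mul_le_mul (hf.b1 _) (hf.b1 _) (abs_nonneg _) (zero_le_one.trans hf.one_le)
  · rw [card_univ, nsmul_eq_mul, mul_comm]
omit [MeasurableSpace Cf] in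
theorem abs_QM_le (hf : Nice f f1 f2 K) (s : ℝ) (y b : ℕ → ℝ)
    (p : St (ι ⊕ κ × ι × Bool) Cf × St (ι ⊕ κ × ι × Bool) Cf) :
    |QM κ k x f f1 f2 s y b p| ≤ K ^ 2 * Fintype.card κ / Fintype.card ι := by
  rw [QM, abs_div, Nat.abs_cast]
  exact div_le_div_of_nonneg_right (md_abs_sum hf _ _) (Nat.cast_nonneg _)

theorem md_abs_int {α : Type*} [MeasurableSpace α] (μ : Measure α) [IsProbabilityMeasure μ]
    {g : α → ℝ} {C : ℝ} (h : ∀ a, |g a| ≤ C) : |∫ a, g a ∂μ| ≤ C := by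
  simpa using norm_integral_le_of_norm_le_const (μ := μ) (f := g) (C := C) (Eventually.of_forall h)

variable [Nonempty Cf]

theorem md_ker {I D : Type} [Fintype I] [Fintype D] [IsProbabilityMeasure ν] {H : St I Cf → ℝ}
    (hk : 0 < k) (hH : (GS k I ν).Lin H) {g : D → St I Cf → ℝ} (hg : ∀ d, (GS k I ν).Ex (g d))
    (N : ℕ) : (∀ l, 0 ≤ ∫ p, (∑ d, g d p.1 * g d p.2) / N ∂pp k ν H l) ∧
      ∀ l l', l ≤ l' → l' ≤ k + 1 → ∫ p, (∑ d, g d p.1 * g d p.2) / N ∂pp k ν H l ≤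
        ∫ p, (∑ d, g d p.1 * g d p.2) / N ∂pp k ν H l' := by
  have e : ∀ l, ∫ p, (∑ d, g d p.1 * g d p.2) / N ∂pp k ν H l =
      (∑ d, ∫ p, g d p.1 * g d p.2 ∂pp k ν H l) / N := fun l => by
    rw [integral_div, integral_finsetSum]
    exact fun d _ => integrable_pp hk hH (Sys.Ex2.mul (gs_ok hk) ((hg d).fst (gs_ok hk))
      ((hg d).snd (gs_ok hk))) l
  simp only [e]
  exact ⟨fun l => div_nonneg (sum_nonneg fun d _ => pp_nonneg hk hH (hg d) l) (Nat.cast_nonneg _),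
    fun l l' h h' => div_le_div_of_nonneg_right (sum_le_sum fun d _ => pp_mono hk hH (hg d) h h')
      (Nat.cast_nonneg _)⟩

theorem admQ_eR (hx : Spin ν x) (hf : Nice f f1 f2 K) (hk : 0 < k) (s : ℝ) (y b : ℕ → ℝ) :
    AdmQ k (pathQ k (eR κ k ν x f f1 f2 s y b)) := by
  have := hx.prob
  have := hx.meas
  have hH := lin_HM (κ := κ) hx hf hk s y b
  obtain ⟨h1, h2⟩ := md_ker hk hH (g := fun (i : ι) (z : St (ι ⊕ κ × ι × Bool) Cf) => x z.1 i)
    (fun i => Sys.Ex.of_bdd (gs_ok hk) (by fun_prop) _ fun z => hx.abs_le z.1 i) (Fintype.card ι)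
  have h3 : ∀ l, eR κ k ν x f f1 f2 s y b l ≤ 1 := fun l =>
    haveI := pp_prob hk hH l
    (le_abs_self _).trans (md_abs_int _ fun p => hx.abs_ov_le _ _)
  refine ⟨if_pos rfl, fun l l' h => ?_, ?_⟩
  · unfold pathQ
    split_ifs <;> first | exact le_rfl | exact zero_le_one | exact h1 _ | exact h3 _ | omega |
      exact h2 _ _ h (by omega)
  · rw [pathQ, if_neg hk.ne', if_neg (lt_irrefl k)]
theorem admR_eQ (hx : Spin ν x) (hf : Nice f f1 f2 K) (hk : 0 < k) (s : ℝ) (y b : ℕ → ℝ) :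
    AdmR (pathR k (eQ κ k ν x f f1 f2 s y b)) ∧ pathR k (eQ κ k ν x f f1 f2 s y b) (k - 1) ≤
      K ^ 2 * Fintype.card κ / Fintype.card ι := by
  have := hx.prob
  have hH := lin_HM (κ := κ) hx hf hk s y b
  obtain ⟨h1, h2⟩ := md_ker hk hH (g := fun a z => f1 (UM κ k x f f1 f2 s y b a z))
    (fun a => Sys.Ex.of_bdd (gs_ok hk) (md_meas_f1U hx hf s y b a) _ fun z => hf.b1 _)
    (Fintype.card ι)
  refine ⟨⟨if_pos (Nat.zero_min _), fun l l' h => ?_⟩, ?_⟩
  · unfold pathR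
    split_ifs <;> first | exact le_rfl | exact h1 _ | omega | exact h2 _ _ (by omega) (by omega)
  · unfold pathR
    split_ifs
    · positivity
    · have := pp_prob hk hH (min (k - 1) (k - 1))
      exact (le_abs_self _).trans (md_abs_int _ fun p => abs_QM_le hf s y b p)

variable [Nonempty ι]

omit [DecidableEq κ] [MeasurableSpace Cf] [Nonempty Cf] in
theorem md_pair {l : ℕ} (hl : 0 < l) (s : ℝ) (y b : ℕ → ℝ) (σ σ' : Cf) (g : Option κ → ℝ) :
    ∑ i, (∑ j ∈ range l, wM ι κ s y b j i) *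
      ((Md κ x f f1 f2).e i σ * (Md κ x f f1 f2).e i σ' * g ((Md κ x f f1 f2).own i)) =
      Fintype.card ι * ((∑ j ∈ range l, y j) * ov x σ σ' * g none) +
        (s * ov x σ σ' + ∑ j ∈ range l, b j) * ∑ a, g (some a) := by
  have hN : (Fintype.card ι : ℝ) ≠ 0 := Nat.cast_ne_zero.mpr Fintype.card_ne_zero
  rw [Fintype.sum_sum_type, Fintype.sum_prod_type, mul_sum]
  simp only [Fintype.sum_prod_type, Fintype.sum_bool, wM, Md, Sum.elim_inl, Sum.elim_inr, if_true,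
    Bool.false_eq_true, if_false, sum_ite_eq', mem_range, hl, ← sum_div, sum_add_distrib,
    ← mul_sum, ← sum_mul, sum_const, card_univ, nsmul_eq_mul, ov]
  field_simp
  ring

omit [Nonempty Cf] in
theorem md_ov_self (hx : Spin ν x) (σ : Cf) : ov x σ σ = 1 := by
  simp only [ov, ← sq, hx.norm]
  exact div_self (Nat.cast_ne_zero.mpr Fintype.card_ne_zero)

/-- diagonal factor -/
noncomputable def mdG {I A Cf : Type} [Fintype I] [DecidableEq A] (R : Rg I A Cf) (k : ℕ)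
    (w : ℕ → I → ℝ) (z : St I Cf) (a : A) : ℝ :=
  R.F2 a (R.U k (fun j i => √(w j i)) a z) + R.F1 a (R.U k (fun j i => √(w j i)) a z) ^ 2

/-- off diagonal factor -/
noncomputable def mdP {I A Cf : Type} [Fintype I] [DecidableEq A] (R : Rg I A Cf) (k : ℕ)
    (w : ℕ → I → ℝ) (z z' : St I Cf) (a : A) : ℝ :=
  R.F1 a (R.U k (fun j i => √(w j i)) a z) * R.F1 a (R.U k (fun j i => √(w j i)) a z')

theorem md_dg {I A Cf : Type} [Fintype I] [DecidableEq A] (R : Rg I A Cf) (w : ℕ → I → ℝ) (i : I)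
    (z : St I Cf) : R.dg k w i z = R.e i z.1 * R.e i z.1 * mdG R k w z (R.own i) := by
  simp only [Rg.dg, Rg.ψ, mdG]
  ring

theorem md_psi {I A Cf : Type} [Fintype I] [DecidableEq A] (R : Rg I A Cf) (w : ℕ → I → ℝ) (i : I)
    (z z' : St I Cf) :
    R.ψ k w i z * R.ψ k w i z' = R.e i z.1 * R.e i z'.1 * mdP R k w z z' (R.own i) := by
  simp only [Rg.ψ, mdP]
  ring

theorem md_range {g : ℕ → ℝ} (h : g 0 = 0) : ∑ l ∈ range k, g l = ∑ l ∈ Ioo 0 k, g l := by
  refine (sum_subset (fun l hl => mem_range.mpr (mem_Ioo.mp hl).2) fun l hl hn => ?_).symm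
  rw [mem_range] at hl
  rw [mem_Ioo] at hn
  rwa [show l = 0 by omega]

/-- the interpolation formula when the diagonal pattern term cancels -/
theorem GI_Md (hx : Spin ν x) (hf : Nice f f1 f2 K) (hk : 0 < k) (s s' : ℝ) (y b y' b' : ℕ → ℝ)
    (h0 : s' + ∑ j ∈ range k, b' j = 0) :
    (Md κ x f f1 f2).GI k ν (wM ι κ s y b) (wM ι κ s' y' b') =
      (Fintype.card ι : ℝ) * ((1 / 2) * ∑ j ∈ range k, y' j -
        (1 / (2 * (k : ℝ))) * ∑ l ∈ Ioo 0 k, ∫ p, (∑ j ∈ range l, y' j) * RM x p +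
          (s' * RM x p + ∑ j ∈ range l, b' j) * QM κ k x f f1 f2 s y b p
            ∂pp k ν (HM κ k x f f1 f2 s y b) l) := by
  have := hx.prob
  have := mm_prob hk (lin_HM (κ := κ) hx hf hk s y b)
  have hN : (Fintype.card ι : ℝ) ≠ 0 := Nat.cast_ne_zero.mpr Fintype.card_ne_zero
  have e1 : ∀ z, ∑ i, (∑ j ∈ range k, wM ι κ s' y' b' j i) *
      (Md κ x f f1 f2).dg k (wM ι κ s y b) i z = Fintype.card ι * ∑ j ∈ range k, y' j := fun z => by
    simp only [md_dg]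
    rw [md_pair hk, md_ov_self hx, mul_one s', h0]
    simp [Md, mdG]
  have e2 : ∀ l ∈ Ioo 0 k, ∫ p, ∑ i, (∑ j ∈ range l, wM ι κ s' y' b' j i) *
      ((Md κ x f f1 f2).ψ k (wM ι κ s y b) i p.1 * (Md κ x f f1 f2).ψ k (wM ι κ s y b) i p.2)
        ∂pp k ν (HM κ k x f f1 f2 s y b) l = Fintype.card ι *
      ∫ p, (∑ j ∈ range l, y' j) * RM x p + (s' * RM x p + ∑ j ∈ range l, b' j) *
        QM κ k x f f1 f2 s y b p ∂pp k ν (HM κ k x f f1 f2 s y b) l := fun l hl => by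
    rw [← integral_const_mul]
    congr 1
    funext p
    simp only [md_psi]
    rw [md_pair (mem_Ioo.mp hl).1]
    show _ * (_ * _ * (1 * 1)) + _ * ∑ a, f1 (UM κ k x f f1 f2 s y b a p.1) *
      f1 (UM κ k x f f1 f2 s y b a p.2) = _
    rw [QM, RM]
    field_simp
  have e3 := (md_range (k := k) (by simp)).trans (sum_congr rfl e2)
  unfold Rg.GI
  simp only [e1]
  show _ * ∫ _, _ ∂mm k ν (HM κ k x f f1 f2 s y b) - _ * ∑ l ∈ range k,
    ∫ p, _ ∂pp k ν (HM κ k x f f1 f2 s y b) l = _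
  rw [e3, ← mul_sum, integral_const, probReal_univ, one_smul]
  ring

omit [Fintype κ] [DecidableEq κ] [Nonempty ι] in
theorem md_w_nonneg {s : ℝ} {y b : ℕ → ℝ} (hs : 0 ≤ s) (hy : ∀ j < k, 0 ≤ y j)
    (hb : ∀ j < k, 0 ≤ b j) : ∀ j < k, ∀ i, 0 ≤ wM ι κ s y b j i := by
  intro j hj i
  have := hb j hj
  rcases i with i | ⟨a, i, c⟩
  · exact hy j hj
  · simp only [wM, Sum.elim_inr]
    split_ifs <;> positivity

theorem YM_lip (hx : Spin ν x) (hf : Nice f f1 f2 K) (hk : 0 < k) {s s' : ℝ} {y b y' b' : ℕ → ℝ}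
    (hs : 0 ≤ s) (hs' : 0 ≤ s') (hy : ∀ j < k, 0 ≤ y j) (hy' : ∀ j < k, 0 ≤ y' j)
    (hb : ∀ j < k, 0 ≤ b j) (hb' : ∀ j < k, 0 ≤ b' j) :
    |YM κ k ν x f f1 f2 s' y' b' - YM κ k ν x f f1 f2 s y b| ≤
      2 * K ^ 2 * (Fintype.card ι * ∑ j ∈ range k, |y' j - y j| +
        Fintype.card κ * (|s' - s| + ∑ j ∈ range k, |b' j - b j|)) := by
  have := hx.prob
  refine Rg.Yv_lip (md_ok hx hf) hf.one_le hk (md_w_nonneg hs hy hb) (md_w_nonneg hs' hy' hb')
    fun σ => le_of_eq ?_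
  have e : ∀ j i, |wM ι κ s' y' b' j i - wM ι κ s y b j i| =
      wM ι κ |s' - s| (fun j => |y' j - y j|) (fun j => |b' j - b j|) j i := by
    rintro j (i | ⟨a, i, c⟩)
    · rfl
    · simp only [wM, Sum.elim_inr]
      split_ifs <;> simp only [← sub_div, abs_div, Nat.abs_cast, sub_self, abs_zero]
  have h := md_pair (κ := κ) (x := x) (f := f) (f1 := f1) (f2 := f2) hk |s' - s|
    (fun j => |y' j - y j|) (fun j => |b' j - b j|) σ σ fun _ => 1
  simp only [mul_one, ← sq, md_ov_self hx, sum_const, card_univ, nsmul_eq_mul] at h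
  simp only [e, h]
  ring

theorem md_mp {α β : Type*} [MeasurableSpace α] [MeasurableSpace β] [Subsingleton β]
    (μ : Measure α) (μ' : Measure β) [IsProbabilityMeasure μ] [IsProbabilityMeasure μ']
    (g : α → β) : MeasurePreserving g μ μ' := by
  refine ⟨measurable_of_subsingleton_codomain g, Measure.ext fun s hs => ?_⟩
  rw [Measure.map_apply (measurable_of_subsingleton_codomain g) hs]
  refine Subsingleton.set_cases (p := fun s => μ (g ⁻¹' s) = μ' s) ?_ ?_ s <;> simp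

/-- the merged system -/
def mdR {ι Cf : Type} (κ : Type) (x : Cf → ι → ℝ) (f f1 f2 : ℝ → ℝ) :
    Rg (ι ⊕ κ) (Option κ) Cf where
  own := Sum.elim (fun _ => none) some
  F := (Md κ x f f1 f2).F
  F1 := (Md κ x f f1 f2).F1
  F2 := (Md κ x f f1 f2).F2
  e := Sum.elim (fun i σ => x σ i) fun _ _ => 1

theorem md_merge (hx : Spin ν x) (hf : Nice f f1 f2 K) (hk : 0 < k) {y b : ℕ → ℝ}
    (hy : ∀ j < k, 0 ≤ y j) (hb : ∀ j < k, 0 ≤ b j) : YM κ k ν x f f1 f2 0 y b =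
      (mdR κ x f f1 f2).Yv k ν fun j => Sum.elim (fun _ => y j) fun _ => b j := by
  classical
  have := hx.prob
  have hM := md_ok (κ := κ) hx hf
  have hN : (Fintype.card ι : ℝ) ≠ 0 := Nat.cast_ne_zero.mpr Fintype.card_ne_zero
  have hR : (mdR κ x f f1 f2).OK K := by
    refine ⟨hM.d1, hM.d2, hM.b1, hM.b2, fun i => ?_, 1 + √(Fintype.card ι), fun i σ => ?_⟩
    · rcases i with i | a
      exacts [hM.me (Sum.inl i), measurable_const]
    · rcases i with i | a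
      · exact (hx.abs_le σ i).trans (le_add_of_nonneg_left zero_le_one)
      · exact abs_one.trans_le (le_add_of_nonneg_right (Real.sqrt_nonneg _))
  refine Rg.Yv_merge hM hk hR (Sum.map id Prod.fst) rfl (md_w_nonneg le_rfl hy hb) ?_ ?_
  · rintro (i | ⟨a, i, _ | _⟩) ⟨j, -, hj⟩
    · exact ⟨rfl, rfl⟩
    · simp [wM] at hj
    · exact ⟨rfl, rfl⟩
  · rintro j - (i | a)
    · simp [sum_filter, wM]
    · simp [sum_filter, wM, Fintype.sum_prod_type, mul_div_cancel₀ _ hN]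

theorem YM_split (hx : Spin ν x) (hf : Nice f f1 f2 K) (hk : 0 < k) {y b : ℕ → ℝ}
    (hy : ∀ j < k, 0 ≤ y j) (hb : ∀ j < k, 0 ≤ b j) : YM κ k ν x f f1 f2 0 y b = (Sp x).Yv k ν (fun j _ => y j) +
      Fintype.card κ * (Pt f f1 f2).Yv k (Measure.dirac ()) fun j _ => b j := by
  have := hx.prob
  have hP := Rg.lin_Hv (ν := Measure.dirac ()) (pt_ok hf) hk fun j _ => b j
  have h1 := YY_sum (ν := Measure.dirac ()) (ν' := Measure.dirac ()) hk (φ := fun _ : κ => id)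
    (e := fun (a : κ) (_ : Unit) => a) (md_mp _ _ _) (fun p q h => Prod.ext h rfl) fun _ => hP
  have h2 := YY_add2 (ν := ν) (ν' := ν) (ν2 := Measure.dirac ()) hk (φ := id) (φ2 := fun _ => ())
    (e := (Sum.inl : ι → ι ⊕ κ)) (e2 := Sum.inr)
    ⟨by fun_prop, Measure.prod_dirac _ |>.symm⟩
    (by rw [Sum.elim_inl_inr]; exact Function.injective_id)
    (Rg.lin_Hv (sp_ok hx hf.one_le) hk fun j _ => y j)
    (Sys.Lin.sum (gs_ok hk) univ fun a _ => lin_pull hk (MeasurePreserving.id _)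
      (e := fun _ : Unit => a) (fun _ _ _ => rfl) hP)
  rw [h1, sum_const, card_univ, nsmul_eq_mul] at h2
  rw [md_merge hx hf hk hy hb]
  refine Eq.trans ?_ h2
  unfold Rg.Yv
  congr 1
  funext z
  simp only [Rg.Hv, Rg.H, Fintype.sum_option, Fintype.sum_unique]
  congr 1
  · refine Rg.U_pull (R := Sp x) (R' := mdR κ x f f1 f2) (φ := id) (o := fun _ => none)
      Sum.inl_injective (fun _ _ _ => rfl) (fun _ => rfl) (fun _ _ => rfl) (fun _ _ _ => rfl) _ ?_ z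
    rintro j - (i | a) h1 h2
    · exact (h2 ⟨i, rfl⟩).elim
    · cases h1
  · refine sum_congr rfl fun a _ => congrArg f ?_
    refine Rg.U_pull (R := Pt f f1 f2) (R' := mdR κ x f f1 f2) (φ := fun _ => ())
      (c := fun _ => Sum.inr a) (o := fun _ => some a) (fun _ _ _ => rfl) (fun _ _ _ => rfl)
      (fun _ => rfl) (fun _ _ => rfl) (fun _ _ _ => rfl) _ ?_ z
    rintro j - (i | a') h1 h2
    · cases h1
    · cases h1
      exact (h2 ⟨(), rfl⟩).elim

section Equiv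

variable {ι' κ' Cf' : Type} [Fintype ι'] [Fintype κ'] [DecidableEq κ'] [MeasurableSpace Cf']
  [Nonempty Cf'] {ν' : Measure Cf'} {x' : Cf' → ι' → ℝ}

omit [Nonempty ι] [Nonempty Cf'] [MeasurableSpace Cf'] in
theorem md_HM_equiv (E : ι ≃ ι') (G : κ ≃ κ') {φ : Cf' → Cf}
    (h : ∀ σ i, x' σ (E i) = x (φ σ) i) (s : ℝ) (y b : ℕ → ℝ) :
    HM κ' k x' f f1 f2 s y b = fun z => HM κ k x f f1 f2 s y b
      (pull φ (E.sumCongr (G.prodCongr (E.prodCongr (Equiv.refl Bool)))) z) := by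
  funext z
  simp only [HM, Rg.Hv, Rg.H]
  rw [← G.optionCongr.sum_comp]
  refine sum_congr rfl fun a _ => ?_
  rw [Rg.U_pull (R := Md κ x f f1 f2) (φ := φ) (w := wM ι κ s y b)
    (E.sumCongr (G.prodCongr (E.prodCongr (Equiv.refl Bool)))).injective G.optionCongr.injective
    ?_ ?_ ?_ a fun _ _ i _ hi => (hi (Equiv.surjective _ i)).elim]
  · rcases a with _ | a <;> rfl
  · rintro (i | ⟨a, i, c⟩) <;> rfl
  · rintro (i | ⟨a, i, _ | _⟩) σ
    exacts [h σ i, h σ i, rfl]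
  · rintro j - (i | ⟨a, i, c⟩)
    · rfl
    · simp [wM, Fintype.card_congr E]

omit [Nonempty ι] in
theorem YM_equiv (hx : Spin ν x) (hx' : Spin ν' x') (hf : Nice f f1 f2 K) (hk : 0 < k)
    (E : ι ≃ ι') (G : κ ≃ κ') {φ : Cf' → Cf} (hφ : MeasurePreserving φ ν' ν)
    (h : ∀ σ i, x' σ (E i) = x (φ σ) i) (s : ℝ) (y b : ℕ → ℝ) :
    YM κ' k ν' x' f f1 f2 s y b = YM κ k ν x f f1 f2 s y b := by
  have := hx.prob
  have := hx'.prob
  show YY k ν' (HM κ' k x' f f1 f2 s y b) = _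
  rw [md_HM_equiv E G h]
  exact YY_pull hk hφ (Equiv.injective _) (lin_HM hx hf hk s y b)

omit [Nonempty ι] in
theorem pp_equiv (hx : Spin ν x) (hx' : Spin ν' x') (hf : Nice f f1 f2 K) (hk : 0 < k)
    (E : ι ≃ ι') (G : κ ≃ κ') {φ : Cf' → Cf} (hφ : MeasurePreserving φ ν' ν)
    (h : ∀ σ i, x' σ (E i) = x (φ σ) i) (s : ℝ) (y b : ℕ → ℝ) {u : Cf × Cf → ℝ}
    (hu : Measurable u) {l : ℕ} (hl : l ≤ k) :
    ∫ p, u (φ p.1.1, φ p.2.1) ∂pp k ν' (HM κ' k x' f f1 f2 s y b) l =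
      ∫ p, u (p.1.1, p.2.1) ∂pp k ν (HM κ k x f f1 f2 s y b) l := by
  have := hx.prob
  have := hx'.prob
  rw [md_HM_equiv E G h, ← pp_pull hk hφ
    (E.sumCongr (G.prodCongr (E.prodCongr (Equiv.refl Bool)))).injective
    (lin_HM hx hf hk s y b) hl, integral_map
      ((measurable_pull hφ.measurable).prodMap (measurable_pull hφ.measurable)).aemeasurable
      (Measurable.aestronglyMeasurable (by fun_prop))]
  rfl

omit [Nonempty ι] in
theorem md_ext_ends {x' : Cf → ι' → ℝ} (hx : Spin ν x) (hx' : Spin ν x') (hf : Nice f f1 f2 K)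
    (hk : 0 < k) (w : ℕ → ι ⊕ κ × ι × Bool → ℝ) (w' : ℕ → ι' ⊕ κ × ι' × Bool → ℝ) :
    ((Md κ x f f1 f2).ext (Md κ x' f f1 f2).own (Md κ x' f f1 f2).e).Yv k ν
        (fun j => Sum.elim (w j) 0) = (Md κ x f f1 f2).Yv k ν w ∧
      ((Md κ x f f1 f2).ext (Md κ x' f f1 f2).own (Md κ x' f f1 f2).e).Yv k ν
        (fun j => Sum.elim 0 (w' j)) = (Md κ x' f f1 f2).Yv k ν w' := by
  have := hx.prob
  constructor
  · refine Eq.trans ?_ (YY_pull hk (MeasurePreserving.id ν)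
      (Sum.inl_injective (β := ι' ⊕ κ × ι' × Bool)) (Rg.lin_Hv (md_ok hx hf) hk w))
    unfold Rg.Yv
    congr 1
    funext z
    refine sum_congr rfl fun a _ => congrArg ((Md κ x f f1 f2).F a) ?_
    refine Rg.U_pull (R := Md κ x f f1 f2) (o := id) Sum.inl_injective Function.injective_id
      (fun _ => rfl) (fun _ _ => rfl) (fun _ _ _ => rfl) a ?_ z
    rintro j - (i | i) - h2
    exacts [(h2 ⟨i, rfl⟩).elim, rfl]
  · refine Eq.trans ?_ (YY_pull hk (MeasurePreserving.id ν)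
      (Sum.inr_injective (α := ι ⊕ κ × ι × Bool)) (Rg.lin_Hv (md_ok hx' hf) hk w'))
    unfold Rg.Yv
    congr 1
    funext z
    refine sum_congr rfl fun a _ => congrArg ((Md κ x f f1 f2).F a) ?_
    refine Rg.U_pull (R := Md κ x' f f1 f2) (o := id) Sum.inr_injective Function.injective_id
      (fun _ => rfl) (fun _ _ => rfl) (fun _ _ _ => rfl) a ?_ z
    rintro j - (i | i) - h2
    exacts [rfl, (h2 ⟨i, rfl⟩).elim]

/-- left end of the comparison path -/
noncomputable def mdW0 (ι ι' κ : Type) [Fintype ι] (j : ℕ) :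
    (ι ⊕ κ × ι × Bool) ⊕ (ι' ⊕ κ × ι' × Bool) → ℝ := Sum.elim (wM ι κ 1 0 0 j) 0

/-- right end of the comparison path -/
noncomputable def mdW1 (ι ι' κ : Type) [Fintype ι'] (j : ℕ) :
    (ι ⊕ κ × ι × Bool) ⊕ (ι' ⊕ κ × ι' × Bool) → ℝ := Sum.elim 0 (wM ι' κ 1 0 0 j)

omit [DecidableEq κ] [MeasurableSpace Cf] [Nonempty Cf] in
theorem md_pair2 [Nonempty ι'] {x' : Cf → ι' → ℝ} {l : ℕ} (hl : 0 < l) (σ σ' : Cf)
    (g : Option κ → ℝ) :
    ∑ i, (∑ j ∈ range l, (mdW1 ι ι' κ j i - mdW0 ι ι' κ j i)) *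
      (((Md κ x f f1 f2).ext (Md κ x' f f1 f2).own (Md κ x' f f1 f2).e).e i σ *
        ((Md κ x f f1 f2).ext (Md κ x' f f1 f2).own (Md κ x' f f1 f2).e).e i σ' *
        g (((Md κ x f f1 f2).ext (Md κ x' f f1 f2).own (Md κ x' f f1 f2).e).own i)) =
      (ov x' σ σ' - ov x σ σ') * ∑ a, g (some a) := by
  have h1 := md_pair (κ := κ) (x := x) (f := f) (f1 := f1) (f2 := f2) hl 1 0 0 σ σ' g
  have h2 := md_pair (κ := κ) (x := x') (f := f) (f1 := f1) (f2 := f2) hl 1 0 0 σ σ' g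
  rw [Fintype.sum_sum_type]
  simp only [Rg.ext, mdW0, mdW1, Sum.elim_inl, Sum.elim_inr, Pi.zero_apply, zero_sub, sub_zero,
    sum_neg_distrib, neg_mul, h1, h2, sum_const_zero]
  ring

/-- two spin maps on the same configuration space with close overlaps -/
theorem YM_cmp [Nonempty ι'] {x' : Cf → ι' → ℝ} (hx : Spin ν x) (hx' : Spin ν x')
    (hf : Nice f f1 f2 K) (hk : 0 < k) {δ : ℝ} (h : ∀ σ σ', |ov x σ σ' - ov x' σ σ'| ≤ δ) :
    |YM κ k ν x f f1 f2 1 0 0 - YM κ k ν x' f f1 f2 1 0 0| ≤ K ^ 2 * δ * Fintype.card κ := by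
  have := hx.prob
  have hδ : 0 ≤ δ := (abs_nonneg _).trans (h (Classical.arbitrary Cf) (Classical.arbitrary Cf))
  have hM' := md_ok (κ := κ) hx' hf
  obtain ⟨C, hC⟩ := hM'.be
  have hR := (md_ok (κ := κ) hx hf).ext (Md κ x' f f1 f2).own hM'.me hC
  obtain ⟨e0, e1⟩ := md_ext_ends hx hx' hf hk (wM ι κ 1 0 0) (wM ι' κ 1 0 0)
  obtain ⟨t, -, ht⟩ := Rg.GI_mvt (ν := ν) hR hk (w0 := mdW0 ι ι' κ) (w1 := mdW1 ι ι' κ)
    (by
      rintro j hj (i | i)
      exacts [md_w_nonneg zero_le_one (fun _ _ => le_rfl) (fun _ _ => le_rfl) j hj i, le_rfl])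
    (by
      rintro j hj (i | i)
      exacts [le_rfl, md_w_nonneg zero_le_one (fun _ _ => le_rfl) (fun _ _ => le_rfl) j hj i])
  rw [abs_sub_comm, YM, YM, ← e0, ← e1]
  refine le_of_eq_of_le (congrArg abs ht) ?_
  generalize (fun j i => mdW0 ι ι' κ j i + t * (mdW1 ι ι' κ j i - mdW0 ι ι' κ j i)) = w
  generalize hR2 : (Md κ x f f1 f2).ext (Md κ x' f f1 f2).own (Md κ x' f f1 f2).e = R at hR
  have d1 : ∀ z, ∑ i, (∑ j ∈ range k,
      (mdW1 ι ι' κ j i - mdW0 ι ι' κ j i)) * R.dg k w i z = 0 := by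
    intro z
    subst hR2
    simp only [md_dg]
    rw [md_pair2 hk, md_ov_self hx, md_ov_self hx', sub_self, zero_mul]
  have d2 : ∀ l ∈ range k, |∫ p, ∑ i, (∑ j ∈ range l,
      (mdW1 ι ι' κ j i - mdW0 ι ι' κ j i)) *
        (R.ψ k w i p.1 * R.ψ k w i p.2) ∂pp k ν (R.Hv k w) l| ≤ K ^ 2 * δ * Fintype.card κ := by
    intro l _
    have := pp_prob hk (Rg.lin_Hv (ν := ν) hR hk w) l
    refine md_abs_int _ fun p => ?_
    rcases Nat.eq_zero_or_pos l with rfl | hl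
    · simp only [range_zero, sum_empty, zero_mul, sum_const_zero, abs_zero]
      positivity
    subst hR2
    simp only [md_psi]
    rw [md_pair2 hl, abs_mul, abs_sub_comm]
    exact (mul_le_mul (h _ _) (md_abs_sum hf _ _) (abs_nonneg _) hδ).trans_eq (by ring)
  have d3 := (abs_sum_le_sum_abs _ _).trans (sum_le_card_nsmul _ _ _ d2)
  have hk' : (0 : ℝ) < k := Nat.cast_pos.mpr hk
  rw [card_range, nsmul_eq_mul] at d3
  unfold Rg.GI
  simp only [d1, integral_zero, mul_zero, zero_sub, abs_neg]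
  rw [abs_mul, abs_of_pos (by positivity : 0 < 1 / (2 * (k : ℝ)))]
  refine (mul_le_mul_of_nonneg_left d3 (by positivity)).trans ?_
  have : 0 ≤ K ^ 2 * δ * Fintype.card κ := by positivity
  rw [show 1 / (2 * (k : ℝ)) * (k * (K ^ 2 * δ * Fintype.card κ)) =
    K ^ 2 * δ * Fintype.card κ / 2 by field_simp]
  linarith

end Equiv

end Vale.Agent.P146M
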