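import Vale.Agent.P146M.IBP

namespace Vale.Agent.P146M

open MeasureTheory ProbabilityTheory Real Finset Filter Topology
open scoped ENNReal

/-- the overlap kernel of a family of features -/
noncomputable def Kr {S D : Type*} [Fintype D] (N : ℝ) (ψ : D → S → ℝ) (p : S × S) : ℝ :=
  (∑ d, ψ d p.1 * ψ d p.2) / N

theorem sa_cs {D : Type} [Fintype D] {a b : D → ℝ} {A : ℝ} (ha : ∑ d, a d ^ 2 ≤ A)
    (hb : ∑ d, b d ^ 2 ≤ A) : |∑ d, a d * b d| ≤ A := by
  have h : ∑ d, |a d * b d| ≤ ∑ d, (a d ^ 2 + b d ^ 2) / 2 := sum_le_sum fun d _ =>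
    abs_le.2 ⟨by nlinarith [sq_nonneg (a d + b d)], by nlinarith [sq_nonneg (a d - b d)]⟩
  rw [← sum_div, sum_add_distrib] at h
  linarith [abs_sum_le_sum_abs (fun d => a d * b d) univ]

section

variable {I Cf D : Type} [Fintype I] [DecidableEq I] [MeasurableSpace Cf] [Nonempty Cf]
  [Fintype D] {k : ℕ} {ν : Measure Cf} [IsProbabilityMeasure ν] {H g h : St I Cf → ℝ}
  {ψ : D → St I Cf → ℝ} {N K : ℝ}

/-- squared conditional mean -/
noncomputable def saρ (k : ℕ) (ν : Measure Cf) (H : St I Cf → ℝ) (N : ℝ) (ψ : D → St I Cf → ℝ)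
    (l : ℕ) (s : St I Cf) : ℝ := N⁻¹ * ∑ d, PP k ν H l (ψ d) s * PP k ν H l (ψ d) s

/-- overlap with the conditional mean -/
noncomputable def saB (k : ℕ) (ν : Measure Cf) (H : St I Cf → ℝ) (N : ℝ) (ψ : D → St I Cf → ℝ)
    (l : ℕ) (s : St I Cf) : ℝ := N⁻¹ * ∑ d, ψ d s * PP k ν H l (ψ d) s

omit [DecidableEq I] [Fintype D] in
theorem sa_sum (hk : 0 < k) (hH : (GS k I ν).Lin H) {α : Type*} (t : Finset α)
    {f : α → St I Cf → ℝ} (hf : ∀ a, (GS k I ν).Ex (f a)) :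
    ∫ s, ∑ a ∈ t, f a s ∂mm k ν H = ∑ a ∈ t, ∫ s, f a s ∂mm k ν H :=
  integral_finset_sum _ fun a _ => integrable_mm hk hH (hf a)

omit [DecidableEq I] in
theorem sa_gsum (hk : 0 < k) (hH : (GS k I ν).Lin H) (hg : (GS k I ν).Ex g)
    {f : D → St I Cf → ℝ} (hf : ∀ a, (GS k I ν).Ex (f a)) :
    ∫ s, g s * ∑ a, f a s ∂mm k ν H = ∑ a, ∫ s, g s * f a s ∂mm k ν H := by
  simp only [mul_sum]
  exact sa_sum hk hH _ fun a => hg.mul (gs_ok hk) (hf a)

omit [DecidableEq I] [Fintype D] in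
theorem sa_pp (hk : 0 < k) (hH : (GS k I ν).Lin H) (hg : (GS k I ν).Ex g)
    (hh : (GS k I ν).Ex h) {l : ℕ} (hl : l ≤ k + 1) :
    ∫ p, g p.1 * h p.2 ∂pp k ν H l = ∫ s, g s * PP k ν H l h s ∂mm k ν H := by
  rw [integral_pp_mul hk hH hg hh hl]
  simp only [mul_comm _ (PP k ν H l h _)]
  exact (integral_mul_PP hk hH (ex_PP hk hH hh l) hg hl (inv_PP hk hH l)).symm

omit [DecidableEq I] [Fintype D] in
theorem sa_cov (hk : 0 < k) (hH : (GS k I ν).Lin H) (hg : (GS k I ν).Ex g)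
    (hh : (GS k I ν).Ex h) {β : ℝ} (hβ : 0 ≤ β) (hK : ∀ s, |g s| ≤ K)
    (hv : (∫ s, h s ^ 2 ∂mm k ν H) - (∫ s, h s ∂mm k ν H) ^ 2 ≤ β ^ 2) :
    |(∫ s, h s * g s ∂mm k ν H) - (∫ s, h s ∂mm k ν H) * ∫ s, g s ∂mm k ν H| ≤ β * K := by
  have hY := gs_ok (I := I) (ν := ν) hk
  have := mm_prob hk hH
  have hK0 : 0 ≤ K := (abs_nonneg _).trans (hK (s0 I Cf))
  set a := ∫ s, h s ∂mm k ν H
  have x1 := hh.sub hY (Sys.Ex.const hY a)
  have ig := integrable_mm hk hH hg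
  have ih := integrable_mm hk hH hh
  have cs := c2_cs (integrable_mm hk hH (x1.sq hY)) (integrable_mm hk hH (hg.sq hY))
    (integrable_mm hk hH (x1.mul hY hg))
  have e1 : ∫ s, (h s - a) * g s ∂mm k ν H =
      (∫ s, h s * g s ∂mm k ν H) - a * ∫ s, g s ∂mm k ν H := by
    simp only [sub_mul]
    rw [integral_sub (integrable_mm hk hH (hh.mul hY hg)) (ig.const_mul a), integral_const_mul]
  have e2 : ∫ s, (h s - a) ^ 2 ∂mm k ν H = (∫ s, h s ^ 2 ∂mm k ν H) - a ^ 2 := by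
    have i1 : Integrable (fun s => h s ^ 2 - 2 * a * h s) (mm k ν H) :=
      (integrable_mm hk hH (hh.sq hY)).sub (ih.const_mul _)
    have e : ∀ s, (h s - a) ^ 2 = h s ^ 2 - 2 * a * h s + a ^ 2 := fun s => by ring
    simp only [e]
    rw [integral_add i1 (integrable_const _),
      integral_sub (integrable_mm hk hH (hh.sq hY)) (ih.const_mul _), integral_const_mul]
    simp only [integral_const, probReal_univ, one_smul, a]
    ring
  have e3 : ∫ s, g s ^ 2 ∂mm k ν H ≤ K ^ 2 := by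
    have := integral_mono (integrable_mm hk hH (hg.sq hY)) (integrable_const (K ^ 2))
      fun s => sq_le_sq' (abs_le.1 (hK s)).1 (abs_le.1 (hK s)).2
    simpa using this
  have e4 : 0 ≤ ∫ s, g s ^ 2 ∂mm k ν H := integral_nonneg fun s => sq_nonneg _
  rw [e1, e2] at cs
  refine abs_le_of_sq_le_sq' ?_ (by positivity) |> abs_le.2
  rw [mul_pow]
  exact cs.trans (mul_le_mul hv e3 e4 (sq_nonneg _))

variable (hk : 0 < k) (hH : (GS k I ν).Lin H) (xψ : ∀ d, (GS k I ν).Ex (ψ d))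
include hk hH xψ

omit [DecidableEq I] [Nonempty Cf] in
theorem sa_exρ (l : ℕ) : (GS k I ν).Ex (saρ k ν H N ψ l) :=
  (Sys.Ex.sum (gs_ok hk) _ fun d _ =>
    (ex_PP hk hH (xψ d) l).mul (gs_ok hk) (ex_PP hk hH (xψ d) l)).const_mul (gs_ok hk) _

omit [DecidableEq I] [Nonempty Cf] in
theorem sa_exB (l : ℕ) : (GS k I ν).Ex (saB k ν H N ψ l) :=
  (Sys.Ex.sum (gs_ok hk) _ fun d _ =>
    (xψ d).mul (gs_ok hk) (ex_PP hk hH (xψ d) l)).const_mul (gs_ok hk) _

omit [DecidableEq I] [Nonempty Cf] in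
theorem sa_m_le (b1 : ∀ s, ∑ d, ψ d s ^ 2 ≤ K * N) (l : ℕ) (s : St I Cf) :
    ∑ d, PP k ν H l (ψ d) s ^ 2 ≤ K * N := by
  have hY := gs_ok (I := I) (ν := ν) hk
  have := Sys.m_prob hY hH (k + 1 - l) l s
  have i2 := fun d => ((xψ d).sq hY).integrable_m hY hH (k + 1 - l) l s
  refine (sum_le_sum fun d _ => c2_sq_le ((xψ d).integrable_m hY hH _ _ s) (i2 d)).trans ?_
  rw [← integral_finset_sum _ fun d _ => i2 d]
  simpa using integral_mono (integrable_finset_sum _ fun d _ => i2 d) (integrable_const (K * N)) b1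

omit [DecidableEq I] [Nonempty Cf] in
theorem sa_ρ_le (hN : 0 < N) (b1 : ∀ s, ∑ d, ψ d s ^ 2 ≤ K * N) (l : ℕ) (s : St I Cf) :
    |saρ k ν H N ψ l s| ≤ K := by
  rw [saρ, abs_mul, abs_of_pos (inv_pos.2 hN), inv_mul_le_iff₀ hN, mul_comm N]
  exact sa_cs (sa_m_le hk hH xψ b1 l s) (sa_m_le hk hH xψ b1 l s)

omit [DecidableEq I] [Nonempty Cf] in
theorem sa_B_le (hN : 0 < N) (b1 : ∀ s, ∑ d, ψ d s ^ 2 ≤ K * N) (l : ℕ) (s : St I Cf) :
    |saB k ν H N ψ l s| ≤ K := by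
  rw [saB, abs_mul, abs_of_pos (inv_pos.2 hN), inv_mul_le_iff₀ hN, mul_comm N]
  exact sa_cs (b1 s) (sa_m_le hk hH xψ b1 l s)

omit [DecidableEq I] in
theorem sa_Bρ (hg : (GS k I ν).Ex g) {l : ℕ} (hl : l ≤ k + 1)
    (hi : (GS k I ν).Inv (k + 1 - l) l g) :
    ∫ s, g s * saB k ν H N ψ l s ∂mm k ν H = ∫ s, g s * saρ k ν H N ψ l s ∂mm k ν H := by
  have hY := gs_ok (I := I) (ν := ν) hk
  have x := fun d => hg.mul hY (ex_PP hk hH (xψ d) l)
  simp only [saB, saρ, mul_left_comm _ N⁻¹, integral_const_mul]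
  rw [sa_gsum hk hH hg fun d => (xψ d).mul hY (ex_PP hk hH (xψ d) l),
    sa_gsum hk hH hg fun d => (ex_PP hk hH (xψ d) l).mul hY (ex_PP hk hH (xψ d) l)]
  simp only [mul_comm (ψ _ _), ← mul_assoc (g _)]
  congr 1
  exact sum_congr rfl fun d _ => integral_mul_PP hk hH (x d) (xψ d) hl fun i h1 h2 s w => by
    simp only [hi i h1 h2, inv_PP hk hH l i h1 h2]

variable {c : D → I} {Γ : D → D → St I Cf → ℝ} {y : ℕ → ℝ}

theorem sa_ibp (hN : 0 < N) (xΓ : ∀ d d', (GS k I ν).Ex (Γ d d')) {j : ℕ} (hj : j < k)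
    (dH : ∀ d, DirD j (c d) H fun s => y j * ψ d s)
    (dψ : ∀ d d', DirD j (c d) (ψ d') fun s => y j * Γ d d' s) (hg : (GS k I ν).Ex g)
    {g' : D → St I Cf → ℝ} (hg' : ∀ d, (GS k I ν).Ex (g' d))
    (dg : ∀ d, DirD j (c d) g fun s => y j * g' d s) :
    ∫ s, (∑ d, s.2 j (c d) * ψ d s) * g s ∂mm k ν H =
      y j * ((∑ d, ∫ s, ψ d s * g' d s ∂mm k ν H) +
        (∫ s, g s * ∑ d, (Γ d d s + ψ d s * ψ d s) ∂mm k ν H) -
          N / k * ∑ l ∈ Ioo j k, ∫ s, g s * saB k ν H N ψ l s ∂mm k ν H) := by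
  have hY := gs_ok (I := I) (ν := ν) hk
  have xv := fun d => (lin_coord (ν := ν) hk hj (c d)).ex hY
  have h1 : ∀ d, ∫ s, s.2 j (c d) * (g s * ψ d s) ∂mm k ν H =
      y j * ((∫ s, ψ d s * g' d s ∂mm k ν H) +
        (∫ s, g s * (Γ d d s + ψ d s * ψ d s) ∂mm k ν H) - 1 / k * ∑ l ∈ Ioo j k,
          ∫ s, g s * (ψ d s * PP k ν H l (ψ d) s) ∂mm k ν H) := fun d => by
    have a1 := integrable_mm hk hH ((xψ d).mul hY (hg' d))
    have a2 := integrable_mm hk hH (hg.mul hY (xΓ d d))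
    have a3 := integrable_mm hk hH (hg.mul hY ((xψ d).mul hY (xψ d)))
    rw [ibp hk hj hH ((xψ d).const_mul hY _) (dH d) (hg.mul hY (xψ d))
      ((((hg' d).const_mul hY _).mul hY (xψ d)).add hY (hg.mul hY ((xΓ d d).const_mul hY _)))
      ((dg d).mul (dψ d d))]
    have e1 : ∀ s, y j * g' d s * ψ d s + g s * (y j * Γ d d s) =
        y j * (ψ d s * g' d s + g s * Γ d d s) := fun s => by ring
    have e2 : ∀ s, g s * ψ d s * (y j * ψ d s) = y j * (g s * (ψ d s * ψ d s)) := fun s => by ring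
    have e3 : ∀ l ∈ Ioo j k, ∫ p, g p.1 * ψ d p.1 * (y j * ψ d p.2) ∂pp k ν H l =
        y j * ∫ s, g s * (ψ d s * PP k ν H l (ψ d) s) ∂mm k ν H := fun l hl => by
      have := sa_pp hk hH (hg.mul hY (xψ d)) (xψ d) (l := l) (by simp at hl; omega)
      simp only [mul_left_comm _ (y j), integral_const_mul, this]
      simp only [mul_assoc]
    simp only [e1, e2, integral_const_mul, mul_add (g _)]
    rw [sum_congr rfl e3, ← mul_sum, integral_add a1 a2, integral_add a2 a3]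
    ring
  have e4 : ∀ l, ∫ s, g s * saB k ν H N ψ l s ∂mm k ν H =
      N⁻¹ * ∑ d, ∫ s, g s * (ψ d s * PP k ν H l (ψ d) s) ∂mm k ν H := fun l => by
    simp only [saB, mul_left_comm _ N⁻¹, integral_const_mul]
    rw [sa_gsum hk hH hg fun d => (xψ d).mul hY (ex_PP hk hH (xψ d) l)]
  simp only [sum_mul, mul_assoc, mul_comm (ψ _ _) (g _), e4]
  rw [sa_sum hk hH _ fun d => (xv d).mul hY (hg.mul hY (xψ d)),
    sa_gsum hk hH hg fun d => (xΓ d d).add hY ((xψ d).mul hY (xψ d)), ← mul_sum,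
    sum_comm, sum_congr rfl fun d _ => h1 d, ← mul_sum, sum_sub_distrib, sum_add_distrib,
    ← mul_sum]
  field_simp

theorem sa_key (hN : 0 < N) {ε β : ℝ} (hε : 0 < ε) (hβ : 0 ≤ β) (hy : ∀ j < k, ε ≤ y j)
    (xΓ : ∀ d d', (GS k I ν).Ex (Γ d d'))
    (dH : ∀ j < k, ∀ d, DirD j (c d) H fun s => y j * ψ d s)
    (dψ : ∀ j < k, ∀ d d', DirD j (c d) (ψ d') fun s => y j * Γ d d' s)
    (hv : ∀ j < k, (∫ s, (∑ d, s.2 j (c d) * ψ d s) ^ 2 ∂mm k ν H) -
      (∫ s, ∑ d, s.2 j (c d) * ψ d s ∂mm k ν H) ^ 2 ≤ β ^ 2) {l : ℕ} (hl : l + 1 < k)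
    (hg : (GS k I ν).Ex g) (hK : ∀ s, |g s| ≤ K) {g0 g1 : D → St I Cf → ℝ}
    (x0 : ∀ d, (GS k I ν).Ex (g0 d)) (x1 : ∀ d, (GS k I ν).Ex (g1 d))
    (d0 : ∀ d, DirD l (c d) g fun s => y l * g0 d s)
    (d1 : ∀ d, DirD (l + 1) (c d) g fun s => y (l + 1) * g1 d s) :
    |N⁻¹ * ((∑ d, ∫ s, ψ d s * g0 d s ∂mm k ν H) - ∑ d, ∫ s, ψ d s * g1 d s ∂mm k ν H) -
      1 / k * ((∫ s, g s * saB k ν H N ψ (l + 1) s ∂mm k ν H) -
        (∫ s, g s ∂mm k ν H) * ∫ s, saB k ν H N ψ (l + 1) s ∂mm k ν H)| ≤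
      2 * β * K / (ε * N) := by
  have hY := gs_ok (I := I) (ν := ν) hk
  have hK0 : 0 ≤ K := (abs_nonneg _).trans (hK (s0 I Cf))
  have A : ∀ j < k, ∀ g' : D → St I Cf → ℝ, (∀ d, (GS k I ν).Ex (g' d)) →
      (∀ d, DirD j (c d) g fun s => y j * g' d s) →
      |(∑ d, ∫ s, ψ d s * g' d s ∂mm k ν H) +
        ((∫ s, g s * ∑ d, (Γ d d s + ψ d s * ψ d s) ∂mm k ν H) -
          (∫ s, ∑ d, (Γ d d s + ψ d s * ψ d s) ∂mm k ν H) * ∫ s, g s ∂mm k ν H) -
        N / k * ((∑ l ∈ Ioo j k, ∫ s, g s * saB k ν H N ψ l s ∂mm k ν H) -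
          (∑ l ∈ Ioo j k, ∫ s, saB k ν H N ψ l s ∂mm k ν H) * ∫ s, g s ∂mm k ν H)| ≤
        β * K / ε := fun j hj g' xg dg => by
    have h1 := sa_ibp hk hH xψ hN xΓ hj (dH j hj) (dψ j hj) hg xg dg
    have h2 := sa_ibp hk hH xψ hN xΓ hj (dH j hj) (dψ j hj) (Sys.Ex.const hY 1)
      (g' := fun _ _ => 0) (fun _ => Sys.Ex.const hY 0)
      fun d => (DirD.const 1).congr (fun _ => rfl) fun _ => mul_zero _
    simp only [mul_one, one_mul, mul_zero, integral_zero, sum_const_zero, zero_add] at h2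
    have h3 := sa_cov hk hH hg (Sys.Ex.sum hY univ fun d _ =>
      ((lin_coord hk hj (c d)).ex hY).mul hY (xψ d)) hβ hK (hv j hj)
    rw [h1, h2, mul_assoc, ← mul_sub, abs_mul, abs_of_pos (hε.trans_le (hy j hj))] at h3
    rw [le_div_iff₀ hε, mul_comm]
    refine le_trans (mul_le_mul (hy j hj) (le_of_eq ?_) (abs_nonneg _)
      (hε.le.trans (hy j hj))) h3
    congr 1
    ring
  have A0 := A l (by omega) g0 x0 d0
  have A1 := A (l + 1) hl g1 x1 d1
  rw [show Ioo l k = insert (l + 1) (Ioo (l + 1) k) by ext; simp; omega, sum_insert (by simp),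
    sum_insert (by simp)] at A0
  have hk' : (0 : ℝ) < k := by exact_mod_cast hk
  rw [show 2 * β * K / (ε * N) = N⁻¹ * (β * K / ε + β * K / ε) by field_simp; ring]
  refine le_trans (le_of_eq ?_) (mul_le_mul_of_nonneg_left ((abs_sub _ _).trans
    (add_le_add A0 A1)) (inv_pos.2 hN).le)
  rw [← abs_of_pos (inv_pos.2 hN), ← abs_mul, abs_of_pos (inv_pos.2 hN)]
  congr 1
  field_simp
  ring

omit [DecidableEq I] in
theorem sa_mono (hN : 0 < N) (hg : (GS k I ν).Ex g) (hg0 : ∀ s, 0 ≤ g s) {l : ℕ} (hl : l ≤ k)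
    (hi : (GS k I ν).Inv (k + 1 - l) l g) :
    ∫ s, g s * saρ k ν H N ψ l s ∂mm k ν H ≤ ∫ s, g s * saρ k ν H N ψ (l + 1) s ∂mm k ν H := by
  have hY := gs_ok (I := I) (ν := ν) hk
  have x := fun d l => ex_PP hk hH (xψ d) l
  simp only [saρ, mul_left_comm _ N⁻¹, integral_const_mul]
  rw [sa_gsum hk hH hg fun d => (x d l).mul hY (x d l),
    sa_gsum hk hH hg fun d => (x d (l + 1)).mul hY (x d (l + 1))]
  refine mul_le_mul_of_nonneg_left (sum_le_sum fun d _ => ?_) (inv_pos.2 hN).le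
  have h1 := integral_mul_PP hk hH (hg.mul hY (x d l)) (x d (l + 1)) (l := l) (by omega)
    fun i h1 h2 s w => by simp only [hi i h1 h2, inv_PP hk hH l i h1 h2]
  rw [PP_PP hk hH (xψ d) (Nat.le_succ l) (by omega)] at h1
  have i1 := integrable_mm hk hH ((hg.mul hY (x d l)).mul hY (x d (l + 1)))
  have i2 := integrable_mm hk hH ((hg.mul hY (x d l)).mul hY (x d l))
  have h2 := integral_mono ((i1.const_mul 2).sub i2)
    (integrable_mm hk hH (hg.mul hY ((x d (l + 1)).mul hY (x d (l + 1))))) fun s => by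
      simp only [Pi.sub_apply]
      nlinarith [mul_nonneg (hg0 s) (sq_nonneg (PP k ν H (l + 1) (ψ d) s - PP k ν H l (ψ d) s))]
  simp only [Pi.sub_apply] at h2
  rw [integral_sub (i1.const_mul 2) i2, integral_const_mul, h1] at h2
  simp only [mul_assoc] at h2
  linarith

omit [DecidableEq I] in
theorem sa_Kr {l : ℕ} (hl : l ≤ k + 1) :
    ∫ p, Kr N ψ p ∂pp k ν H l = ∫ s, saρ k ν H N ψ l s ∂mm k ν H := by
  have hY := gs_ok (I := I) (ν := ν) hk
  simp only [Kr, saρ, div_eq_inv_mul, integral_const_mul]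
  rw [sa_sum hk hH _ fun d => (ex_PP hk hH (xψ d) l).mul hY (ex_PP hk hH (xψ d) l),
    integral_finset_sum _ fun d _ =>
      integrable_pp hk hH (((xψ d).fst hY).mul hY ((xψ d).snd hY)) l]
  simp only [integral_pp_mul hk hH (xψ _) (xψ _) hl]

omit [DecidableEq I] in
theorem sa_Kr2 {l : ℕ} (hl : l ≤ k + 1) : ∫ p, Kr N ψ p ^ 2 ∂pp k ν H l =
    N⁻¹ ^ 2 * ∑ d, ∑ d', ∫ s, PP k ν H l (fun s => ψ d s * ψ d' s) s *
      PP k ν H l (fun s => ψ d s * ψ d' s) s ∂mm k ν H := by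
  have hY := gs_ok (I := I) (ν := ν) hk
  have x := fun d d' => (xψ d).mul hY (xψ d')
  have i := fun d d' => integrable_pp hk hH (((x d d').fst hY).mul hY ((x d d').snd hY)) l
  have e : ∀ p, Kr N ψ p ^ 2 =
      N⁻¹ ^ 2 * ∑ d, ∑ d', ψ d p.1 * ψ d' p.1 * (ψ d p.2 * ψ d' p.2) := fun p => by
    rw [Kr, div_eq_inv_mul, mul_pow, sq (∑ _, _), sum_mul_sum]
    simp only [mul_mul_mul_comm (ψ _ p.1) (ψ _ p.2)]
  simp only [e, integral_const_mul]
  rw [integral_finset_sum _ fun d _ => integrable_finset_sum _ fun d' _ => i d d']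
  congr 1
  refine sum_congr rfl fun d _ => ?_
  rw [integral_finset_sum _ fun d' _ => i d d']
  exact sum_congr rfl fun d' _ => integral_pp_mul hk hH (x d d') (x d d') hl

omit [DecidableEq I] in
theorem sa_sum2 {f : D → D → St I Cf → ℝ} (hf : ∀ d d', (GS k I ν).Ex (f d d')) :
    ∫ s, ∑ d, ∑ d', f d d' s ∂mm k ν H = ∑ d, ∑ d', ∫ s, f d d' s ∂mm k ν H := by
  rw [sa_sum hk hH _ fun d => Sys.Ex.sum (gs_ok hk) _ fun d' _ => hf d d']
  exact sum_congr rfl fun d _ => sa_sum hk hH _ (hf d)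

omit [DecidableEq I] in
theorem sa_b {l : ℕ} (hl : l ≤ k + 1) :
    2 * ∫ s, saB k ν H N ψ l s * saB k ν H N ψ l s ∂mm k ν H ≤ (∫ p, Kr N ψ p ^ 2 ∂pp k ν H l) +
      ∫ s, saρ k ν H N ψ l s * saρ k ν H N ψ l s ∂mm k ν H := by
  have hY := gs_ok (I := I) (ν := ν) hk
  have x := fun d d' => (xψ d).mul hY (xψ d')
  have xC := fun d d' => ex_PP hk hH (x d d') l
  have xm := fun d d' => (ex_PP hk hH (xψ d) l).mul hY (ex_PP hk hH (xψ d') l)
  have e1 : ∀ s, saB k ν H N ψ l s * saB k ν H N ψ l s = N⁻¹ ^ 2 * ∑ d, ∑ d',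
      PP k ν H l (ψ d) s * PP k ν H l (ψ d') s * (ψ d s * ψ d' s) := fun s => by
    rw [saB, mul_mul_mul_comm, sum_mul_sum, ← sq]
    congr 1
    exact sum_congr rfl fun d _ => sum_congr rfl fun d' _ => by ring
  have e2 : ∀ s, saρ k ν H N ψ l s * saρ k ν H N ψ l s = N⁻¹ ^ 2 * ∑ d, ∑ d',
      PP k ν H l (ψ d) s * PP k ν H l (ψ d') s * (PP k ν H l (ψ d) s * PP k ν H l (ψ d') s) :=
    fun s => by
      rw [saρ, mul_mul_mul_comm, sum_mul_sum, ← sq]
      congr 1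
      exact sum_congr rfl fun d _ => sum_congr rfl fun d' _ => by ring
  simp only [e1, e2, integral_const_mul]
  rw [sa_Kr2 hk hH xψ hl, sa_sum2 hk hH xψ fun d d' => (xm d d').mul hY (x d d'),
    sa_sum2 hk hH xψ fun d d' => (xm d d').mul hY (xm d d'), ← mul_add, mul_left_comm,
    ← sum_add_distrib, mul_sum (a := 2)]
  refine mul_le_mul_of_nonneg_left (sum_le_sum fun d _ => ?_) (sq_nonneg _)
  rw [← sum_add_distrib, mul_sum]
  refine sum_le_sum fun d' _ => ?_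
  rw [integral_mul_PP hk hH (xm d d') (x d d') hl fun i h1 h2 s w => by
    simp only [inv_PP hk hH l i h1 h2], ← integral_const_mul,
    ← integral_add (integrable_mm hk hH ((xC d d').mul hY (xC d d')))
      (integrable_mm hk hH ((xm d d').mul hY (xm d d')))]
  refine integral_mono ((integrable_mm hk hH ((xm d d').mul hY (xC d d'))).const_mul 2)
    ((integrable_mm hk hH ((xC d d').mul hY (xC d d'))).add
      (integrable_mm hk hH ((xm d d').mul hY (xm d d')))) fun s => ?_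
  simp only
  nlinarith [sq_nonneg (PP k ν H l (ψ d) s * PP k ν H l (ψ d') s -
    PP k ν H l (fun s => ψ d s * ψ d' s) s)]

omit [DecidableEq I] [Nonempty Cf] in
theorem sa_pt (xΓ : ∀ d d', (GS k I ν).Ex (Γ d d'))
    (b2 : ∀ s s', |∑ d, ∑ d', ψ d s * ψ d' s * Γ d d' s'| ≤ K * N) {l : ℕ} (hl : l < k)
    (s : St I Cf) : -(K * N) + ((l : ℝ) + 1) / k *
      ((∑ d, ∑ d', ψ d s * ψ d' s * PP k ν H l (fun s => ψ d s * ψ d' s) s) -
        (∑ d, ψ d s * PP k ν H l (ψ d) s) ^ 2) ≤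
      ∑ d, ∑ d', ψ d s * ψ d' s * (PP k ν H l (Γ d d') s + DD k ν H l (ψ d') (ψ d) s) := by
  have hY := gs_ok (I := I) (ν := ν) hk
  have hk' : (0 : ℝ) < k := by exact_mod_cast hk
  have P2 : ∀ f : D → D → St I Cf → ℝ, (∀ d d', (GS k I ν).Ex (f d d')) →
      PP k ν H l (fun s' => ∑ d, ∑ d', ψ d s * ψ d' s * f d d' s') s =
        ∑ d, ∑ d', ψ d s * ψ d' s * PP k ν H l (f d d') s := fun f hf => by
    have := Sys.P_sum hY hH (univ : Finset (D × D)) (fun p => ψ p.1 s * ψ p.2 s)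
      (g := fun p => f p.1 p.2) (fun p _ => hf _ _) (k + 1 - l) l s
    simp only [Fintype.sum_prod_type] at this
    exact this
  have h1 := abs_PP_le hk hH (b2 s) l s
  rw [P2 Γ xΓ] at h1
  have xc : (GS k I ν).Ex fun s' => ∑ d, ψ d s * ψ d s' :=
    Sys.Ex.sum hY _ fun d _ => (xψ d).const_mul hY _
  have h2 := Sys.var_le_D hY hH xc (k + 1 - l) l (((l : ℝ) + 1) / k) (fun i hi _ =>
    le_min (by rw [div_le_one hk']; exact_mod_cast hl)
      (div_le_div_of_nonneg_right (by exact_mod_cast Nat.succ_le_succ hi) hk'.le)) s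
  have e1 : (fun s' => (∑ d, ψ d s * ψ d s') ^ 2) =
      fun s' => ∑ d, ∑ d', ψ d s * ψ d' s * (ψ d s' * ψ d' s') := funext fun s' => by
    rw [sq, sum_mul_sum]
    simp only [mul_mul_mul_comm (ψ _ s) (ψ _ s')]
  have e2 := P2 _ fun d d' => (xψ d).mul hY (xψ d')
  rw [PP] at e2
  rw [e1, e2, Sys.P_sum hY hH _ _ fun d _ => xψ d, Sys.D_sum_left hY hH xc _ _ fun d _ => xψ d]
    at h2
  have e3 : ∀ d, (GS k I ν).D (k + 1 - l) l H (ψ d) (fun s' => ∑ d, ψ d s * ψ d s') s =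
      ∑ d', ψ d' s * DD k ν H l (ψ d') (ψ d) s := fun d => by
    rw [Sys.D_comm, Sys.D_sum_left hY hH (xψ d) _ _ fun d _ => xψ d]
    rfl
  simp only [e3] at h2
  simp only [mul_add, sum_add_distrib]
  refine add_le_add (abs_le.1 h1).1 (h2.trans (le_of_eq ?_))
  simp only [mul_sum, mul_assoc]

end

theorem syncA {I Cf D : Type} [Fintype I] [DecidableEq I] [MeasurableSpace Cf] [Nonempty Cf]
    [Fintype D] {k : ℕ} (hk : 0 < k) {ν : Measure Cf} [IsProbabilityMeasure ν]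
    {H : St I Cf → ℝ} (hH : (GS k I ν).Lin H) (c : D → I) (ψ : D → St I Cf → ℝ)
    (Γ : D → D → St I Cf → ℝ) (y : ℕ → ℝ) {N K ε β : ℝ} (hN : 0 < N) (hK : 0 ≤ K) (hε : 0 < ε)
    (hβ : 0 ≤ β) (hy : ∀ j < k, ε ≤ y j) (mψ : ∀ d, Measurable (ψ d))
    (xΓ : ∀ d d', (GS k I ν).Ex (Γ d d'))
    (dH : ∀ j < k, ∀ d, DirD j (c d) H fun s => y j * ψ d s)
    (dψ : ∀ j < k, ∀ d d', DirD j (c d) (ψ d') fun s => y j * Γ d d' s)
    (b1 : ∀ s, ∑ d, ψ d s ^ 2 ≤ K * N)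
    (b2 : ∀ s s', |∑ d, ∑ d', ψ d s * ψ d' s * Γ d d' s'| ≤ K * N)
    (hv : ∀ j < k, (∫ s, (∑ d, s.2 j (c d) * ψ d s) ^ 2 ∂mm k ν H) -
      (∫ s, ∑ d, s.2 j (c d) * ψ d s ∂mm k ν H) ^ 2 ≤ β ^ 2) :
    (1 / (k : ℝ)) * ∑ l ∈ range k,
      ∫ p, (Kr N ψ p - ∫ p, Kr N ψ p ∂pp k ν H l) ^ 2 ∂pp k ν H l ≤
        7 * K ^ 2 / k + 5 * k * (K / N + 2 * β * K / (ε * N)) := by
  have hY := gs_ok (I := I) (ν := ν) hk
  have hk' : (0 : ℝ) < k := by exact_mod_cast hk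
  have := mm_prob hk hH
  have xψ : ∀ d, (GS k I ν).Ex (ψ d) := fun d => Sys.Ex.of_bdd hY (mψ d) √(K * N) fun s =>
    abs_le_sqrt ((single_le_sum (f := fun d => ψ d s ^ 2) (fun _ _ => sq_nonneg _)
      (mem_univ d)).trans (b1 s))
  have xm := fun l d => ex_PP hk hH (xψ d) l
  have xρ := sa_exρ (N := N) hk hH xψ
  have xB := sa_exB (N := N) hk hH xψ
  have bρ := sa_ρ_le hk hH xψ hN b1
  set err := 2 * β * K / (ε * N) with herr
  have err0 : 0 ≤ err := by positivity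
  set q : ℕ → ℝ := fun l => ∫ s, saρ k ν H N ψ l s ∂mm k ν H with hq
  set r : ℕ → ℝ := fun l => ∫ s, saρ k ν H N ψ l s * saρ k ν H N ψ l s ∂mm k ν H with hr
  have ρ0 : ∀ l s, 0 ≤ saρ k ν H N ψ l s := fun l s =>
    mul_nonneg (inv_pos.2 hN).le (sum_nonneg fun _ _ => mul_self_nonneg _)
  have iρ : ∀ l l', l ≤ l' → l' ≤ k + 1 → (GS k I ν).Inv (k + 1 - l') l' (saρ k ν H N ψ l) :=
    fun l l' h1 h2 i h3 h4 s w => by
      simp only [saρ, inv_PP hk hH l i (by omega) (by omega)]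
  have q0 : ∀ l, 0 ≤ q l := fun l => integral_nonneg (ρ0 l)
  have qK : ∀ l, q l ≤ K := fun l => by
    simpa using integral_mono (integrable_mm hk hH (xρ l)) (integrable_const K)
      fun s => (abs_le.1 (bρ l s)).2
  have rK : ∀ l, r l ≤ K ^ 2 := fun l => by
    simpa using integral_mono (integrable_mm hk hH ((xρ l).mul hY (xρ l)))
      (integrable_const (K ^ 2)) fun s => by
        simp only
        nlinarith [(abs_le.1 (bρ l s)).2, ρ0 l s]
  have qr : ∀ l, q l ^ 2 ≤ r l := fun l => by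
    simpa only [sq] using c2_sq_le (integrable_mm hk hH (xρ l))
      (integrable_mm hk hH ((xρ l).sq hY))
  have qm : ∀ l ≤ k, q l ≤ q (l + 1) := fun l hl => by
    simpa only [one_mul] using sa_mono hk hH xψ hN (Sys.Ex.const hY 1) (fun _ => zero_le_one) hl
      fun _ _ _ _ _ => rfl
  have qB : ∀ l ≤ k + 1, ∫ s, saB k ν H N ψ l s ∂mm k ν H = q l := fun l hl => by
    simpa only [one_mul] using sa_Bρ (N := N) hk hH xψ (Sys.Ex.const hY 1) hl fun _ _ _ _ _ => rfl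
  have V1 : ∀ l, l + 1 < k → r l - q l ^ 2 ≤ k * err + K * (q (l + 1) - q l) := fun l hl => by
    have h1 := sa_key hk hH xψ hN hε hβ hy xΓ dH dψ hv hl (xρ l) (bρ l) (g0 := fun _ _ => 0)
      (g1 := fun _ _ => 0) (fun _ => Sys.Ex.const hY 0) (fun _ => Sys.Ex.const hY 0)
      (fun d => (dirD_of_inv (by omega) le_rfl (iρ l l le_rfl (by omega))).congr (fun _ => rfl)
        fun _ => mul_zero _)
      (fun d => (dirD_of_inv hl le_rfl (iρ l (l + 1) (by omega) (by omega))).congr (fun _ => rfl)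
        fun _ => mul_zero _)
    rw [sub_self, mul_zero, zero_sub, abs_neg, qB _ (by omega),
      sa_Bρ hk hH xψ (xρ l) (by omega) (iρ l (l + 1) (by omega) (by omega)), one_div,
      ← herr] at h1
    have h2 := (inv_mul_le_iff₀ hk').1 (abs_le.1 h1).2
    have h3 := sa_mono hk hH xψ hN (xρ l) (ρ0 l) (by omega) (iρ l l le_rfl (by omega))
    have h4 := mul_le_mul_of_nonneg_right (qK l) (sub_nonneg.2 (qm l (by omega)))
    simp only [hr, hq] at h4 ⊢
    nlinarith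
  have V0 : ∀ l ≤ k, ∫ p, (Kr N ψ p - ∫ p, Kr N ψ p ∂pp k ν H l) ^ 2 ∂pp k ν H l =
      (∫ p, Kr N ψ p ^ 2 ∂pp k ν H l) - q l ^ 2 := fun l hl => by
    have := pp_prob hk hH l
    have x1 : (GS k I ν).Ex2 (Kr N ψ) := by
      have := (Sys.Ex2.sum hY univ fun d _ =>
        ((xψ d).fst hY).mul hY ((xψ d).snd hY)).const_mul hY N⁻¹
      simp only [← div_eq_inv_mul] at this
      exact this
    have i1 := integrable_pp hk hH x1 l
    have i2 : Integrable (fun p => Kr N ψ p ^ 2) (pp k ν H l) := by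
      simpa only [sq] using integrable_pp hk hH (x1.mul hY x1) l
    have i3 : Integrable (fun p => Kr N ψ p ^ 2 - 2 * q l * Kr N ψ p) (pp k ν H l) :=
      i2.sub (i1.const_mul _)
    have e0 := sa_Kr (N := N) hk hH xψ (l := l) (by omega)
    have e : ∀ p, (Kr N ψ p - q l) ^ 2 = Kr N ψ p ^ 2 - 2 * q l * Kr N ψ p + q l ^ 2 :=
      fun p => by ring
    change _ = q l at e0
    rw [e0]
    simp only [e]
    rw [integral_add i3 (integrable_const _), integral_sub i2 (i1.const_mul _), integral_const_mul,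
      e0]
    simp only [integral_const, probReal_univ, one_smul]
    ring
  have V2 : ∀ l, l + 1 < k → (∫ p, Kr N ψ p ^ 2 ∂pp k ν H (l + 1)) - q (l + 1) ^ 2 ≤
      3 * (r (l + 1) - q (l + 1) ^ 2) + 2 * k * (K / N + err) := fun l hl => by
    have x0 := fun d d' => (ex_PP hk hH (xΓ d d') (l + 1)).add hY
      (ex_DD hk hH (xψ d') (xψ d) (l + 1))
    have x1 : ∀ d, (GS k I ν).Ex fun s => N⁻¹ * ∑ d', Γ d d' s * PP k ν H (l + 1) (ψ d') s :=
      fun d => (Sys.Ex.sum hY _ fun d' _ => (xΓ d d').mul hY (xm _ d')).const_mul hY _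
    have x2 : ∀ d, (GS k I ν).Ex fun s => N⁻¹ * ∑ d', ψ d' s *
        (PP k ν H (l + 1) (Γ d d') s + DD k ν H (l + 1) (ψ d') (ψ d) s) :=
      fun d => (Sys.Ex.sum hY _ fun d' _ => (xψ d').mul hY (x0 d d')).const_mul hY _
    have h1 := sa_key hk hH xψ hN hε hβ hy xΓ dH dψ hv hl (xB (l + 1))
      (sa_B_le hk hH xψ hN b1 (l + 1)) (fun d => (x1 d).add hY (x2 d)) x1
      (fun d => ((DirD.sum univ fun d' _ => (dψ l (by omega) d d').mul
        (dirD_PP hk (by omega) hH ((xψ d).const_mul hY _) (dH l (by omega) d) (xψ d')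
          ((xΓ d d').const_mul hY _) (dψ l (by omega) d d') (Nat.lt_succ_self l)
          (by omega))).const_mul N⁻¹).congr (fun _ => rfl) fun s => by
        rw [← mul_add, mul_left_comm, ← sum_add_distrib, mul_sum (a := y l)]
        congr 1
        refine sum_congr rfl fun d' _ => ?_
        have a1 := Sys.P_pull hY hH (n := k + 1 - (l + 1)) (j := l + 1) (g := fun _ => y l)
          measurable_const (fun _ _ _ _ _ => rfl) (Γ d d') s
        have a2 := Sys.D_pull hY hH (n := k + 1 - (l + 1)) (j := l + 1) (Sys.Ex.const hY (y l))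
          (fun _ _ _ _ _ => rfl) (xψ d) (xψ d') s
        rw [Sys.D_comm, Sys.D_comm (g := ψ d)] at a2
        simp only [PP, DD, Nat.succ_eq_add_one]
        rw [a1, a2]
        ring)
      (fun d => ((DirD.sum univ fun d' _ => (dψ (l + 1) hl d d').mul
        (dirD_of_inv hl le_rfl (inv_PP hk hH (l + 1)))).const_mul N⁻¹).congr (fun _ => rfl)
          fun s => by
            rw [mul_left_comm, mul_sum (a := y (l + 1))]
            simp only [mul_zero, add_zero, mul_assoc])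
    have e1 : (∑ d, ∫ s, ψ d s * (N⁻¹ * ∑ d', Γ d d' s * PP k ν H (l + 1) (ψ d') s +
        N⁻¹ * ∑ d', ψ d' s * (PP k ν H (l + 1) (Γ d d') s + DD k ν H (l + 1) (ψ d') (ψ d) s))
          ∂mm k ν H) - ∑ d, ∫ s, ψ d s * (N⁻¹ * ∑ d', Γ d d' s * PP k ν H (l + 1) (ψ d') s)
          ∂mm k ν H = N⁻¹ * ∫ s, ∑ d, ∑ d', ψ d s * ψ d' s *
            (PP k ν H (l + 1) (Γ d d') s + DD k ν H (l + 1) (ψ d') (ψ d) s) ∂mm k ν H := by
      rw [← sum_sub_distrib, sa_sum hk hH _ fun d => Sys.Ex.sum hY _ fun d' _ =>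
        ((xψ d).mul hY (xψ d')).mul hY (x0 d d'), mul_sum]
      refine sum_congr rfl fun d _ => ?_
      rw [← integral_sub (integrable_mm hk hH ((xψ d).mul hY ((x1 d).add hY (x2 d))))
        (integrable_mm hk hH ((xψ d).mul hY (x1 d))), ← integral_const_mul]
      refine integral_congr_ae (ae_of_all _ fun s => ?_)
      simp only [mul_assoc, ← mul_sum]
      ring
    have xx := fun d d' => (xψ d).mul hY (xψ d')
    have xC := fun d d' => (xx d d').mul hY (ex_PP hk hH (xx d d') (l + 1))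
    have i1 := integrable_mm hk hH (Sys.Ex.sum hY univ fun d _ => Sys.Ex.sum hY univ
      fun d' _ => xC d d')
    have i2 := integrable_mm hk hH ((Sys.Ex.sum hY univ fun d _ =>
      (xψ d).mul hY (xm (l + 1) d)).sq hY)
    have i3 := (i1.sub i2).const_mul ((((l + 1 : ℕ) : ℝ) + 1) / k)
    have h2 := integral_mono ((integrable_const (-(K * N))).add i3) (integrable_mm hk hH
      (Sys.Ex.sum hY univ fun d _ => Sys.Ex.sum hY univ fun d' _ => (xx d d').mul hY (x0 d d')))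
      (sa_pt hk hH xψ xΓ b2 hl)
    simp only [Pi.add_apply, Pi.sub_apply] at h2 i3
    rw [integral_add (integrable_const _) i3, integral_const_mul, integral_sub i1 i2,
      sa_sum2 hk hH xψ xC] at h2
    have e2 : ∀ d d', ∫ s, ψ d s * ψ d' s * PP k ν H (l + 1) (fun s => ψ d s * ψ d' s) s
        ∂mm k ν H = ∫ s, PP k ν H (l + 1) (fun s => ψ d s * ψ d' s) s *
          PP k ν H (l + 1) (fun s => ψ d s * ψ d' s) s ∂mm k ν H := fun d d' => by
      rw [← sa_pp hk hH (xx d d') (xx d d') (by omega),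
        integral_pp_mul hk hH (xx d d') (xx d d') (by omega)]
    have e3 : ∫ s, saB k ν H N ψ (l + 1) s * saB k ν H N ψ (l + 1) s ∂mm k ν H =
        N⁻¹ ^ 2 * ∫ s, (∑ d, ψ d s * PP k ν H (l + 1) (ψ d) s) ^ 2 ∂mm k ν H := by
      rw [← integral_const_mul]
      exact integral_congr_ae (ae_of_all _ fun s => by simp only [saB]; ring)
    have h3 := sa_b (N := N) hk hH xψ (l := l + 1) (by omega)
    have h4 := sa_Kr2 (N := N) hk hH xψ (l := l + 1) (by omega)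
    simp only [e2, integral_const, probReal_univ, one_smul] at h2
    rw [e1, qB _ (by omega), ← herr] at h1
    have h5 := mul_le_mul_of_nonneg_left h2 (sq_nonneg N⁻¹)
    rw [mul_add, mul_left_comm _ (_ / _), mul_sub, ← h4, ← e3,
      show N⁻¹ ^ 2 * -(K * N) = -(K / N) by field_simp] at h5
    have h6 := (abs_le.1 h1).2
    rw [← mul_assoc, ← sq] at h6
    set a := ∫ p, Kr N ψ p ^ 2 ∂pp k ν H (l + 1)
    set b := ∫ s, saB k ν H N ψ (l + 1) s * saB k ν H N ψ (l + 1) s ∂mm k ν H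
    have h7 : ((l : ℝ) + 2) * (a - b) ≤ b - q (l + 1) ^ 2 + k * (K / N + err) := by
      have h8 : (((l + 1 : ℕ) : ℝ) + 1) / k * (a - b) ≤
          1 / k * (b - q (l + 1) * q (l + 1)) + (K / N + err) := by linarith
      have h9 := mul_le_mul_of_nonneg_left h8 hk'.le
      rw [mul_add, ← mul_assoc, ← mul_assoc, mul_div_cancel₀ _ hk'.ne',
        mul_div_cancel₀ _ hk'.ne'] at h9
      push_cast at h9
      linarith
    have h8 : 2 * b ≤ a + r (l + 1) := h3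
    have h9 : 0 ≤ (k : ℝ) * (K / N + err) := by positivity
    have h10 := qr (l + 1)
    have h11 : (0 : ℝ) ≤ l := Nat.cast_nonneg l
    rcases le_total 0 (a - b) with h | h
    · nlinarith [mul_nonneg h11 h]
    · nlinarith
  obtain ⟨n, rfl⟩ : ∃ n, k = n + 1 := ⟨k - 1, by omega⟩
  have S1 : ∑ l ∈ range n, (r (l + 1) - q (l + 1) ^ 2) ≤ (n + 1 : ℕ) ^ 2 * err + 2 * K ^ 2 := by
    rcases n with _ | n
    · simp only [range_zero, sum_empty]; positivity
    rw [sum_range_succ]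
    have a1 : ∑ l ∈ range n, (r (l + 1) - q (l + 1) ^ 2) ≤
        ∑ l ∈ range n, ((n + 1 + 1 : ℕ) * err + K * (q (l + 1 + 1) - q (l + 1))) :=
      sum_le_sum fun l hl => V1 (l + 1) (by simp at hl; omega)
    rw [sum_add_distrib, sum_const, ← mul_sum, sum_range_sub (fun l => q (l + 1)), card_range,
      nsmul_eq_mul] at a1
    have a2 := mul_le_mul_of_nonneg_left (qK (n + 1)) hK
    have a3 := mul_nonneg hK (q0 (0 + 1))
    have a4 : (0 : ℝ) ≤ n := Nat.cast_nonneg n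
    push_cast at a1 ⊢
    nlinarith [rK (n + 1), sq_nonneg (q (n + 1)), mul_nonneg a4 err0]
  have S0 : ∫ p, Kr N ψ p ^ 2 ∂pp (n + 1) ν H 0 ≤ K ^ 2 := by
    have := pp_prob hk hH 0
    refine (le_abs_self _).trans ?_
    have h := norm_integral_le_of_norm_le_const (μ := pp (n + 1) ν H 0) (C := K ^ 2)
      (f := fun p => Kr N ψ p ^ 2) (ae_of_all _ fun p => by
        rw [Real.norm_eq_abs, abs_pow]
        refine pow_le_pow_left₀ (abs_nonneg _) ?_ 2
        rw [Kr, abs_div, abs_of_pos hN, div_le_iff₀ hN]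
        exact sa_cs (b1 _) (b1 _))
    rwa [probReal_univ, mul_one] at h
  have S2 : ∑ l ∈ range n, ((∫ p, Kr N ψ p ^ 2 ∂pp (n + 1) ν H (l + 1)) - q (l + 1) ^ 2) ≤
      ∑ l ∈ range n, (3 * (r (l + 1) - q (l + 1) ^ 2) + 2 * (n + 1 : ℕ) * (K / N + err)) :=
    sum_le_sum fun l hl => V2 l (by simp at hl; omega)
  rw [sum_add_distrib, ← mul_sum, sum_const, card_range, nsmul_eq_mul] at S2
  rw [sum_congr rfl fun l hl => V0 l (mem_range.1 hl).le, sum_range_succ', one_div,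
    inv_mul_le_iff₀ hk', mul_add, mul_div_cancel₀ _ hk'.ne']
  have a5 : 0 ≤ K / N := by positivity
  have a4 : (0 : ℝ) ≤ n := Nat.cast_nonneg n
  push_cast at S1 S2 ⊢
  nlinarith [sq_nonneg (q 0), mul_nonneg a4 err0, mul_nonneg a4 a5,
    mul_nonneg (mul_nonneg a4 a4) a5]

end Vale.Agent.P146M
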