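import Vale.Agent.P146M.SyncA
import Vale.Agent.P146M.GI

namespace Vale.Agent.P146M

open MeasureTheory ProbabilityTheory Real Finset Filter Topology
open scoped ENNReal

theorem sb_second {φ φ1 : ℝ → ℝ} {L : ℝ} (hm : IsLocalMax φ 0)
    (h1 : ∀ᶠ t in 𝓝 (0 : ℝ), HasDerivAt φ (φ1 t) t) (h2 : HasDerivAt φ1 L 0) : L ≤ 0 := by
  by_contra hL
  have hL' : 0 < L := not_le.1 hL
  have h0 : φ1 0 = 0 := hm.hasDerivAt_eq_zero h1.self_of_nhds
  have h3 : ∀ᶠ t in 𝓝[>] (0 : ℝ), 0 < φ1 t := by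
    have h4 := h2.tendsto_slope_zero_right.eventually (lt_mem_nhds hL')
    filter_upwards [h4, self_mem_nhdsWithin] with t ht ht0
    simp only [zero_add, h0, sub_zero, smul_eq_mul] at ht
    exact (pos_iff_pos_of_mul_pos ht).1 (inv_pos.2 ht0)
  obtain ⟨δ, hδ, h5⟩ := Metric.eventually_nhds_iff.1
    ((h1.and hm).and (eventually_nhdsWithin_iff.1 h3))
  have h6 : ∀ t, 0 ≤ t → t ≤ δ / 2 → dist t 0 < δ := fun t a b => by
    rw [Real.dist_eq, sub_zero, abs_of_nonneg a]; linarith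
  obtain ⟨ξ, hξ, e⟩ := exists_hasDerivAt_eq_slope φ φ1 (half_pos hδ)
    (fun t ht => (h5 (h6 t ht.1 ht.2)).1.1.continuousAt.continuousWithinAt)
    fun t ht => (h5 (h6 t ht.1.le ht.2.le)).1.1
  have h7 := (h5 (h6 ξ hξ.1.le hξ.2.le)).2 hξ.1
  have h8 := (h5 (h6 (δ / 2) (half_pos hδ).le le_rfl)).1.2
  rw [e] at h7
  have := div_nonpos_of_nonpos_of_nonneg (sub_nonpos.2 h8) (by linarith : 0 ≤ δ / 2 - 0)
  linarith

theorem sb_second' {Y Y1 : ℝ → ℝ} {L a b y : ℝ}
    (hm : IsLocalMax (fun τ => Y τ - a * ((y + τ) ^ 2 - y ^ 2) - b * ((y + τ) ^ 2 - y ^ 2) ^ 2) 0)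
    (h1 : ∀ᶠ t in 𝓝 (0 : ℝ), HasDerivAt Y (Y1 t) t) (h2 : HasDerivAt Y1 L 0) :
    L - a * 2 - b * (8 * y ^ 2) ≤ 0 := by
  have d0 : ∀ τ : ℝ, HasDerivAt (fun τ => y + τ) 1 τ := fun τ => (hasDerivAt_id τ).const_add y
  have dτ : ∀ τ, HasDerivAt (fun τ => (y + τ) ^ 2 - y ^ 2) (2 * (y + τ)) τ := fun τ =>
    (((d0 τ).pow 2).sub_const (y ^ 2)).congr_deriv (by simp)
  refine sb_second hm (φ1 := fun τ => Y1 τ - a * (2 * (y + τ)) -
    b * (2 * ((y + τ) ^ 2 - y ^ 2) * (2 * (y + τ)))) ?_ ?_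
  · filter_upwards [h1] with τ hτ
    exact ((hτ.sub ((dτ τ).const_mul a)).sub (((dτ τ).pow 2).const_mul b)).congr_deriv (by simp)
  · exact ((h2.sub (((d0 0).const_mul 2).const_mul a)).sub
      ((((dτ 0).const_mul 2).mul ((d0 0).const_mul 2)).const_mul b)).congr_deriv (by ring)

section

variable {I A Cf : Type} [Fintype I] [Fintype A] [DecidableEq A] [MeasurableSpace Cf]
  {R : Rg I A Cf} {K : ℝ} {k : ℕ} {ν : Measure Cf} [IsProbabilityMeasure ν]
  (p : I → Prop) [DecidablePred p]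

/-- direction of the perturbation of level `j` -/
noncomputable def sbd (c2 : ℝ) (j : ℕ) (j' : ℕ) (i : I) : ℝ := if j' = j ∧ p i then √c2 else 0

omit [Fintype A] [MeasurableSpace Cf] in
theorem sb_U {j : ℕ} (hj : j < k) (c2 : ℝ) (a : A) (s : St I Cf) :
    R.U k (sbd p c2 j) a s =
      ∑ i ∈ univ.filter (fun i => p i ∧ R.own i = a), √c2 * R.e i s.1 * s.2 j i := by
  unfold Rg.U
  rw [sum_eq_single_of_mem j (mem_range.2 hj) fun j' _ h => by simp [sbd, h], sum_filter,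
    sum_filter]
  refine sum_congr rfl fun i _ => ?_
  by_cases h1 : p i <;> by_cases h2 : R.own i = a <;> simp [sbd, h1, h2]

omit [Fintype I] [Fintype A] [DecidableEq A] in
theorem sb_measF (hR : R.OK K) (a : A) : Measurable (R.F1 a) ∧ Measurable (R.F2 a) := by
  constructor
  · have : R.F1 a = deriv (R.F a) := funext fun u => (hR.d1 a u).deriv.symm
    rw [this]; exact measurable_deriv _
  · have : R.F2 a = deriv (R.F1 a) := funext fun u => (hR.d2 a u).deriv.symm
    rw [this]; exact measurable_deriv _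

variable [Nonempty Cf]

theorem sb_Z (hR : R.OK K) (hk : 0 < k) {j : ℕ} (hj : j < k) {c2 y : ℝ} (hc2 : 0 < c2)
    (hy : 0 ≤ y) {w : ℕ → I → ℝ} (hw : ∀ i, p i → √(w j i) = y * √c2) {a : A}
    (he : ∀ i, p i → R.own i = a → ∀ σ, R.e i σ = 1)
    (hc : ((univ.filter fun i => p i ∧ R.own i = a).card : ℝ) * c2 ≤ 1) :
    ∫ s, R.U k (sbd p c2 j) a s ^ 2 ∂mm k ν (R.Hv k w) ≤ 2 + 4 * y ^ 2 * K ^ 2 := by
  classical
  have hY : (GS k I ν).OK := gs_ok hk
  have hH := Rg.lin_Hv (ν := ν) hR hk w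
  have := mm_prob hk hH
  set Z := R.U k (sbd p c2 j) a with hZ
  set J := univ.filter fun i => p i ∧ R.own i = a with hJ
  set G : St I Cf → ℝ := fun s => R.F1 a (R.U k (fun j i => √(w j i)) a s) with hG
  have xZ : (GS k I ν).Ex Z := (Rg.lin_U hR hk _ a).ex hY
  have hGb : ∀ s, |G s| ≤ K := fun s => hR.b1 _ _
  have hK : 0 ≤ K := (abs_nonneg _).trans (hR.b1 a 0)
  have xG : (GS k I ν).Ex G :=
    Sys.Ex.of_bdd hY ((sb_measF hR a).1.comp (Rg.lin_U (ν := ν) hR hk _ a).1) K hGb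
  have hs : √c2 * √c2 = c2 := mul_self_sqrt hc2.le
  set V := ∫ s, Z s ^ 2 ∂mm k ν (R.Hv k w) with hV
  set B := (∫ s, Z s * G s ∂mm k ν (R.Hv k w)) -
    (1 / (k : ℝ)) * ∑ l ∈ Ioo j k, ∫ z, Z z.1 * G z.2 ∂pp k ν (R.Hv k w) l with hB
  have h1 : ∀ i ∈ J, ∫ s, s.2 j i * Z s ∂mm k ν (R.Hv k w) = √c2 + y * √c2 * B := by
    intro i hi
    obtain ⟨hp, ho⟩ := (mem_filter.1 hi).2
    have dH : DirD j i (R.Hv k w) fun s => y * √c2 * G s :=
      (Rg.dirD_H hR (fun j i => √(w j i)) hj i).congr (fun _ => rfl) fun s => by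
        simp only [hw i hp, he i hp ho, ho, hG, one_mul]
    have dZ : DirD j i Z fun _ => √c2 :=
      (Rg.dirD_U (R := R) (sbd p c2 j) hj i a).congr (fun _ => rfl) fun s => by
        simp [ho, sbd, hp, he i hp ho]
    rw [ibp hk hj hH (xG.const_mul hY _) dH xZ (Sys.Ex.const hY _) dZ, hB]
    have e1 : ∀ u v : ℝ, u * (y * √c2 * v) = y * √c2 * (u * v) := fun u v => by ring
    simp only [e1, integral_const_mul, integral_const, probReal_univ, smul_eq_mul, one_mul,
      ← mul_sum]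
    ring
  have h2 : V = (J.card * c2) * (1 + y * B) := by
    have e : ∀ s, Z s ^ 2 = ∑ i ∈ J, √c2 * (s.2 j i * Z s) := by
      intro s
      have : Z s = ∑ i ∈ J, √c2 * s.2 j i := by
        rw [hZ, sb_U p hj]
        refine sum_congr rfl fun i hi => ?_
        obtain ⟨hp, ho⟩ := (mem_filter.1 hi).2
        rw [he i hp ho, mul_one]
      rw [sq]
      nth_rewrite 1 [this]
      rw [sum_mul]
      exact sum_congr rfl fun i _ => by ring
    simp only [hV, e]
    rw [integral_finsetSum _ fun i _ => (integrable_mm hk hH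
      (((lin_coord hk hj i).ex hY).mul hY xZ)).const_mul _]
    rw [sum_congr rfl fun i hi => by rw [integral_const_mul, h1 i hi], sum_const, nsmul_eq_mul]
    calc (J.card : ℝ) * (√c2 * (√c2 + y * √c2 * B)) = J.card * ((√c2 * √c2) * (1 + y * B)) := by
          ring
      _ = _ := by rw [hs]; ring
  set W := ∫ s, |Z s| ∂mm k ν (R.Hv k w) with hW
  have hW0 : 0 ≤ W := integral_nonneg fun _ => abs_nonneg _
  have h3 : ∫ s, Z s * G s ∂mm k ν (R.Hv k w) ≤ K * W := by
    rw [hW, ← integral_const_mul]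
    refine integral_mono (integrable_mm hk hH (xZ.mul hY xG))
      ((integrable_mm hk hH xZ.abs).const_mul _) fun s => ?_
    refine (le_abs_self _).trans ?_
    rw [abs_mul, mul_comm]
    exact mul_le_mul_of_nonneg_right (hGb s) (abs_nonneg _)
  have h4 : ∀ l ∈ Ioo j k, -(K * W) ≤ ∫ z, Z z.1 * G z.2 ∂pp k ν (R.Hv k w) l := by
    intro l hl
    have e : W = ∫ z, |Z z.1| ∂pp k ν (R.Hv k w) l := by
      rw [hW, ← pp_map_fst hk hH (l := l) (by have := (mem_Ioo.1 hl).2; omega),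
        integral_map measurable_fst.aemeasurable xZ.abs.1.aestronglyMeasurable]
    rw [e, ← integral_const_mul, ← integral_neg]
    refine integral_mono ((integrable_pp hk hH (xZ.abs.fst hY) l).const_mul _).neg
      (integrable_pp hk hH ((xZ.fst hY).mul hY (xG.snd hY)) l) fun z => ?_
    refine le_trans ?_ (neg_abs_le _)
    rw [neg_le_neg_iff, abs_mul, mul_comm]
    exact mul_le_mul_of_nonneg_right (hGb _) (abs_nonneg _)
  have hk' : (0 : ℝ) < k := by exact_mod_cast hk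
  have h5 : B ≤ 2 * K * W := by
    have h6 := sum_le_sum h4
    rw [sum_const, nsmul_eq_mul, Nat.card_Ioo] at h6
    have h7 : ((k - j - 1 : ℕ) : ℝ) ≤ k := by exact_mod_cast (by omega : k - j - 1 ≤ k)
    have h8 : -(K * W) ≤
        (1 / (k : ℝ)) * ∑ l ∈ Ioo j k, ∫ z, Z z.1 * G z.2 ∂pp k ν (R.Hv k w) l := by
      rw [one_div, ← div_eq_inv_mul, le_div_iff₀ hk']
      nlinarith [mul_nonneg hK hW0]
    linarith
  have h6 : 2 * y * K * W ≤ V / 2 + 2 * y ^ 2 * K ^ 2 := by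
    have : ∫ s, 2 * y * K * |Z s| ∂mm k ν (R.Hv k w) ≤
        ∫ s, (Z s ^ 2 / 2 + 2 * y ^ 2 * K ^ 2) ∂mm k ν (R.Hv k w) := by
      refine integral_mono ((integrable_mm hk hH xZ.abs).const_mul _)
        (((integrable_mm hk hH (xZ.sq hY)).div_const _).add (integrable_const _)) fun s => ?_
      simp only
      nlinarith [sq_nonneg (|Z s| - 2 * y * K), sq_abs (Z s)]
    rw [integral_add ((integrable_mm hk hH (xZ.sq hY)).div_const _) (integrable_const _),
      integral_const_mul, integral_div] at this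
    simpa using this
  have h7 : V ≤ 1 + 2 * y * K * W := by
    have hm0 : 0 ≤ (J.card : ℝ) * c2 := by positivity
    have h8 : 1 + y * B ≤ 1 + 2 * y * K * W := by nlinarith
    have h9 : 0 ≤ 1 + 2 * y * K * W := by positivity
    rw [h2]
    nlinarith [mul_le_mul_of_nonneg_left h8 hm0]
  linarith

theorem sb_var (hR : R.OK K) (hK : 1 ≤ K) (hk : 0 < k) {j : ℕ} (hj : j < k) {c2 u c N : ℝ}
    (hc2 : 0 < c2) (hu : 0 < u) (huc : u ≤ c) (hN : 0 ≤ N) {w : ℕ → I → ℝ}
    (hw : ∀ i, p i → w j i = u * c2) (hb : ∀ σ, ∑ i ∈ univ.filter p, c2 * R.e i σ ^ 2 ≤ K * N)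
    (he : ∀ a, (∀ z, R.F2 a z = 0) ∨ ((∀ i, p i → R.own i = a → ∀ σ, R.e i σ = 1) ∧
      ((univ.filter fun i => p i ∧ R.own i = a).card : ℝ) * c2 ≤ 1))
    (hA : (Fintype.card A : ℝ) ≤ K * N) {a : ℝ}
    (hm : IsLocalMax (fun t : ℝ => R.Yv k ν
      (fun j' i => w j' i + if j' = j ∧ p i then t * c2 else 0) - a * t - c * N * t ^ 2) 0) :
    (∫ s, (∑ i ∈ univ.filter p, s.2 j i * (√c2 * R.ψ k w i s)) ^ 2 ∂mm k ν (R.Hv k w)) -
      (∫ s, ∑ i ∈ univ.filter p, s.2 j i * (√c2 * R.ψ k w i s) ∂mm k ν (R.Hv k w)) ^ 2 ≤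
      k * N * (4 * K ^ 3 + 8 * c ^ 2 + K ^ 2 * (2 + 4 * c * K ^ 2)) := by
  classical
  have hY : (GS k I ν).OK := gs_ok hk
  have hH := Rg.lin_Hv (ν := ν) hR hk w
  have := mm_prob hk hH
  have hk' : (0 : ℝ) < k := by exact_mod_cast hk
  set y := √u with hy
  have hy0 : 0 < y := sqrt_pos.2 hu
  have hyy : y ^ 2 = u := sq_sqrt hu.le
  have hw' : ∀ i, p i → √(w j i) = y * √c2 := fun i hp => by rw [hw i hp, sqrt_mul hu.le]
  -- the first order condition
  have ha : |a| ≤ 2 * K ^ 2 * (K * N) := by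
    have d1 := Rg.GI_deriv (ν := ν) hR hk (w := w)
      (w' := fun j' i => if j' = j ∧ p i then c2 else 0) fun j' _ i h => by
        have h1 : j' = j ∧ p i := by by_contra h2; exact h (if_neg h2)
        rw [h1.1, hw i h1.2]; positivity
    simp only [mul_ite, mul_zero] at d1
    have d2 := (d1.sub ((hasDerivAt_id (0 : ℝ)).const_mul a)).sub
      ((hasDerivAt_pow 2 (0 : ℝ)).const_mul (c * N))
    have e := hm.hasDerivAt_eq_zero d2
    have e2 : a = R.GI k ν w fun j' i => if j' = j ∧ p i then c2 else 0 := by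
      simp at e; linarith
    rw [e2]
    refine Rg.abs_GI_le hR hK hk _ _ fun σ => le_of_eq_of_le ?_ (hb σ)
    rw [sum_filter]
    refine sum_congr rfl fun i _ => ?_
    rw [sum_eq_single_of_mem j (mem_range.2 hj) fun j' _ h => by simp [h]]
    by_cases hp : p i <;> simp [hp, abs_of_pos hc2]
  -- the path of coefficients
  set lam : ℕ → I → ℝ := fun j i => √(w j i) with hlam
  set dd := sbd p c2 j with hdd
  obtain ⟨C, hC⟩ : ∃ C, ∀ j' < k, ∀ i, |lam j' i| + |dd j' i| ≤ C := by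
    refine ⟨∑ j' ∈ range k, ∑ i, (|lam j' i| + |dd j' i|), fun j' hj' i => ?_⟩
    refine le_trans ?_ (single_le_sum (f := fun j' => ∑ i, (|lam j' i| + |dd j' i|))
      (fun _ _ => sum_nonneg fun _ _ => by positivity) (mem_range.2 hj'))
    exact single_le_sum (f := fun i => |lam j' i| + |dd j' i|) (fun _ _ => by positivity)
      (mem_univ i)
  have hL := Rg.lfam_H (ν := ν) hR hk (U := Set.Ioo (-1) 1)
    (lam := fun t j i => lam j i + t * dd j i) (lam' := fun _ => dd) (C := C)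
    (fun t _ j' _ i => by simpa using ((hasDerivAt_id t).mul_const (dd j' i)).const_add (lam j' i))
    fun t ht j' hj' i => by
      have h1 := hC j' hj' i
      have h2 : |t * dd j' i| ≤ |dd j' i| := by
        rw [abs_mul]
        exact mul_le_of_le_one_left (abs_nonneg _) (abs_le.2 ⟨ht.1.le, ht.2.le⟩)
      exact ⟨(abs_add_le _ _).trans (by linarith), by linarith [abs_nonneg (lam j' i)]⟩
  have hX := Sys.X_fam hY isOpen_Ioo hL (k + 1) 0
  have hP := Sys.P_fam hY isOpen_Ioo hL (Rg.fam_H' hR hk lam dd) (k + 1) 0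
  have h0 : (0 : ℝ) ∈ Set.Ioo (-1 : ℝ) 1 := by norm_num
  have d2 := hP.der 0 h0 (s0 I Cf)
  simp only [zero_mul, add_zero] at d2
  set h : St I Cf → ℝ := fun s => ∑ a, R.F1 a (R.U k lam a s) * R.U k dd a s with hh
  have xh : (GS k I ν).Ex h := by
    have := hL.toFam.ex' h0
    simpa only [zero_mul, add_zero] using this
  have hh2 : ∀ s, ∑ i ∈ univ.filter p, s.2 j i * (√c2 * R.ψ k w i s) = h s := by
    intro s
    simp only [hh, hdd, sb_U p hj, mul_sum]
    rw [← sum_fiberwise_of_maps_to (s := univ.filter p) (t := univ) (g := R.own)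
      fun _ _ => mem_univ _]
    refine sum_congr rfl fun a _ => ?_
    rw [filter_filter]
    refine sum_congr rfl fun i hi => ?_
    rw [Rg.ψ, (mem_filter.1 hi).2.2]
    ring
  -- the second order condition
  set τt : ℝ → ℝ := fun τ => (y + τ) ^ 2 - y ^ 2 with hτt
  have hm2 : IsLocalMax (fun τ : ℝ => (GS k I ν).X (k + 1) 0
      (R.H k fun j i => lam j i + τ * dd j i) (s0 I Cf) - a * τt τ - c * N * τt τ ^ 2) 0 := by
    have h1 := IsLocalMax.comp_continuous (g := τt) (b := 0) (by simpa [hτt] using hm)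
      (by fun_prop)
    refine h1.congr ?_
    filter_upwards [lt_mem_nhds (neg_lt_zero.2 hy0)] with τ hτ
    simp only [Function.comp, Rg.Yv, YY, Rg.Hv]
    congr 5
    funext j' i
    by_cases h2 : j' = j ∧ p i
    · simp only [hlam, hdd, sbd, if_pos h2]
      rw [h2.1, hw' i h2.2, hw i h2.2, ← hyy,
        show y ^ 2 * c2 + τt τ * c2 = (y + τ) ^ 2 * c2 by simp only [hτt]; ring,
        sqrt_mul (sq_nonneg _), sqrt_sq (by linarith)]
      ring
    · simp only [hlam, hdd, sbd, if_neg h2, add_zero, mul_zero]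
  have h3 := sb_second' hm2 (by
    filter_upwards [isOpen_Ioo.mem_nhds h0] with τ hτ using hX.der τ hτ (s0 I Cf)) d2
  have h4 := Sys.var_le_D hY hH xh (k + 1) 0 (1 / k) (fun i _ _ => le_min
    (by rw [div_le_one hk']; exact_mod_cast hk)
    (div_le_div_of_nonneg_right (by linarith [Nat.cast_nonneg (α := ℝ) i]) hk'.le)) (s0 I Cf)
  have h5 : -(K * (K * N) * (2 + 4 * c * K ^ 2)) ≤ (GS k I ν).P (k + 1) 0 (R.H k lam)
      (fun s => ∑ a, R.F2 a (R.U k lam a s) * R.U k dd a s ^ 2) (s0 I Cf) := by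
    have xa : ∀ a, (GS k I ν).Ex fun s => R.F2 a (R.U k lam a s) * R.U k dd a s ^ 2 := fun a =>
      (Sys.Ex.of_bdd hY ((sb_measF hR a).2.comp (Rg.lin_U (ν := ν) hR hk _ a).1) K
        fun s => hR.b2 _ _).mul hY (((Rg.lin_U hR hk _ a).ex hY).sq hY)
    have hc0 : 0 ≤ c := by linarith
    have h6 : ∀ a, -(K * (2 + 4 * c * K ^ 2)) ≤
        ∫ s, R.F2 a (R.U k lam a s) * R.U k dd a s ^ 2 ∂mm k ν (R.Hv k w) := by
      intro a
      rcases he a with h7 | ⟨h7, h8⟩
      · simp only [h7, zero_mul, integral_zero, neg_nonpos]; positivity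
      · have h9 := sb_Z p (ν := ν) hR hk hj hc2 hy0.le hw' h7 h8
        have h10 : ∫ s, -K * R.U k dd a s ^ 2 ∂mm k ν (R.Hv k w) ≤
            ∫ s, R.F2 a (R.U k lam a s) * R.U k dd a s ^ 2 ∂mm k ν (R.Hv k w) :=
          integral_mono ((integrable_mm hk hH (((Rg.lin_U hR hk _ a).ex hY).sq hY)).const_mul _)
            (integrable_mm hk hH (xa a)) fun s =>
              mul_le_mul_of_nonneg_right (abs_le.1 (hR.b2 _ _)).1 (sq_nonneg _)
        rw [integral_const_mul] at h10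
        rw [hyy] at h9
        have h11 : 2 + 4 * u * K ^ 2 ≤ 2 + 4 * c * K ^ 2 := by gcongr
        nlinarith [mul_le_mul_of_nonneg_left (h9.trans h11) (by linarith : 0 ≤ K)]
    have h7 := sum_le_sum fun a (_ : a ∈ univ) => h6 a
    rw [← integral_finsetSum _ fun a _ => integrable_mm hk hH (xa a), sum_const, card_univ,
      nsmul_eq_mul] at h7
    refine le_trans ?_ h7
    nlinarith [mul_le_mul_of_nonneg_right hA (by positivity : 0 ≤ K * (2 + 4 * c * K ^ 2))]
  simp only [hh2]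
  have h6 : c * N * (8 * y ^ 2) ≤ N * (8 * c ^ 2) := by
    rw [hyy]
    nlinarith [mul_le_mul_of_nonneg_left huc (by nlinarith : 0 ≤ c * N)]
  have h7 : (GS k I ν).D (k + 1) 0 (R.Hv k w) h h (s0 I Cf) ≤
      N * (4 * K ^ 3 + 8 * c ^ 2 + K ^ 2 * (2 + 4 * c * K ^ 2)) := by
    change (GS k I ν).D (k + 1) 0 (R.H k lam) h h (s0 I Cf) ≤ _
    nlinarith [le_abs_self a]
  rw [one_div, inv_mul_le_iff₀ hk'] at h4
  refine h4.trans ?_
  rw [mul_assoc]
  gcongr

end

/-- synchronisation at a contact point -/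
theorem syncB (K η : ℝ) (hK : 1 ≤ K) (hη : 0 < η) : ∃ k0 : ℕ, ∀ k ≥ k0, 0 < k → ∀ ε > 0, ∀ c : ℝ,
    ∃ N0 : ℝ, ∀ (I A Cf : Type) [Fintype I] [Fintype A] [DecidableEq A] [MeasurableSpace Cf]
    [Nonempty Cf] (R : Rg I A Cf) (_ : R.OK K) (ν : Measure Cf) [IsProbabilityMeasure ν]
    (p : I → Prop) [DecidablePred p] (c2 N : ℝ) (w : ℕ → I → ℝ) (u : ℕ → ℝ) (_ : N0 ≤ N)
    (_ : 0 < c2) (_ : ∀ j < k, ε ≤ u j ∧ u j ≤ c) (_ : ∀ j < k, ∀ i, p i → w j i = u j * c2)
    (_ : ∀ σ, ∑ i ∈ univ.filter p, c2 * R.e i σ ^ 2 ≤ K * N)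
    (_ : ∀ a, (∀ z, R.F2 a z = 0) ∨ ((∀ i, p i → R.own i = a → ∀ σ, R.e i σ = 1) ∧
      ((univ.filter fun i => p i ∧ R.own i = a).card : ℝ) * c2 ≤ 1))
    (_ : (Fintype.card A : ℝ) ≤ K * N)
    (_ : ∀ j < k, ∃ a : ℝ, IsLocalMax (fun t : ℝ => R.Yv k ν
      (fun j' i => w j' i + if j' = j ∧ p i then t * c2 else 0) - a * t - c * N * t ^ 2) 0),
    (1 / (k : ℝ)) * ∑ l ∈ range k,
      ∫ z, ((∑ i ∈ univ.filter p, c2 * (R.ψ k w i z.1 * R.ψ k w i z.2)) / N -
        ∫ z, (∑ i ∈ univ.filter p, c2 * (R.ψ k w i z.1 * R.ψ k w i z.2)) / N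
          ∂pp k ν (R.Hv k w) l) ^ 2 ∂pp k ν (R.Hv k w) l ≤ η := by
  obtain ⟨k0, hk0⟩ := eventually_atTop.1 ((tendsto_const_div_atTop_nhds_zero_nat
    (7 * (K ^ 4) ^ 2)).eventually (ge_mem_nhds (half_pos hη)))
  refine ⟨k0, fun k hk0' hk ε hε c => ?_⟩
  set C := 4 * K ^ 3 + 8 * c ^ 2 + K ^ 2 * (2 + 4 * c * K ^ 2) with hC
  have hlim : Tendsto (fun N : ℝ => 5 * k * (K ^ 4 / N + 2 * √(k * C) * K ^ 4 / √ε / √N)) atTop
      (𝓝 0) := by
    have h1 := (tendsto_const_nhds (x := K ^ 4)).div_atTop tendsto_id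
    have h2 := (tendsto_const_nhds (x := 2 * √(k * C) * K ^ 4 / √ε)).div_atTop tendsto_sqrt_atTop
    simpa using (h1.add h2).const_mul (5 * (k : ℝ))
  obtain ⟨N0, hN0⟩ := eventually_atTop.1
    ((hlim.eventually (ge_mem_nhds (half_pos hη))).and (eventually_gt_atTop 0))
  refine ⟨N0, fun I A Cf _ _ _ _ _ R hR ν _ p _ c2 N w u hN hc2 hu hw hb he hA hm => ?_⟩
  classical
  obtain ⟨hN1, hN2⟩ := hN0 N hN
  have hY : (GS k I ν).OK := gs_ok hk
  have hs : √c2 * √c2 = c2 := mul_self_sqrt hc2.le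
  have hu0 : ∀ j < k, 0 < u j := fun j hj => hε.trans_le (hu j hj).1
  have hw' : ∀ j < k, ∀ i, p i → √(w j i) = √(u j) * √c2 := fun j hj i hp => by
    rw [hw j hj i hp, sqrt_mul (hu0 j hj).le]
  have hc0 : 0 ≤ c := (hu0 0 hk).le.trans (hu 0 hk).2
  have hC0 : 0 ≤ C := by positivity
  have hK0 : 0 ≤ K := by linarith
  have hsub : ∀ g : I → ℝ, ∑ d : Subtype p, g d = ∑ i ∈ univ.filter p, g i := fun g =>
    (sum_subtype _ (by simp) g).symm
  obtain ⟨E, hE⟩ := hR.be
  set lam : ℕ → I → ℝ := fun j i => √(w j i) with hlam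
  have key := syncA (D := Subtype p) hk (Rg.lin_Hv (ν := ν) hR hk w) Subtype.val
    (fun d s => √c2 * R.ψ k w d s)
    (fun d d' s => if R.own d = R.own d' then
      c2 * R.e d s.1 * R.e d' s.1 * R.F2 (R.own d') (R.U k lam (R.own d') s) else 0)
    (fun j => √(u j)) (N := N) (K := K ^ 4) (ε := √ε) (β := √(k * C) * √N) hN2 (by positivity)
    (sqrt_pos.2 hε) (by positivity) (fun j hj => sqrt_le_sqrt (hu j hj).1)
    (fun d => (Rg.measurable_ψ hR w _).const_mul _)
    (fun d d' => by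
      split_ifs
      · exact (((Sys.Ex.of_bdd hY ((hR.me _).comp measurable_fst) E fun s => hE _ _).const_mul
          hY c2).mul hY (Sys.Ex.of_bdd hY ((hR.me _).comp measurable_fst) E fun s => hE _ _)).mul
          hY (Sys.Ex.of_bdd hY ((sb_measF hR _).2.comp (Rg.lin_U (ν := ν) hR hk _ _).1) K
            fun s => hR.b2 _ _)
      · exact Sys.Ex.const hY 0)
    (fun j hj d => (Rg.dirD_H hR lam hj d).congr (fun _ => rfl) fun s => by
      simp only [hlam, hw' j hj d d.2, Rg.ψ]; ring)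
    (fun j hj d d' => (((DirD.config (R.e d')).mul
      ((Rg.dirD_U (R := R) lam hj d (R.own d')).comp (hR.d2 _))).const_mul (√c2)).congr
        (fun _ => rfl) fun s => by
          split_ifs
          · simp only [hlam, hw' j hj d d.2]
            conv_lhs => rw [← hs]
            ring
          · ring)
    (fun s => by
      rw [hsub fun i => (√c2 * R.ψ k w i s) ^ 2]
      calc ∑ i ∈ univ.filter p, (√c2 * R.ψ k w i s) ^ 2
          ≤ ∑ i ∈ univ.filter p, K ^ 2 * (c2 * R.e i s.1 ^ 2) := by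
            refine sum_le_sum fun i _ => ?_
            rw [mul_pow, sq_sqrt hc2.le]
            nlinarith [mul_le_mul_of_nonneg_left (Rg.ψ_sq_le (k := k) hR w i s) hc2.le]
        _ ≤ K ^ 2 * (K * N) := by rw [← mul_sum]; gcongr; exact hb _
        _ ≤ K ^ 4 * N := by
            have : K ^ 3 ≤ K ^ 4 := pow_le_pow_right₀ hK (by norm_num)
            nlinarith)
    (fun s s' => by
      have e : ∑ d : Subtype p, ∑ d' : Subtype p, √c2 * R.ψ k w d s * (√c2 * R.ψ k w d' s) *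
          (if R.own d = R.own d' then c2 * R.e d s'.1 * R.e d' s'.1 *
            R.F2 (R.own d') (R.U k lam (R.own d') s') else 0) =
          ∑ a, R.F2 a (R.U k lam a s') *
            (∑ i ∈ univ.filter (fun i => p i ∧ R.own i = a), c2 * R.ψ k w i s * R.e i s'.1) ^ 2 := by
        rw [sum_comm, hsub fun d' => ∑ d : Subtype p, √c2 * R.ψ k w d s * (√c2 * R.ψ k w d' s) *
          (if R.own d = R.own d' then c2 * R.e d s'.1 * R.e d' s'.1 *
            R.F2 (R.own d') (R.U k lam (R.own d') s') else 0),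
          ← sum_fiberwise_of_maps_to (s := univ.filter p) (t := univ) (g := R.own)
            fun _ _ => mem_univ _]
        refine sum_congr rfl fun a _ => ?_
        rw [filter_filter, sq, sum_mul_sum, mul_sum]
        refine sum_congr rfl fun i' hi' => ?_
        rw [(mem_filter.1 hi').2.2, hsub fun d => √c2 * R.ψ k w d s * (√c2 * R.ψ k w i' s) *
          (if R.own d = a then c2 * R.e d s'.1 * R.e i' s'.1 *
            R.F2 a (R.U k lam a s') else 0), mul_sum, ← filter_filter, sum_filter (fun i => R.own i = a)]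
        refine sum_congr rfl fun i _ => ?_
        split_ifs
        · conv_rhs => rw [← hs]
          conv_lhs => enter [2]; rw [← hs]
          ring
        · ring
      rw [e]
      have h1 : ∀ a, |R.F2 a (R.U k lam a s') * (∑ i ∈ univ.filter
          (fun i => p i ∧ R.own i = a), c2 * R.ψ k w i s * R.e i s'.1) ^ 2| ≤ K ^ 3 := by
        intro a
        rcases he a with h2 | ⟨h2, h3⟩
        · rw [h2, zero_mul, abs_zero]; positivity
        · have h4 : |∑ i ∈ univ.filter (fun i => p i ∧ R.own i = a),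
              c2 * R.ψ k w i s * R.e i s'.1| ≤ K := by
            refine (abs_sum_le_sum_abs _ _).trans ((sum_le_card_nsmul _ _ (c2 * K)
              fun i hi => ?_).trans ?_)
            · obtain ⟨h5, h6⟩ := (mem_filter.1 hi).2
              rw [Rg.ψ, h2 i h5 h6, h2 i h5 h6, mul_one, one_mul, abs_mul, abs_of_pos hc2]
              exact mul_le_mul_of_nonneg_left (hR.b1 _ _) hc2.le
            · rw [nsmul_eq_mul]
              nlinarith
          rw [abs_mul, abs_pow, pow_succ' K 2]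
          gcongr
          exact hR.b2 _ _
      refine (abs_sum_le_sum_abs _ _).trans ((sum_le_card_nsmul _ _ _ fun a _ => h1 a).trans ?_)
      rw [nsmul_eq_mul, card_univ]
      nlinarith [mul_le_mul_of_nonneg_right hA (by positivity : 0 ≤ K ^ 3)])
    (fun j hj => by
      obtain ⟨a, ha⟩ := hm j hj
      have h1 := sb_var p hR hK hk hj hc2 (hu0 j hj) (hu j hj).2 hN2.le (hw j hj) hb he hA ha
      have h2 : ∀ s : St I Cf, ∑ d : Subtype p, s.2 j d * (√c2 * R.ψ k w d s) =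
          ∑ i ∈ univ.filter p, s.2 j i * (√c2 * R.ψ k w i s) := fun s =>
        hsub fun i => s.2 j i * (√c2 * R.ψ k w i s)
      simp only [h2]
      rw [mul_pow, sq_sqrt (by positivity), sq_sqrt hN2.le]
      linarith)
  have e : ∀ z : St I Cf × St I Cf, Kr N (fun (d : Subtype p) s => √c2 * R.ψ k w d s) z =
      (∑ i ∈ univ.filter p, c2 * (R.ψ k w i z.1 * R.ψ k w i z.2)) / N := by
    intro z
    unfold Kr
    rw [hsub fun i => √c2 * R.ψ k w i z.1 * (√c2 * R.ψ k w i z.2)]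
    congr 1
    refine sum_congr rfl fun i _ => ?_
    conv_rhs => rw [← hs]
    ring
  simp only [e] at key
  refine key.trans ?_
  have e2 : 2 * (√(k * C) * √N) * K ^ 4 / (√ε * N) = 2 * √(k * C) * K ^ 4 / √ε / √N := by
    have h1 : 0 < √N := sqrt_pos.2 hN2
    have h2 : 0 < √ε := sqrt_pos.2 hε
    conv_lhs => enter [2, 2]; rw [← mul_self_sqrt hN2.le]
    field_simp
  rw [e2]
  linarith [hk0 k hk0']

end Vale.Agent.P146M
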